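import Vale.Agent.P205.UBs

open scoped ContDiff ComplexConjugate
open Real Filter

namespace Vale.Agent.P205

namespace L1

/-- the constant function 1 / n -/
noncomputable def ep (n : ℕ) : CP := (1 / (n : ℂ)) • (1 : CP)

theorem smul_ep (n : ℕ) (F : CP) : (1 / (n : ℂ)) • F = ep n * F := by
  unfold ep; rw [smul_mul_assoc, one_mul]

theorem smul_ep4 (n : ℕ) (F : CP) : (1 / (n : ℂ) ^ 4) • F = ep n * ep n * ep n * ep n * F := by
  unfold ep
  simp only [smul_mul_assoc, one_mul, smul_smul]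
  congr 1
  rcases eq_or_ne (n : ℂ) 0 with h | h
  · rw [h]; norm_num
  · field_simp

/-- the constant function n -/
noncomputable def nn (n : ℕ) : CP := (n : ℂ) • (1 : CP)

theorem smul_nn (n : ℕ) (F : CP) : (n : ℂ) • F = nn n * F := by
  unfold nn; rw [smul_mul_assoc, one_mul]

theorem ep_nn (n : ℕ) (hn : 1 ≤ n) : ep n * nn n = 1 := by
  unfold ep nn
  have : (n : ℂ) ≠ 0 := by exact_mod_cast (by omega : n ≠ 0)
  rw [smul_mul_smul_comm, one_mul, one_div, inv_mul_cancel₀ this, one_smul]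

theorem dX_ep (n : ℕ) : dX (ep n) = 0 := by unfold ep; rw [map_smul, dX_one, smul_zero]

theorem dY_ep (n : ℕ) : dY (ep n) = 0 := by unfold ep; rw [map_smul, dY_one, smul_zero]

theorem rl_ep (n : ℕ) : IsRl (ep n) := IsRl.one.smul _ (by simp [Complex.inv_im])

theorem bdd_ep : Bdd ep := by
  refine Bdd_smul (Bdd_const 1) (fun n => 1 / (n : ℂ)) fun n hn => ?_
  rw [norm_div, norm_one, Complex.norm_natCast, div_le_one (by exact_mod_cast hn)]
  exact_mod_cast hn

theorem bdd_neg {a : ℕ → CP} (ha : Bdd a) : Bdd (fun n => -a n) := by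
  have := Bdd_sub (Bdd_const 0) ha
  simpa only [zero_sub] using this

theorem fr_dot (n : ℕ) (V W : Fin 4 → CP) :
    ∑ c, fr n V c * fr n W c = ∑ c, V c * W c := by
  rw [Fin.sum_univ_four, Fin.sum_univ_four]
  show (V 0 * cX n - V 1 * sX n) * (W 0 * cX n - W 1 * sX n) +
    (V 0 * sX n + V 1 * cX n) * (W 0 * sX n + W 1 * cX n) +
    (V 2 * cY n - V 3 * sY n) * (W 2 * cY n - W 3 * sY n) +
    (V 2 * sY n + V 3 * cY n) * (W 2 * sY n + W 3 * cY n) = _
  linear_combination (V 0 * W 0 + V 1 * W 1) * cX_sq n + (V 2 * W 2 + V 3 * W 3) * cY_sq n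

theorem dX_fr (n : ℕ) (V : Fin 4 → CP) (c : Fin 4) : dX (fr n V c) =
    fr n ![dX (V 0) - nn n * V 1, dX (V 1) + nn n * V 0, dX (V 2), dX (V 3)] c := by
  fin_cases c
  · show dX (V 0 * cX n - V 1 * sX n) = (dX (V 0) - nn n * V 1) * cX n -
      (dX (V 1) + nn n * V 0) * sX n
    rw [map_sub, dX_mul, dX_mul, dX_cX, dX_sX, smul_nn, smul_nn]; ring
  · show dX (V 0 * sX n + V 1 * cX n) = (dX (V 0) - nn n * V 1) * sX n +
      (dX (V 1) + nn n * V 0) * cX n
    rw [map_add, dX_mul, dX_mul, dX_cX, dX_sX, smul_nn, smul_nn]; ring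
  · show dX (V 2 * cY n - V 3 * sY n) = dX (V 2) * cY n - dX (V 3) * sY n
    rw [map_sub, dX_mul, dX_mul, dX_cY, dX_sY]; ring
  · show dX (V 2 * sY n + V 3 * cY n) = dX (V 2) * sY n + dX (V 3) * cY n
    rw [map_add, dX_mul, dX_mul, dX_cY, dX_sY]; ring

theorem dY_fr (n : ℕ) (V : Fin 4 → CP) (c : Fin 4) : dY (fr n V c) =
    fr n ![dY (V 0), dY (V 1), dY (V 2) - nn n * V 3, dY (V 3) + nn n * V 2] c := by
  fin_cases c
  · show dY (V 0 * cX n - V 1 * sX n) = dY (V 0) * cX n - dY (V 1) * sX n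
    rw [map_sub, dY_mul, dY_mul, dY_cX, dY_sX]; ring
  · show dY (V 0 * sX n + V 1 * cX n) = dY (V 0) * sX n + dY (V 1) * cX n
    rw [map_add, dY_mul, dY_mul, dY_cX, dY_sX]; ring
  · show dY (V 2 * cY n - V 3 * sY n) = (dY (V 2) - nn n * V 3) * cY n -
      (dY (V 3) + nn n * V 2) * sY n
    rw [map_sub, dY_mul, dY_mul, dY_cY, dY_sY, smul_nn, smul_nn]; ring
  · show dY (V 2 * sY n + V 3 * cY n) = (dY (V 2) - nn n * V 3) * sY n +
      (dY (V 3) + nn n * V 2) * cY n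
    rw [map_add, dY_mul, dY_mul, dY_cY, dY_sY, smul_nn, smul_nn]; ring

theorem ep_fr (n : ℕ) (V : Fin 4 → CP) (c : Fin 4) :
    ep n * fr n V c = fr n (fun c => ep n * V c) c := by
  fin_cases c
  · show ep n * (V 0 * cX n - V 1 * sX n) = (ep n * V 0) * cX n - (ep n * V 1) * sX n
    ring
  · show ep n * (V 0 * sX n + V 1 * cX n) = (ep n * V 0) * sX n + (ep n * V 1) * cX n
    ring
  · show ep n * (V 2 * cY n - V 3 * sY n) = (ep n * V 2) * cY n - (ep n * V 3) * sY n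
    ring
  · show ep n * (V 2 * sY n + V 3 * cY n) = (ep n * V 2) * sY n + (ep n * V 3) * cY n
    ring

theorem fr_congr (n : ℕ) {V W : Fin 4 → CP} (h : ∀ c, V c = W c) (c : Fin 4) :
    fr n V c = fr n W c := by
  have : V = W := funext h
  rw [this]

/-- bounded real families -/
structure Nice (a : ℕ → CP) : Prop where
  b : Bdd a
  r : RlFam a

theorem Nice.ep : Nice L1.ep := ⟨bdd_ep, rl_ep⟩

theorem Nice.con {a : CP} (h : IsRl a) : Nice (fun _ => a) := ⟨Bdd_const a, fun _ => h⟩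

theorem Nice.mul {a b : ℕ → CP} (ha : Nice a) (hb : Nice b) : Nice (fun n => a n * b n) :=
  ⟨Bdd_mul ha.b hb.b, fun n => (ha.r n).mul (hb.r n)⟩

theorem Nice.add {a b : ℕ → CP} (ha : Nice a) (hb : Nice b) : Nice (fun n => a n + b n) :=
  ⟨Bdd_add ha.b hb.b, fun n => (ha.r n).add (hb.r n)⟩

theorem Nice.sub {a b : ℕ → CP} (ha : Nice a) (hb : Nice b) : Nice (fun n => a n - b n) :=
  ⟨Bdd_sub ha.b hb.b, fun n => (ha.r n).sub (hb.r n)⟩

theorem Nice.neg {a : ℕ → CP} (ha : Nice a) : Nice (fun n => -a n) :=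
  ⟨bdd_neg ha.b, fun n => (ha.r n).neg⟩

theorem all4 {P : (ℕ → CP) → Prop} {a b c d : ℕ → CP} (ha : P a) (hb : P b) (hc : P c)
    (hd : P d) (i : Fin 4) : P (![a, b, c, d] i) := by
  fin_cases i
  · exact ha
  · exact hb
  · exact hc
  · exact hd

variable (r1 r2 a1 a2 b1 b2 : CP)

/-- the approximate immersion -/
noncomputable def f0 (n : ℕ) : Fin 4 → CP :=
  fr n ![ep n * (r1 + ep n * ep n * a1), ep n * (ep n * b1), ep n * (r2 + ep n * ep n * a2),
    ep n * (ep n * b2)]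

/-- components of the first derivative -/
noncomputable def fx (n : ℕ) : Fin 4 → CP :=
  ![ep n * (dX r1 + ep n * ep n * dX a1 - b1), r1 + ep n * ep n * (a1 + dX b1),
    ep n * (dX r2 + ep n * ep n * dX a2), ep n * (ep n * dX b2)]

/-- components of the second derivative -/
noncomputable def fy (n : ℕ) : Fin 4 → CP :=
  ![ep n * (dY r1 + ep n * ep n * dY a1), ep n * (ep n * dY b1),
    ep n * (dY r2 + ep n * ep n * dY a2 - b2), r2 + ep n * ep n * (a2 + dY b2)]

theorem dX_f0 (n : ℕ) (hn : 1 ≤ n) (c : Fin 4) :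
    dX (f0 r1 r2 a1 a2 b1 b2 n c) = fr n (fx r1 r2 a1 a2 b1 b2 n) c := by
  unfold f0
  rw [dX_fr]
  refine fr_congr n (fun c => ?_) c
  have h := ep_nn n hn
  fin_cases c
  · show dX (ep n * (r1 + ep n * ep n * a1)) - nn n * (ep n * (ep n * b1)) =
      ep n * (dX r1 + ep n * ep n * dX a1 - b1)
    simp only [dX_mul, map_add, dX_ep]
    linear_combination (-(ep n * b1)) * h
  · show dX (ep n * (ep n * b1)) + nn n * (ep n * (r1 + ep n * ep n * a1)) =
      r1 + ep n * ep n * (a1 + dX b1)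
    simp only [dX_mul, dX_ep]
    linear_combination (r1 + ep n * ep n * a1) * h
  · show dX (ep n * (r2 + ep n * ep n * a2)) = ep n * (dX r2 + ep n * ep n * dX a2)
    simp only [dX_mul, map_add, dX_ep]
    ring
  · show dX (ep n * (ep n * b2)) = ep n * (ep n * dX b2)
    simp only [dX_mul, dX_ep]
    ring

theorem dY_f0 (n : ℕ) (hn : 1 ≤ n) (c : Fin 4) :
    dY (f0 r1 r2 a1 a2 b1 b2 n c) = fr n (fy r1 r2 a1 a2 b1 b2 n) c := by
  unfold f0
  rw [dY_fr]
  refine fr_congr n (fun c => ?_) c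
  have h := ep_nn n hn
  fin_cases c
  · show dY (ep n * (r1 + ep n * ep n * a1)) = ep n * (dY r1 + ep n * ep n * dY a1)
    simp only [dY_mul, map_add, dY_ep]
    ring
  · show dY (ep n * (ep n * b1)) = ep n * (ep n * dY b1)
    simp only [dY_mul, dY_ep]
    ring
  · show dY (ep n * (r2 + ep n * ep n * a2)) - nn n * (ep n * (ep n * b2)) =
      ep n * (dY r2 + ep n * ep n * dY a2 - b2)
    simp only [dY_mul, map_add, dY_ep]
    linear_combination (-(ep n * b2)) * h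
  · show dY (ep n * (ep n * b2)) + nn n * (ep n * (r2 + ep n * ep n * a2)) =
      r2 + ep n * ep n * (a2 + dY b2)
    simp only [dY_mul, dY_ep]
    linear_combination (r2 + ep n * ep n * a2) * h

theorem dXX_f0 (n : ℕ) (hn : 1 ≤ n) (c : Fin 4) :
    ep n * dX (dX (f0 r1 r2 a1 a2 b1 b2 n c)) = fr n
      ![-r1 + ep n * (ep n * (dX (dX r1) + ep n * ep n * dX (dX a1) - 2 * dX b1 - a1)),
        ep n * (2 * (dX r1 + ep n * ep n * dX a1) + ep n * ep n * dX (dX b1) - b1),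
        ep n * (ep n * (dX (dX r2) + ep n * ep n * dX (dX a2))),
        ep n * (ep n * ep n * dX (dX b2))] c := by
  rw [dX_f0 _ _ _ _ _ _ n hn, dX_fr, ep_fr]
  refine fr_congr n (fun c => ?_) c
  have h := ep_nn n hn
  unfold fx
  fin_cases c
  · show ep n * (dX (ep n * (dX r1 + ep n * ep n * dX a1 - b1)) -
      nn n * (r1 + ep n * ep n * (a1 + dX b1))) = _
    simp only [dX_mul, map_add, map_sub, dX_ep]
    show _ = -r1 + ep n * (ep n * (dX (dX r1) + ep n * ep n * dX (dX a1) - 2 * dX b1 - a1))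
    linear_combination (-(r1 + ep n * ep n * (a1 + dX b1))) * h
  · show ep n * (dX (r1 + ep n * ep n * (a1 + dX b1)) +
      nn n * (ep n * (dX r1 + ep n * ep n * dX a1 - b1))) = _
    simp only [dX_mul, map_add, dX_ep]
    show _ = ep n * (2 * (dX r1 + ep n * ep n * dX a1) + ep n * ep n * dX (dX b1) - b1)
    linear_combination (ep n * (dX r1 + ep n * ep n * dX a1 - b1)) * h
  · show ep n * dX (ep n * (dX r2 + ep n * ep n * dX a2)) = _
    simp only [dX_mul, map_add, dX_ep]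
    show _ = ep n * (ep n * (dX (dX r2) + ep n * ep n * dX (dX a2)))
    ring
  · show ep n * dX (ep n * (ep n * dX b2)) = _
    simp only [dX_mul, dX_ep]
    show _ = ep n * (ep n * ep n * dX (dX b2))
    ring

theorem dYY_f0 (n : ℕ) (hn : 1 ≤ n) (c : Fin 4) :
    ep n * dY (dY (f0 r1 r2 a1 a2 b1 b2 n c)) = fr n
      ![ep n * (ep n * (dY (dY r1) + ep n * ep n * dY (dY a1))),
        ep n * (ep n * ep n * dY (dY b1)),
        -r2 + ep n * (ep n * (dY (dY r2) + ep n * ep n * dY (dY a2) - 2 * dY b2 - a2)),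
        ep n * (2 * (dY r2 + ep n * ep n * dY a2) + ep n * ep n * dY (dY b2) - b2)] c := by
  rw [dY_f0 _ _ _ _ _ _ n hn, dY_fr, ep_fr]
  refine fr_congr n (fun c => ?_) c
  have h := ep_nn n hn
  unfold fy
  fin_cases c
  · show ep n * dY (ep n * (dY r1 + ep n * ep n * dY a1)) = _
    simp only [dY_mul, map_add, dY_ep]
    show _ = ep n * (ep n * (dY (dY r1) + ep n * ep n * dY (dY a1)))
    ring
  · show ep n * dY (ep n * (ep n * dY b1)) = _
    simp only [dY_mul, dY_ep]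
    show _ = ep n * (ep n * ep n * dY (dY b1))
    ring
  · show ep n * (dY (ep n * (dY r2 + ep n * ep n * dY a2 - b2)) -
      nn n * (r2 + ep n * ep n * (a2 + dY b2))) = _
    simp only [dY_mul, map_add, map_sub, dY_ep]
    show _ = -r2 + ep n * (ep n * (dY (dY r2) + ep n * ep n * dY (dY a2) - 2 * dY b2 - a2))
    linear_combination (-(r2 + ep n * ep n * (a2 + dY b2))) * h
  · show ep n * (dY (r2 + ep n * ep n * (a2 + dY b2)) +
      nn n * (ep n * (dY r2 + ep n * ep n * dY a2 - b2))) = _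
    simp only [dY_mul, map_add, dY_ep]
    show _ = ep n * (2 * (dY r2 + ep n * ep n * dY a2) + ep n * ep n * dY (dY b2) - b2)
    linear_combination (ep n * (dY r2 + ep n * ep n * dY a2 - b2)) * h

theorem dXY_f0 (n : ℕ) (hn : 1 ≤ n) (c : Fin 4) :
    dX (dY (f0 r1 r2 a1 a2 b1 b2 n c)) = fr n
      ![ep n * (dX (dY r1) + ep n * ep n * dX (dY a1) - dY b1),
        dY r1 + ep n * (ep n * (dY a1 + dX (dY b1))),
        ep n * (dX (dY r2) + ep n * ep n * dX (dY a2) - dX b2),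
        dX r2 + ep n * (ep n * (dX a2 + dX (dY b2)))] c := by
  rw [dY_f0 _ _ _ _ _ _ n hn, dX_fr]
  refine fr_congr n (fun c => ?_) c
  have h := ep_nn n hn
  unfold fy
  fin_cases c
  · show dX (ep n * (dY r1 + ep n * ep n * dY a1)) - nn n * (ep n * (ep n * dY b1)) = _
    simp only [dX_mul, map_add, dX_ep]
    show _ = ep n * (dX (dY r1) + ep n * ep n * dX (dY a1) - dY b1)
    linear_combination (-(ep n * dY b1)) * h
  · show dX (ep n * (ep n * dY b1)) + nn n * (ep n * (dY r1 + ep n * ep n * dY a1)) = _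
    simp only [dX_mul, dX_ep]
    show _ = dY r1 + ep n * (ep n * (dY a1 + dX (dY b1)))
    linear_combination (dY r1 + ep n * ep n * dY a1) * h
  · show dX (ep n * (dY r2 + ep n * ep n * dY a2 - b2)) = _
    simp only [dX_mul, map_add, map_sub, dX_ep]
    show _ = ep n * (dX (dY r2) + ep n * ep n * dX (dY a2) - dX b2)
    ring
  · show dX (r2 + ep n * ep n * (a2 + dY b2)) = _
    simp only [dX_mul, map_add, dX_ep]
    show _ = dX r2 + ep n * (ep n * (dX a2 + dX (dY b2)))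
    ring

end L1

open L1

theorem exists_approx (r1 r2 a1 a2 b1 b2 : CP) (hr1 : IsRl r1) (hr2 : IsRl r2) (ha1 : IsRl a1)
    (ha2 : IsRl a2) (hb1 : IsRl b1) (hb2 : IsRl b2)
    (e11 : (dX r1 - b1) * (dX r1 - b1) + 2 * r1 * (a1 + dX b1) + dX r2 * dX r2 = 0)
    (e12 : (dX r1 - b1) * dY r1 + r1 * dY b1 + dX r2 * (dY r2 - b2) + r2 * dX b2 = 0)
    (e22 : (dY r2 - b2) * (dY r2 - b2) + 2 * r2 * (a2 + dY b2) + dY r1 * dY r1 = 0) :
    ∃ (f : ℕ → Fin 4 → CP) (h11 h12 h22 : ℕ → CP) (x y xx xy yy : Fin 4 → ℕ → CP),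
    (∀ n c, IsRl (f n c)) ∧
    (Bdd h11 ∧ Bdd h12 ∧ Bdd h22 ∧ RlFam h11 ∧ RlFam h12 ∧ RlFam h22) ∧
    (∀ c, Bdd (x c) ∧ Bdd (y c) ∧ Bdd (xx c) ∧ Bdd (xy c) ∧ Bdd (yy c)) ∧
    (∀ c, RlFam (x c) ∧ RlFam (y c) ∧ RlFam (xx c) ∧ RlFam (xy c) ∧ RlFam (yy c)) ∧
    (∀ n : ℕ, 1 ≤ n →
      r1 * r1 - ∑ c, dX (f n c) * dX (f n c) = (1 / (n : ℂ) ^ 4) • h11 n ∧
      - ∑ c, dX (f n c) * dY (f n c) = (1 / (n : ℂ) ^ 4) • h12 n ∧
      r2 * r2 - ∑ c, dY (f n c) * dY (f n c) = (1 / (n : ℂ) ^ 4) • h22 n) ∧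
    (∀ n : ℕ, 1 ≤ n → ∀ U : Fin 4 → CP,
      ∑ c, dX (f n c) * fr n U c = r1 * U 1 + (1 / (n : ℂ)) • ∑ c, x c n * U c ∧
      ∑ c, dY (f n c) * fr n U c = r2 * U 3 + (1 / (n : ℂ)) • ∑ c, y c n * U c ∧
      (1 / (n : ℂ)) • ∑ c, dX (dX (f n c)) * fr n U c =
        -(r1 * U 0) + (1 / (n : ℂ)) • ∑ c, xx c n * U c ∧
      (1 / (n : ℂ)) • ∑ c, dY (dY (f n c)) * fr n U c =
        -(r2 * U 2) + (1 / (n : ℂ)) • ∑ c, yy c n * U c ∧
      ∑ c, dX (dY (f n c)) * fr n U c =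
        dY r1 * U 1 + dX r2 * U 3 + (1 / (n : ℂ)) • ∑ c, xy c n * U c) := by
  have rep := rl_ep
  have r2' : IsRl (2 : CP) := by
    have : (2 : CP) = 1 + 1 := by norm_num
    rw [this]; exact IsRl.one.add IsRl.one
  have e : Nice ep := Nice.ep
  have k2 : Nice (fun _ => (2 : CP)) := Nice.con r2'
  have kr1x := Nice.con hr1.dX
  have kr1y := Nice.con hr1.dY
  have kr2x := Nice.con hr2.dX
  have kr2y := Nice.con hr2.dY
  have ka1 := Nice.con ha1
  have ka2 := Nice.con ha2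
  have kb1 := Nice.con hb1
  have kb2 := Nice.con hb2
  have ka1x := Nice.con ha1.dX
  have ka1y := Nice.con ha1.dY
  have ka2x := Nice.con ha2.dX
  have ka2y := Nice.con ha2.dY
  have kb1x := Nice.con hb1.dX
  have kb1y := Nice.con hb1.dY
  have kb2x := Nice.con hb2.dX
  have kb2y := Nice.con hb2.dY
  have E := e.mul e
  have n11 := ((((((k2.mul (kr1x.sub kb1)).mul ka1x).add (E.mul (ka1x.mul ka1x))).add
    ((ka1.add kb1x).mul (ka1.add kb1x))).add ((k2.mul kr2x).mul ka2x)).add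
    (E.mul (ka2x.mul ka2x))).add (kb2x.mul kb2x) |>.neg
  have n12 := ((((((((kr1x.sub kb1).mul ka1y).add (ka1x.mul kr1y)).add
    (E.mul (ka1x.mul ka1y))).add (kr2x.mul ka2y)).add (ka2x.mul (kr2y.sub kb2))).add
    (E.mul (ka2x.mul ka2y))).add ((ka1.add kb1x).mul kb1y)).add
    (kb2x.mul (ka2.add kb2y)) |>.neg
  have n22 := ((((((k2.mul (kr2y.sub kb2)).mul ka2y).add (E.mul (ka2y.mul ka2y))).add
    ((ka2.add kb2y).mul (ka2.add kb2y))).add ((k2.mul kr1y).mul ka1y)).add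
    (E.mul (ka1y.mul ka1y))).add (kb1y.mul kb1y) |>.neg
  have x0 := (kr1x.add (E.mul ka1x)).sub kb1
  have x1 := e.mul (ka1.add kb1x)
  have x2 := kr2x.add (E.mul ka2x)
  have x3 := e.mul kb2x
  have y0 := kr1y.add (E.mul ka1y)
  have y1 := e.mul kb1y
  have y2 := (kr2y.add (E.mul ka2y)).sub kb2
  have y3 := e.mul (ka2.add kb2y)
  have xx0 := e.mul ((((Nice.con hr1.dX.dX).add (E.mul (Nice.con ha1.dX.dX))).sub
    (k2.mul kb1x)).sub ka1)
  have xx1 := ((k2.mul (kr1x.add (E.mul ka1x))).add (E.mul (Nice.con hb1.dX.dX))).sub kb1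
  have xx2 := e.mul ((Nice.con hr2.dX.dX).add (E.mul (Nice.con ha2.dX.dX)))
  have xx3 := E.mul (Nice.con hb2.dX.dX)
  have xy0 := ((Nice.con hr1.dY.dX).add (E.mul (Nice.con ha1.dY.dX))).sub kb1y
  have xy1 := e.mul (ka1y.add (Nice.con hb1.dY.dX))
  have xy2 := ((Nice.con hr2.dY.dX).add (E.mul (Nice.con ha2.dY.dX))).sub kb2x
  have xy3 := e.mul (ka2x.add (Nice.con hb2.dY.dX))
  have yy0 := e.mul ((Nice.con hr1.dY.dY).add (E.mul (Nice.con ha1.dY.dY)))
  have yy1 := E.mul (Nice.con hb1.dY.dY)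
  have yy2 := e.mul ((((Nice.con hr2.dY.dY).add (E.mul (Nice.con ha2.dY.dY))).sub
    (k2.mul kb2y)).sub ka2)
  have yy3 := ((k2.mul (kr2y.add (E.mul ka2y))).add (E.mul (Nice.con hb2.dY.dY))).sub kb2
  refine ⟨f0 r1 r2 a1 a2 b1 b2,
    fun n => -(2 * (dX r1 - b1) * dX a1 + ep n * ep n * (dX a1 * dX a1) +
      (a1 + dX b1) * (a1 + dX b1) + 2 * dX r2 * dX a2 + ep n * ep n * (dX a2 * dX a2) +
      dX b2 * dX b2),
    fun n => -((dX r1 - b1) * dY a1 + dX a1 * dY r1 + ep n * ep n * (dX a1 * dY a1) +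
      dX r2 * dY a2 + dX a2 * (dY r2 - b2) + ep n * ep n * (dX a2 * dY a2) +
      (a1 + dX b1) * dY b1 + dX b2 * (a2 + dY b2)),
    fun n => -(2 * (dY r2 - b2) * dY a2 + ep n * ep n * (dY a2 * dY a2) +
      (a2 + dY b2) * (a2 + dY b2) + 2 * dY r1 * dY a1 + ep n * ep n * (dY a1 * dY a1) +
      dY b1 * dY b1),
    ![fun n => dX r1 + ep n * ep n * dX a1 - b1, fun n => ep n * (a1 + dX b1),
      fun n => dX r2 + ep n * ep n * dX a2, fun n => ep n * dX b2],
    ![fun n => dY r1 + ep n * ep n * dY a1, fun n => ep n * dY b1,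
      fun n => dY r2 + ep n * ep n * dY a2 - b2, fun n => ep n * (a2 + dY b2)],
    ![fun n => ep n * (dX (dX r1) + ep n * ep n * dX (dX a1) - 2 * dX b1 - a1),
      fun n => 2 * (dX r1 + ep n * ep n * dX a1) + ep n * ep n * dX (dX b1) - b1,
      fun n => ep n * (dX (dX r2) + ep n * ep n * dX (dX a2)),
      fun n => ep n * ep n * dX (dX b2)],
    ![fun n => dX (dY r1) + ep n * ep n * dX (dY a1) - dY b1,
      fun n => ep n * (dY a1 + dX (dY b1)),
      fun n => dX (dY r2) + ep n * ep n * dX (dY a2) - dX b2,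
      fun n => ep n * (dX a2 + dX (dY b2))],
    ![fun n => ep n * (dY (dY r1) + ep n * ep n * dY (dY a1)),
      fun n => ep n * ep n * dY (dY b1),
      fun n => ep n * (dY (dY r2) + ep n * ep n * dY (dY a2) - 2 * dY b2 - a2),
      fun n => 2 * (dY r2 + ep n * ep n * dY a2) + ep n * ep n * dY (dY b2) - b2],
    ?_, ⟨?_, ?_, ?_, ?_, ?_, ?_⟩, ?_, ?_, ?_, ?_⟩
  · intro n c
    refine rl_fr n _ (fun c => ?_) c
    fin_cases c
    · exact (rep n).mul (hr1.add (((rep n).mul (rep n)).mul ha1))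
    · exact (rep n).mul ((rep n).mul hb1)
    · exact (rep n).mul (hr2.add (((rep n).mul (rep n)).mul ha2))
    · exact (rep n).mul ((rep n).mul hb2)
  · exact n11.b
  · exact n12.b
  · exact n22.b
  · exact n11.r
  · exact n12.r
  · exact n22.r
  · exact fun c => ⟨all4 x0.b x1.b x2.b x3.b c, all4 y0.b y1.b y2.b y3.b c,
      all4 xx0.b xx1.b xx2.b xx3.b c, all4 xy0.b xy1.b xy2.b xy3.b c,
      all4 yy0.b yy1.b yy2.b yy3.b c⟩
  · exact fun c => ⟨all4 x0.r x1.r x2.r x3.r c, all4 y0.r y1.r y2.r y3.r c,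
      all4 xx0.r xx1.r xx2.r xx3.r c, all4 xy0.r xy1.r xy2.r xy3.r c,
      all4 yy0.r yy1.r yy2.r yy3.r c⟩
  · intro n hn
    have dx := dX_f0 r1 r2 a1 a2 b1 b2 n hn
    have dy := dY_f0 r1 r2 a1 a2 b1 b2 n hn
    simp only [dx, dy, fr_dot, smul_ep4]
    simp only [Fin.sum_univ_four]
    set e := ep n
    refine ⟨?_, ?_, ?_⟩
    · show r1 * r1 - ((e * (dX r1 + e * e * dX a1 - b1)) * (e * (dX r1 + e * e * dX a1 - b1)) +
        (r1 + e * e * (a1 + dX b1)) * (r1 + e * e * (a1 + dX b1)) +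
        (e * (dX r2 + e * e * dX a2)) * (e * (dX r2 + e * e * dX a2)) +
        (e * (e * dX b2)) * (e * (e * dX b2))) = _
      linear_combination (-(e * e)) * e11
    · show -((e * (dX r1 + e * e * dX a1 - b1)) * (e * (dY r1 + e * e * dY a1)) +
        (r1 + e * e * (a1 + dX b1)) * (e * (e * dY b1)) +
        (e * (dX r2 + e * e * dX a2)) * (e * (dY r2 + e * e * dY a2 - b2)) +
        (e * (e * dX b2)) * (r2 + e * e * (a2 + dY b2))) = _
      linear_combination (-(e * e)) * e12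
    · show r2 * r2 - ((e * (dY r1 + e * e * dY a1)) * (e * (dY r1 + e * e * dY a1)) +
        (e * (e * dY b1)) * (e * (e * dY b1)) +
        (e * (dY r2 + e * e * dY a2 - b2)) * (e * (dY r2 + e * e * dY a2 - b2)) +
        (r2 + e * e * (a2 + dY b2)) * (r2 + e * e * (a2 + dY b2))) = _
      linear_combination (-(e * e)) * e22
  · intro n hn U
    have dx := dX_f0 r1 r2 a1 a2 b1 b2 n hn
    have dy := dY_f0 r1 r2 a1 a2 b1 b2 n hn
    have dxx := dXX_f0 r1 r2 a1 a2 b1 b2 n hn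
    have dyy := dYY_f0 r1 r2 a1 a2 b1 b2 n hn
    have dxy := dXY_f0 r1 r2 a1 a2 b1 b2 n hn
    refine ⟨?_, ?_, ?_, ?_, ?_⟩
    · simp only [dx, fr_dot, smul_ep]
      simp only [Fin.sum_univ_four]
      set e := ep n
      show (e * (dX r1 + e * e * dX a1 - b1)) * U 0 + (r1 + e * e * (a1 + dX b1)) * U 1 +
        (e * (dX r2 + e * e * dX a2)) * U 2 + (e * (e * dX b2)) * U 3 = r1 * U 1 + e *
        ((dX r1 + e * e * dX a1 - b1) * U 0 + (e * (a1 + dX b1)) * U 1 +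
        (dX r2 + e * e * dX a2) * U 2 + (e * dX b2) * U 3)
      ring
    · simp only [dy, fr_dot, smul_ep]
      simp only [Fin.sum_univ_four]
      set e := ep n
      show (e * (dY r1 + e * e * dY a1)) * U 0 + (e * (e * dY b1)) * U 1 +
        (e * (dY r2 + e * e * dY a2 - b2)) * U 2 + (r2 + e * e * (a2 + dY b2)) * U 3 =
        r2 * U 3 + e * ((dY r1 + e * e * dY a1) * U 0 + (e * dY b1) * U 1 +
        (dY r2 + e * e * dY a2 - b2) * U 2 + (e * (a2 + dY b2)) * U 3)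
      ring
    · rw [smul_ep, Finset.mul_sum]
      refine (Finset.sum_congr rfl (fun c _ => (mul_assoc _ _ _).symm.trans
        (congrArg (fun t => t * fr n U c) (dxx c)))).trans ?_
      rw [fr_dot, smul_ep]
      simp only [Fin.sum_univ_four]
      set e := ep n
      show (-r1 + e * (e * (dX (dX r1) + e * e * dX (dX a1) - 2 * dX b1 - a1))) * U 0 +
        (e * (2 * (dX r1 + e * e * dX a1) + e * e * dX (dX b1) - b1)) * U 1 +
        (e * (e * (dX (dX r2) + e * e * dX (dX a2)))) * U 2 +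
        (e * (e * e * dX (dX b2))) * U 3 = -(r1 * U 0) + e *
        ((e * (dX (dX r1) + e * e * dX (dX a1) - 2 * dX b1 - a1)) * U 0 +
        (2 * (dX r1 + e * e * dX a1) + e * e * dX (dX b1) - b1) * U 1 +
        (e * (dX (dX r2) + e * e * dX (dX a2))) * U 2 +
        (e * e * dX (dX b2)) * U 3)
      ring
    · rw [smul_ep, Finset.mul_sum]
      refine (Finset.sum_congr rfl (fun c _ => (mul_assoc _ _ _).symm.trans
        (congrArg (fun t => t * fr n U c) (dyy c)))).trans ?_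
      rw [fr_dot, smul_ep]
      simp only [Fin.sum_univ_four]
      set e := ep n
      show (e * (e * (dY (dY r1) + e * e * dY (dY a1)))) * U 0 +
        (e * (e * e * dY (dY b1))) * U 1 +
        (-r2 + e * (e * (dY (dY r2) + e * e * dY (dY a2) - 2 * dY b2 - a2))) * U 2 +
        (e * (2 * (dY r2 + e * e * dY a2) + e * e * dY (dY b2) - b2)) * U 3 = -(r2 * U 2) + e *
        ((e * (dY (dY r1) + e * e * dY (dY a1))) * U 0 +
        (e * e * dY (dY b1)) * U 1 +
        (e * (dY (dY r2) + e * e * dY (dY a2) - 2 * dY b2 - a2)) * U 2 +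
        (2 * (dY r2 + e * e * dY a2) + e * e * dY (dY b2) - b2) * U 3)
      ring
    · simp only [dxy, fr_dot, smul_ep]
      simp only [Fin.sum_univ_four]
      set e := ep n
      show (e * (dX (dY r1) + e * e * dX (dY a1) - dY b1)) * U 0 +
        (dY r1 + e * (e * (dY a1 + dX (dY b1)))) * U 1 +
        (e * (dX (dY r2) + e * e * dX (dY a2) - dX b2)) * U 2 +
        (dX r2 + e * (e * (dX a2 + dX (dY b2)))) * U 3 = dY r1 * U 1 + dX r2 * U 3 + e *
        ((dX (dY r1) + e * e * dX (dY a1) - dY b1) * U 0 +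
        (e * (dY a1 + dX (dY b1))) * U 1 +
        (dX (dY r2) + e * e * dX (dY a2) - dX b2) * U 2 +
        (e * (dX a2 + dX (dY b2))) * U 3)
      ring

end Vale.Agent.P205
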