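import Vale.Agent.P205.Fourier3

open scoped ContDiff
open Real Filter

namespace Vale.Agent.P205

namespace Bmp

/-- a nonnegative bump on the circle -/
noncomputable def be (x0 ε x : ℝ) : ℝ := smoothTransition (cos (x - x0) - (1 - ε))

theorem be_smooth (x0 ε : ℝ) : ContDiff ℝ ∞ (be x0 ε) := by
  unfold be
  exact smoothTransition.contDiff.comp
    ((contDiff_cos.comp (contDiff_id.sub contDiff_const)).sub contDiff_const)

theorem be_per (x0 ε x : ℝ) : be x0 ε (x + 2 * π) = be x0 ε x := by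
  unfold be
  have : x + 2 * π - x0 = (x - x0) + 2 * π := by ring
  rw [this, cos_add_two_pi]

theorem be_nonneg (x0 ε x : ℝ) : 0 ≤ be x0 ε x := smoothTransition.nonneg _

theorem be_self (x0 ε : ℝ) (hε : 0 < ε) : 0 < be x0 ε x0 := by
  unfold be
  apply smoothTransition.pos_of_pos
  rw [sub_self, cos_zero]
  linarith

theorem be_zero (x0 ε x : ℝ) (h : cos (x - x0) ≤ 1 - ε) : be x0 ε x = 0 := by
  unfold be
  apply smoothTransition.zero_of_nonpos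
  linarith

theorem be_int (x0 ε : ℝ) (hε : 0 < ε) : 0 < ∫ x in (0 : ℝ)..(2 * π), be x0 ε x := by
  have hp : Function.Periodic (be x0 ε) (2 * π) := be_per x0 ε
  have h1 := hp.intervalIntegral_add_eq 0 x0
  rw [zero_add] at h1
  rw [h1]
  refine intervalIntegral.integral_pos (by linarith [pi_pos]) (be_smooth x0 ε).continuous.continuousOn
    (fun x _ => be_nonneg _ _ _) ⟨x0, ⟨le_rfl, by linarith [pi_pos]⟩, be_self x0 ε hε⟩

/-- normalised -/
noncomputable def nb (x0 ε x : ℝ) : ℝ :=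
  2 * π * be x0 ε x / ∫ x in (0 : ℝ)..(2 * π), be x0 ε x

theorem nb_smooth (x0 ε : ℝ) : ContDiff ℝ ∞ (nb x0 ε) := by
  unfold nb
  exact (contDiff_const.mul (be_smooth x0 ε)).div_const _

theorem nb_per (x0 ε x : ℝ) : nb x0 ε (x + 2 * π) = nb x0 ε x := by
  unfold nb; rw [be_per]

theorem nb_zero (x0 ε x : ℝ) (h : cos (x - x0) ≤ 1 - ε) : nb x0 ε x = 0 := by
  unfold nb; rw [be_zero x0 ε x h]; simp

theorem nb_int (x0 ε : ℝ) (hε : 0 < ε) : ∫ x in (0 : ℝ)..(2 * π), nb x0 ε x = 2 * π := by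
  unfold nb
  rw [intervalIntegral.integral_div, intervalIntegral.integral_const_mul]
  have := (be_int x0 ε hε).ne'
  field_simp

theorem exists_nbhd (κ : CP) (hκ : κ ≠ 0) : ∃ (x0 y0 ε : ℝ), 0 < ε ∧ ∀ x y,
    1 - ε ≤ cos (x - x0) → 1 - ε ≤ cos (y - y0) → (κ : ℝ × ℝ → ℂ) (x, y) ≠ 0 := by
  have h1 : ∃ z, (κ : ℝ × ℝ → ℂ) z ≠ 0 := by
    by_contra hcon
    push Not at hcon
    exact hκ (CP.ext' fun z => hcon z)
  obtain ⟨⟨x0, y0⟩, hz⟩ := h1
  have h2 : ∀ᶠ z in nhds (x0, y0), (κ : ℝ × ℝ → ℂ) z ≠ 0 :=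
    κ.smooth.continuous.continuousAt.eventually_ne hz
  obtain ⟨δ, hδ, hδ'⟩ := Metric.eventually_nhds_iff.1 h2
  have hred : ∀ x x0 : ℝ, 1 - δ ^ 2 / π ^ 2 ≤ cos (x - x0) → ∃ k : ℤ, |x + k * (2 * π) - x0| < δ := by
    intro x x0 h
    obtain ⟨k, hk⟩ : ∃ k : ℤ, k = -round ((x - x0) / (2 * π)) := ⟨_, rfl⟩
    refine ⟨k, ?_⟩
    have h3 := abs_sub_round ((x - x0) / (2 * π))
    have h4 : x + k * (2 * π) - x0 = 2 * π * ((x - x0) / (2 * π) - round ((x - x0) / (2 * π))) := by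
      rw [hk]; push_cast; field_simp; ring
    have h5 : |x + k * (2 * π) - x0| ≤ π := by
      rw [h4, abs_mul, abs_of_pos (by positivity : (0 : ℝ) < 2 * π)]
      nlinarith [pi_pos]
    have h6 := cos_le_one_sub_mul_cos_sq h5
    have h7 : x + k * (2 * π) - x0 = (x - x0) + k * (2 * π) := by ring
    have h8 : cos (x + k * (2 * π) - x0) = cos (x - x0) := by
      rw [h7, cos_add_int_mul_two_pi]
    rw [h8] at h6
    have h9 : 2 / π ^ 2 * (x + k * (2 * π) - x0) ^ 2 ≤ δ ^ 2 / π ^ 2 := by linarith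
    have h10 : 2 * (x + k * (2 * π) - x0) ^ 2 ≤ δ ^ 2 := by
      have hpi : (0 : ℝ) < π ^ 2 := by positivity
      have h11 : 2 / π ^ 2 * (x + k * (2 * π) - x0) ^ 2 = 2 * (x + k * (2 * π) - x0) ^ 2 / π ^ 2 := by
        ring
      rw [h11, div_le_div_iff_of_pos_right hpi] at h9
      exact h9
    apply abs_lt_of_sq_lt_sq _ hδ.le
    nlinarith [sq_nonneg (x + k * (2 * π) - x0), pow_pos hδ 2]
  refine ⟨x0, y0, δ ^ 2 / π ^ 2, by positivity, fun x y hx hy => ?_⟩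
  obtain ⟨k, hk⟩ := hred x x0 hx
  obtain ⟨l, hl⟩ := hred y y0 hy
  have hX : ∀ y, Function.Periodic (fun x => (κ : ℝ × ℝ → ℂ) (x, y)) (2 * π) := fun y x => κ.perX x y
  have hY : ∀ x, Function.Periodic (fun y => (κ : ℝ × ℝ → ℂ) (x, y)) (2 * π) := fun x y => κ.perY x y
  have h3 : (κ : ℝ × ℝ → ℂ) (x + k * (2 * π), y + l * (2 * π)) = (κ : ℝ × ℝ → ℂ) (x, y) := by
    have h4 := (hX (y + l * (2 * π))).int_mul k x
    have h5 := (hY x).int_mul l y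
    exact h4.trans h5
  rw [← h3]
  apply hδ'
  rw [Prod.dist_eq, max_lt_iff]
  exact ⟨by rw [Real.dist_eq]; exact hk, by rw [Real.dist_eq]; exact hl⟩

end Bmp

open Bmp in
theorem exists_bump (κ : CP) (hκ : κ ≠ 0) (hr : IsRl κ) : ∃ b1 b θ : CP,
    IsRl b1 ∧ IsRl b ∧ IsRl θ ∧ dY b1 = 0 ∧ dX b = 0 ∧ coef b1 0 = 1 ∧ coef b 0 = 1 ∧
    κ * θ = b1 * b := by
  obtain ⟨x0, y0, ε, hε, hne⟩ := exists_nbhd κ hκ
  have hs1 : ContDiff ℝ ∞ fun z : ℝ × ℝ => (nb x0 ε z.1 : ℂ) :=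
    Complex.ofRealCLM.contDiff.comp ((nb_smooth x0 ε).comp contDiff_fst)
  have hs2 : ContDiff ℝ ∞ fun z : ℝ × ℝ => (nb y0 ε z.2 : ℂ) :=
    Complex.ofRealCLM.contDiff.comp ((nb_smooth y0 ε).comp contDiff_snd)
  let b1 : CP := ⟨fun z => (nb x0 ε z.1 : ℂ), hs1, fun x y => by simp only [nb_per],
    fun x y => rfl⟩
  let b : CP := ⟨fun z => (nb y0 ε z.2 : ℂ), hs2, fun x y => rfl,
    fun x y => by simp only [nb_per]⟩
  have hb1 : ∀ z, (b1 : ℝ × ℝ → ℂ) z = (nb x0 ε z.1 : ℂ) := fun z => rfl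
  have hb : ∀ z, (b : ℝ × ℝ → ℂ) z = (nb y0 ε z.2 : ℂ) := fun z => rfl
  have hnear : ∀ z : ℝ × ℝ, (κ : ℝ × ℝ → ℂ) z = 0 →
      ∀ᶠ w in nhds z, (nb x0 ε w.1 : ℂ) * (nb y0 ε w.2 : ℂ) = 0 := by
    intro z hz
    by_cases h1 : cos (z.1 - x0) < 1 - ε
    · have hc : ContinuousAt (fun w : ℝ × ℝ => cos (w.1 - x0)) z := by fun_prop
      filter_upwards [hc.eventually_lt continuousAt_const h1] with w hw
      rw [nb_zero x0 ε w.1 hw.le]; simp
    · by_cases h2 : cos (z.2 - y0) < 1 - ε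
      · have hc : ContinuousAt (fun w : ℝ × ℝ => cos (w.2 - y0)) z := by fun_prop
        filter_upwards [hc.eventually_lt continuousAt_const h2] with w hw
        rw [nb_zero y0 ε w.2 hw.le]; simp
      · exact absurd hz (hne z.1 z.2 (not_lt.1 h1) (not_lt.1 h2))
  have hsθ : ContDiff ℝ ∞ fun z : ℝ × ℝ =>
      (nb x0 ε z.1 : ℂ) * (nb y0 ε z.2 : ℂ) / (κ : ℝ × ℝ → ℂ) z := by
    rw [contDiff_iff_contDiffAt]
    intro z
    by_cases hz : (κ : ℝ × ℝ → ℂ) z = 0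
    · have h1 : ContDiffAt ℝ ∞ (fun _ : ℝ × ℝ => (0 : ℂ)) z := contDiffAt_const
      refine h1.congr_of_eventuallyEq ?_
      filter_upwards [hnear z hz] with w hw
      rw [hw, zero_div]
    · have h2 := (hs1.contDiffAt (x := z)).mul ((hs2.contDiffAt (x := z)).mul
        ((κ.smooth.contDiffAt (x := z)).inv hz))
      refine h2.congr_of_eventuallyEq (Eventually.of_forall fun w => ?_)
      simp only [div_eq_mul_inv, mul_assoc, Pi.inv_apply]
  let θ : CP := ⟨fun z => (nb x0 ε z.1 : ℂ) * (nb y0 ε z.2 : ℂ) / (κ : ℝ × ℝ → ℂ) z, hsθ,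
    fun x y => by simp only [nb_per, κ.perX], fun x y => by simp only [nb_per, κ.perY]⟩
  have hθ : ∀ z, (θ : ℝ × ℝ → ℂ) z =
    (nb x0 ε z.1 : ℂ) * (nb y0 ε z.2 : ℂ) / (κ : ℝ × ℝ → ℂ) z := fun z => rfl
  refine ⟨b1, b, θ, ?_, ?_, ?_, ?_, ?_, ?_, ?_, ?_⟩
  · intro z; rw [hb1, Complex.ofReal_im]
  · intro z; rw [hb, Complex.ofReal_im]
  · intro z
    rw [hθ]
    have h1 : (κ : ℝ × ℝ → ℂ) z = (((κ : ℝ × ℝ → ℂ) z).re : ℂ) :=
      Complex.ext (by simp) (by simp [hr z])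
    rw [h1, ← Complex.ofReal_mul, ← Complex.ofReal_div, Complex.ofReal_im]
  · ext z
    rw [dY_apply]
    have h1 : (b1 : ℝ × ℝ → ℂ) = fun z => (nb x0 ε z.1 : ℂ) := rfl
    have h2 : HasFDerivAt (fun z : ℝ × ℝ => nb x0 ε z.1)
      (deriv (nb x0 ε) z.1 • ContinuousLinearMap.fst ℝ ℝ ℝ) z :=
      ((nb_smooth x0 ε).differentiable (by simp) z.1).hasDerivAt.comp_hasFDerivAt z hasFDerivAt_fst
    have h3 := Complex.ofRealCLM.hasFDerivAt.comp z h2
    have h4 : fderiv ℝ (fun z : ℝ × ℝ => (nb x0 ε z.1 : ℂ)) z = _ := h3.fderiv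
    rw [h1, h4]
    have h5 : ((0 : CP) : ℝ × ℝ → ℂ) z = 0 := rfl
    rw [h5]
    simp
  · ext z
    rw [dX_apply]
    have h1 : (b : ℝ × ℝ → ℂ) = fun z => (nb y0 ε z.2 : ℂ) := rfl
    have h2 : HasFDerivAt (fun z : ℝ × ℝ => nb y0 ε z.2)
      (deriv (nb y0 ε) z.2 • ContinuousLinearMap.snd ℝ ℝ ℝ) z :=
      ((nb_smooth y0 ε).differentiable (by simp) z.2).hasDerivAt.comp_hasFDerivAt z hasFDerivAt_snd
    have h3 := Complex.ofRealCLM.hasFDerivAt.comp z h2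
    have h4 : fderiv ℝ (fun z : ℝ × ℝ => (nb y0 ε z.2 : ℂ)) z = _ := h3.fderiv
    rw [h1, h4]
    have h5 : ((0 : CP) : ℝ × ℝ → ℂ) z = 0 := rfl
    rw [h5]
    simp
  · unfold coef
    simp only [hb1, Prod.fst_zero, Prod.snd_zero, Int.cast_zero, zero_mul, add_zero, mul_zero,
      neg_zero, Complex.exp_zero, mul_one, intervalIntegral.integral_const, sub_zero]
    rw [intervalIntegral.integral_smul, intervalIntegral.integral_ofReal, nb_int x0 ε hε]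
    rw [Complex.real_smul]
    push_cast
    have : (π : ℂ) ≠ 0 := by exact_mod_cast pi_ne_zero
    field_simp
  · unfold coef
    simp only [hb, Prod.fst_zero, Prod.snd_zero, Int.cast_zero, zero_mul, add_zero, mul_zero,
      neg_zero, Complex.exp_zero, mul_one]
    rw [intervalIntegral.integral_ofReal, nb_int y0 ε hε]
    rw [intervalIntegral.integral_const, Complex.real_smul]
    push_cast
    have : (π : ℂ) ≠ 0 := by exact_mod_cast pi_ne_zero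
    field_simp
    ring
  · ext z
    have h1 : ((κ * θ : CP) : ℝ × ℝ → ℂ) z = (κ : ℝ × ℝ → ℂ) z * (θ : ℝ × ℝ → ℂ) z := rfl
    have h2 : ((b1 * b : CP) : ℝ × ℝ → ℂ) z = (b1 : ℝ × ℝ → ℂ) z * (b : ℝ × ℝ → ℂ) z := rfl
    rw [h1, h2, hθ, hb1, hb]
    by_cases hz : (κ : ℝ × ℝ → ℂ) z = 0
    · rw [hz, (hnear z hz).self_of_nhds]; simp
    · field_simp

end Vale.Agent.P205
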