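import Vale.Agent.P205.Norms

open scoped ContDiff ComplexConjugate
open Real Filter

namespace Vale.Agent.P205

namespace K1

theorem ex_mul_neg (k : ℤ × ℤ) : ex k * ex (-k) = 1 := by
  rw [← F1.ex_add, add_neg_cancel, F1.ex_zero]

theorem nn (n : ℤ) : ((-n, 0) : ℤ × ℤ) = -(n, 0) := by simp

theorem nn' (n : ℤ) : ((0, -n) : ℤ × ℤ) = -(0, n) := by simp

theorem star_ex (m : ℤ × ℤ) (z : ℝ × ℝ) :
    (ex (-m) : ℝ × ℝ → ℂ) z = conj ((ex m : ℝ × ℝ → ℂ) z) := by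
  have h1 : ∀ m : ℤ × ℤ, (ex m : ℝ × ℝ → ℂ) z =
    Complex.exp (Complex.I * ((m.1 : ℂ) * z.1 + (m.2 : ℂ) * z.2)) := fun _ => rfl
  rw [h1, h1, ← Complex.exp_conj]
  congr 1
  simp [Complex.conj_ofReal]
  ring

end K1

open K1

theorem cX_sq (n : ℕ) : cX n * cX n + sX n * sX n = 1 := by
  unfold cX sX
  have h := ex_mul_neg ((n : ℤ), 0)
  rw [← nn] at h
  set a := ex ((n : ℤ), 0)
  set b := ex (-(n : ℤ), 0)
  have hI : (Complex.I * Complex.I) = -1 := Complex.I_mul_I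
  have h2 : ((1 / 2 : ℂ) • (a + b)) * ((1 / 2 : ℂ) • (a + b)) = (1 / 4 : ℂ) • ((a + b) * (a + b)) := by
    rw [smul_mul_smul_comm]; norm_num
  have h3 : ((-Complex.I / 2 : ℂ) • (a - b)) * ((-Complex.I / 2 : ℂ) • (a - b)) =
      (-(1 / 4) : ℂ) • ((a - b) * (a - b)) := by
    rw [smul_mul_smul_comm]; congr 1; linear_combination (1 / 4 : ℂ) * hI
  rw [h2, h3, neg_smul, ← sub_eq_add_neg, ← smul_sub]
  have h4 : (a + b) * (a + b) - (a - b) * (a - b) = (4 : ℂ) • (a * b) := by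
    have : (4 : ℂ) • (a * b) = (4 : CP) * (a * b) := by
      rw [Algebra.smul_def, map_ofNat]
    rw [this]; ring
  rw [h4, h, smul_smul]; norm_num

theorem cY_sq (n : ℕ) : cY n * cY n + sY n * sY n = 1 := by
  unfold cY sY
  have h := ex_mul_neg (0, (n : ℤ))
  rw [← nn'] at h
  set a := ex (0, (n : ℤ))
  set b := ex (0, -(n : ℤ))
  have hI : (Complex.I * Complex.I) = -1 := Complex.I_mul_I
  have h2 : ((1 / 2 : ℂ) • (a + b)) * ((1 / 2 : ℂ) • (a + b)) = (1 / 4 : ℂ) • ((a + b) * (a + b)) := by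
    rw [smul_mul_smul_comm]; norm_num
  have h3 : ((-Complex.I / 2 : ℂ) • (a - b)) * ((-Complex.I / 2 : ℂ) • (a - b)) =
      (-(1 / 4) : ℂ) • ((a - b) * (a - b)) := by
    rw [smul_mul_smul_comm]; congr 1; linear_combination (1 / 4 : ℂ) * hI
  rw [h2, h3, neg_smul, ← sub_eq_add_neg, ← smul_sub]
  have h4 : (a + b) * (a + b) - (a - b) * (a - b) = (4 : ℂ) • (a * b) := by
    have : (4 : ℂ) • (a * b) = (4 : CP) * (a * b) := by
      rw [Algebra.smul_def, map_ofNat]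
    rw [this]; ring
  rw [h4, h, smul_smul]; norm_num

theorem dX_cX (n : ℕ) : dX (cX n) = -((n : ℂ) • sX n) := by
  unfold cX sX
  rw [map_smul, map_add, F1.dX_ex, F1.dX_ex]
  simp only [smul_add, smul_sub, smul_smul, Int.cast_neg, Int.cast_natCast]
  rw [neg_sub, sub_eq_add_neg, ← neg_smul, add_comm]
  congr 2 <;> ring

theorem dX_sX (n : ℕ) : dX (sX n) = (n : ℂ) • cX n := by
  unfold cX sX
  have hI : (Complex.I * Complex.I) = -1 := Complex.I_mul_I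
  rw [map_smul, map_sub, F1.dX_ex, F1.dX_ex]
  simp only [smul_add, smul_sub, smul_smul, Int.cast_neg, Int.cast_natCast]
  rw [sub_eq_add_neg, ← neg_smul]
  congr 2
  · linear_combination (-(n : ℂ) / 2) * hI
  · linear_combination (-(n : ℂ) / 2) * hI

theorem dY_cX (n : ℕ) : dY (cX n) = 0 := by
  unfold cX
  rw [map_smul, map_add, F1.dY_ex, F1.dY_ex]
  simp

theorem dY_sX (n : ℕ) : dY (sX n) = 0 := by
  unfold sX
  rw [map_smul, map_sub, F1.dY_ex, F1.dY_ex]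
  simp

theorem dX_cY (n : ℕ) : dX (cY n) = 0 := by
  unfold cY
  rw [map_smul, map_add, F1.dX_ex, F1.dX_ex]
  simp

theorem dX_sY (n : ℕ) : dX (sY n) = 0 := by
  unfold sY
  rw [map_smul, map_sub, F1.dX_ex, F1.dX_ex]
  simp

theorem dY_cY (n : ℕ) : dY (cY n) = -((n : ℂ) • sY n) := by
  unfold cY sY
  rw [map_smul, map_add, F1.dY_ex, F1.dY_ex]
  simp only [smul_add, smul_sub, smul_smul, Int.cast_neg, Int.cast_natCast]
  rw [neg_sub, sub_eq_add_neg, ← neg_smul, add_comm]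
  congr 2 <;> ring

theorem dY_sY (n : ℕ) : dY (sY n) = (n : ℂ) • cY n := by
  unfold cY sY
  have hI : (Complex.I * Complex.I) = -1 := Complex.I_mul_I
  rw [map_smul, map_sub, F1.dY_ex, F1.dY_ex]
  simp only [smul_add, smul_sub, smul_smul, Int.cast_neg, Int.cast_natCast]
  rw [sub_eq_add_neg, ← neg_smul]
  congr 2
  · linear_combination (-(n : ℂ) / 2) * hI
  · linear_combination (-(n : ℂ) / 2) * hI

namespace K1

theorem rl_c (m : ℤ × ℤ) : IsRl ((1 / 2 : ℂ) • (ex m + ex (-m))) := by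
  intro z
  have h0 : (((1 / 2 : ℂ) • (ex m + ex (-m)) : CP) : ℝ × ℝ → ℂ) z =
    (1 / 2 : ℂ) * ((ex m : ℝ × ℝ → ℂ) z + (ex (-m) : ℝ × ℝ → ℂ) z) := rfl
  rw [h0, star_ex, Complex.add_conj]
  simp

theorem rl_s (m : ℤ × ℤ) : IsRl ((-Complex.I / 2 : ℂ) • (ex m - ex (-m))) := by
  intro z
  have h0 : (((-Complex.I / 2 : ℂ) • (ex m - ex (-m)) : CP) : ℝ × ℝ → ℂ) z =
    (-Complex.I / 2 : ℂ) * ((ex m : ℝ × ℝ → ℂ) z - (ex (-m) : ℝ × ℝ → ℂ) z) := rfl
  rw [h0, star_ex, Complex.sub_conj]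
  simp

end K1

theorem rl_cX (n : ℕ) : IsRl (cX n) := by
  unfold cX; rw [nn]; exact rl_c _

theorem rl_sX (n : ℕ) : IsRl (sX n) := by
  unfold sX; rw [nn]; exact rl_s _

theorem rl_cY (n : ℕ) : IsRl (cY n) := by
  unfold cY; rw [nn']; exact rl_c _

theorem rl_sY (n : ℕ) : IsRl (sY n) := by
  unfold sY; rw [nn']; exact rl_s _

theorem rl_fr (n : ℕ) (U : Fin 4 → CP) (hU : ∀ c, IsRl (U c)) : ∀ c, IsRl (fr n U c) := by
  intro c
  unfold fr
  fin_cases c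
  · exact ((hU 0).mul (rl_cX n)).sub ((hU 1).mul (rl_sX n))
  · exact ((hU 0).mul (rl_sX n)).add ((hU 1).mul (rl_cX n))
  · exact ((hU 2).mul (rl_cY n)).sub ((hU 3).mul (rl_sY n))
  · exact ((hU 2).mul (rl_sY n)).add ((hU 3).mul (rl_cY n))

namespace K1

theorem nw_ex (w : ℤ × ℤ → ℝ) (m : ℤ × ℤ) : nw w (ex m) = w m := by
  unfold nw
  have h : ∀ k, w k * ‖coef (ex m) k‖ = if k = m then w m else 0 := by
    intro k
    rw [coef_ex]
    split_ifs with h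
    · rw [h]; simp
    · simp
  simp only [h, tsum_ite_eq]

theorem ev (n : ℕ) (hn : 1 ≤ n) (s : ℕ) (m : ℤ × ℤ) (hm : sz m ≤ n) :
    ∀ᶠ N : ℕ in atTop, wt 0 n N s m ≤ 8 := by
  have h1 : Tendsto (fun N : ℕ => (1 + sz m / N) ^ s) atTop (nhds ((1 + 0) ^ s)) := by
    refine Tendsto.pow (Tendsto.add tendsto_const_nhds ?_) s
    exact tendsto_const_div_atTop_nhds_zero_nat (sz m)
  rw [add_zero, one_pow] at h1
  have h2 : ∀ᶠ N : ℕ in atTop, (1 + sz m / N) ^ s < 2 := h1.eventually_lt_const (by norm_num)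
  filter_upwards [h2] with N hN
  unfold wt
  have hn' : (0 : ℝ) < n := by exact_mod_cast hn
  have h3 : sz m / n ≤ 1 := by rw [div_le_one hn']; exact hm
  have h4 : 0 ≤ sz m / n := div_nonneg (F1.sz_nonneg m) hn'.le
  have h5 : (1 + sz m / n) ^ 2 ≤ 4 := by nlinarith
  have h6 : 0 ≤ (1 + sz m / N) ^ s := by
    have : 0 ≤ sz m / N := div_nonneg (F1.sz_nonneg m) (Nat.cast_nonneg N)
    positivity
  rw [pow_zero, one_mul]
  nlinarith [sq_nonneg (1 + sz m / n)]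

theorem ev_frame (n : ℕ) (hn : 1 ≤ n) (s : ℕ) : ∀ᶠ N : ℕ in atTop,
    nw (wt 0 n N s) (cX n) ≤ 8 ∧ nw (wt 0 n N s) (sX n) ≤ 8 ∧
    nw (wt 0 n N s) (cY n) ≤ 8 ∧ nw (wt 0 n N s) (sY n) ≤ 8 := by
  have a1 := ev n hn s ((n : ℤ), 0) (by unfold sz; simp)
  have a2 := ev n hn s (-(n : ℤ), 0) (by unfold sz; simp)
  have a3 := ev n hn s (0, (n : ℤ)) (by unfold sz; simp)
  have a4 := ev n hn s (0, -(n : ℤ)) (by unfold sz; simp)
  filter_upwards [a1, a2, a3, a4] with N h1 h2 h3 h4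
  have hw := wt_isWt 0 n N s
  refine ⟨?_, ?_, ?_, ?_⟩
  · unfold cX
    rw [nw_smul]
    have := nw_add_le hw (ex ((n : ℤ), 0)) (ex (-(n : ℤ), 0))
    rw [nw_ex, nw_ex] at this
    simp only [one_div, norm_inv, Complex.norm_ofNat]
    linarith
  · unfold sX
    rw [nw_smul]
    have := nw_sub_le hw (ex ((n : ℤ), 0)) (ex (-(n : ℤ), 0))
    rw [nw_ex, nw_ex] at this
    simp only [norm_div, norm_neg, Complex.norm_I, Complex.norm_ofNat]
    linarith
  · unfold cY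
    rw [nw_smul]
    have := nw_add_le hw (ex (0, (n : ℤ))) (ex (0, -(n : ℤ)))
    rw [nw_ex, nw_ex] at this
    simp only [one_div, norm_inv, Complex.norm_ofNat]
    linarith
  · unfold sY
    rw [nw_smul]
    have := nw_sub_le hw (ex (0, (n : ℤ))) (ex (0, -(n : ℤ)))
    rw [nw_ex, nw_ex] at this
    simp only [norm_div, norm_neg, Complex.norm_I, Complex.norm_ofNat]
    linarith

theorem fr_sub (n : ℕ) (U V : Fin 4 → CP) : fr n U - fr n V = fr n (U - V) := by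
  funext c
  unfold fr
  fin_cases c
  · show U 0 * cX n - U 1 * sX n - (V 0 * cX n - V 1 * sX n) =
      (U 0 - V 0) * cX n - (U 1 - V 1) * sX n
    ring
  · show U 0 * sX n + U 1 * cX n - (V 0 * sX n + V 1 * cX n) =
      (U 0 - V 0) * sX n + (U 1 - V 1) * cX n
    ring
  · show U 2 * cY n - U 3 * sY n - (V 2 * cY n - V 3 * sY n) =
      (U 2 - V 2) * cY n - (U 3 - V 3) * sY n
    ring
  · show U 2 * sY n + U 3 * cY n - (V 2 * sY n + V 3 * cY n) =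
      (U 2 - V 2) * sY n + (U 3 - V 3) * cY n
    ring

theorem fr_zero (n : ℕ) : fr n 0 = 0 := by
  have := fr_sub n 0 0
  rw [sub_self, sub_self] at this
  exact this.symm

theorem nw_mul_le' {w : ℤ × ℤ → ℝ} (hw : IsWt w) (F G : CP) (C : ℝ) (h : nw w G ≤ C) :
    nw w (F * G) ≤ C * nw w F := by
  have h1 := nw_mul_le hw F G
  have h2 := nw_nonneg hw F
  nlinarith

theorem nv_fr (n : ℕ) (w : ℤ × ℤ → ℝ) (hw : IsWt w) (h1 : nw w (cX n) ≤ 8) (h2 : nw w (sX n) ≤ 8)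
    (h3 : nw w (cY n) ≤ 8) (h4 : nw w (sY n) ≤ 8) (U : Fin 4 → CP) :
    nv w (fr n U) ≤ 16 * nv w U := by
  unfold nv
  rw [Fin.sum_univ_four, Fin.sum_univ_four]
  have a0 : nw w (fr n U 0) ≤ 8 * nw w (U 0) + 8 * nw w (U 1) := by
    show nw w (U 0 * cX n - U 1 * sX n) ≤ _
    exact (nw_sub_le hw _ _).trans (add_le_add (nw_mul_le' hw _ _ _ h1) (nw_mul_le' hw _ _ _ h2))
  have a1 : nw w (fr n U 1) ≤ 8 * nw w (U 0) + 8 * nw w (U 1) := by
    show nw w (U 0 * sX n + U 1 * cX n) ≤ _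
    exact (nw_add_le hw _ _).trans (add_le_add (nw_mul_le' hw _ _ _ h2) (nw_mul_le' hw _ _ _ h1))
  have a2 : nw w (fr n U 2) ≤ 8 * nw w (U 2) + 8 * nw w (U 3) := by
    show nw w (U 2 * cY n - U 3 * sY n) ≤ _
    exact (nw_sub_le hw _ _).trans (add_le_add (nw_mul_le' hw _ _ _ h3) (nw_mul_le' hw _ _ _ h4))
  have a3 : nw w (fr n U 3) ≤ 8 * nw w (U 2) + 8 * nw w (U 3) := by
    show nw w (U 2 * sY n + U 3 * cY n) ≤ _
    exact (nw_add_le hw _ _).trans (add_le_add (nw_mul_le' hw _ _ _ h4) (nw_mul_le' hw _ _ _ h3))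
  linarith

theorem nv_nonneg {w : ℤ × ℤ → ℝ} (hw : IsWt w) (U : Fin 4 → CP) : 0 ≤ nv w U :=
  Finset.sum_nonneg fun c _ => nw_nonneg hw (U c)

end K1

theorem Quad_fr {Φ : ℕ → (Fin 4 → CP) → CP} (h : Quad Φ) :
    Quad (fun n U => Φ n (fr n U)) := by
  obtain ⟨C, hC, h⟩ := h
  refine ⟨C * 16 * 16, by positivity, fun n hn => ⟨?_, fun s => ?_⟩⟩
  · show Φ n (fr n 0) = 0
    rw [fr_zero]; exact (h n hn).1
  · filter_upwards [(h n hn).2 s, ev_frame n hn s] with N h1 h2 U V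
    obtain ⟨c1, c2, c3, c4⟩ := h2
    have hw := wt_isWt 0 n N s
    refine (h1 (fr n U) (fr n V)).trans ?_
    rw [fr_sub]
    have b1 := nv_fr n _ hw c1 c2 c3 c4 U
    have b2 := nv_fr n _ hw c1 c2 c3 c4 V
    have b3 := nv_fr n _ hw c1 c2 c3 c4 (U - V)
    have z1 := nv_nonneg hw (fr n U)
    have z2 := nv_nonneg hw (fr n V)
    have z3 := nv_nonneg hw (fr n (U - V))
    have e1 : C * n ^ 2 * (nv (wt 0 n N s) (fr n U) + nv (wt 0 n N s) (fr n V)) ≤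
        C * n ^ 2 * (16 * (nv (wt 0 n N s) U + nv (wt 0 n N s) V)) := by
      refine mul_le_mul_of_nonneg_left (by linarith) (by positivity)
    calc C * n ^ 2 * (nv (wt 0 n N s) (fr n U) + nv (wt 0 n N s) (fr n V)) *
          nv (wt 0 n N s) (fr n (U - V))
        ≤ (C * n ^ 2 * (16 * (nv (wt 0 n N s) U + nv (wt 0 n N s) V))) *
          (16 * nv (wt 0 n N s) (U - V)) := by
          refine mul_le_mul e1 b3 z3 ?_
          have := nv_nonneg hw U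
          have := nv_nonneg hw V
          positivity
      _ = C * 16 * 16 * n ^ 2 * (nv (wt 0 n N s) U + nv (wt 0 n N s) V) *
          nv (wt 0 n N s) (U - V) := by ring

end Vale.Agent.P205
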