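import Vale.Agent.P205.Goods

open scoped ContDiff ComplexConjugate Topology
open Real Filter

namespace Vale.Agent.P205

namespace GunAux

open GAux NAux

/-- symbol of the smoothing operator -/
noncomputable def lm (n : ℕ) (k : ℤ × ℤ) : ℝ :=
  1 / (1 + ((k.1 : ℝ) ^ 2 + (k.2 : ℝ) ^ 2) / (n : ℝ) ^ 2)

theorem lm_den (n : ℕ) (k : ℤ × ℤ) : 1 ≤ 1 + ((k.1 : ℝ) ^ 2 + (k.2 : ℝ) ^ 2) / (n : ℝ) ^ 2 := by
  have : 0 ≤ ((k.1 : ℝ) ^ 2 + (k.2 : ℝ) ^ 2) / (n : ℝ) ^ 2 := by positivity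
  linarith

theorem lm_le (n : ℕ) (k : ℤ × ℤ) : ‖(lm n k : ℂ)‖ ≤ 1 := by
  rw [Complex.norm_real, Real.norm_eq_abs]
  have h := lm_den n k
  unfold lm
  rw [abs_of_nonneg (by positivity), div_le_one (by linarith)]
  exact h

theorem lm_nonneg (n : ℕ) (k : ℤ × ℤ) : 0 ≤ lm n k := by
  have h := lm_den n k
  unfold lm; positivity

theorem exists_L : ∃ L : ℕ → CP →ₗ[ℂ] CP, ∀ n F k, coef (L n F) k = (lm n k : ℂ) * coef F k := by
  have h := fun n : ℕ => exists_op (fun k => (lm n k : ℂ)) 1 (lm_le n)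
  choose L hL using h
  exact ⟨L, hL⟩

/-- Laplacian -/
noncomputable def lap : CP →ₗ[ℂ] CP := dX ∘ₗ dX + dY ∘ₗ dY

theorem lap_apply (F : CP) : lap F = dX (dX F) + dY (dY F) := rfl

theorem coef_lap (F : CP) (k : ℤ × ℤ) :
    coef (lap F) k = -(((k.1 : ℂ)) ^ 2 + (k.2 : ℂ) ^ 2) * coef F k := by
  rw [lap_apply, coef_add, coef_dX, coef_dX, coef_dY, coef_dY]
  linear_combination ((k.1 : ℂ) ^ 2 + (k.2 : ℂ) ^ 2) * coef F k * Complex.I_sq

variable {L : ℕ → CP →ₗ[ℂ] CP} (hL : ∀ n F k, coef (L n F) k = (lm n k : ℂ) * coef F k)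

theorem coef_sub' (F G : CP) (k : ℤ × ℤ) : coef (F - G) k = coef F k - coef G k := by
  have h : F - G = F + (-1 : ℂ) • G := by simp [sub_eq_add_neg]
  rw [h, coef_add, coef_smul]; ring

include hL

theorem L_inv (n : ℕ) (F : CP) : L n (F - (1 / (n : ℂ) ^ 2) • lap F) = F := by
  refine coef_inj fun k => ?_
  rw [hL, coef_sub', coef_smul, coef_lap]
  have h := lm_den n k
  have h1 : (lm n k : ℂ) * (1 + ((k.1 : ℂ) ^ 2 + (k.2 : ℂ) ^ 2) / (n : ℂ) ^ 2) = 1 := by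
    have h2 : lm n k * (1 + ((k.1 : ℝ) ^ 2 + (k.2 : ℝ) ^ 2) / (n : ℝ) ^ 2) = 1 := by
      unfold lm
      rw [one_div, inv_mul_cancel₀ (by linarith)]
    exact_mod_cast h2
  linear_combination coef F k * h1

theorem L_comm_dX (n : ℕ) (F : CP) : dX (L n F) = L n (dX F) := by
  refine coef_inj fun k => ?_
  rw [coef_dX, hL, hL, coef_dX]; ring

theorem L_comm_dY (n : ℕ) (F : CP) : dY (L n F) = L n (dY F) := by
  refine coef_inj fun k => ?_
  rw [coef_dY, hL, hL, coef_dY]; ring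

theorem L_real (n : ℕ) (F : CP) (hF : IsRl F) : IsRl (L n F) := by
  refine op_real (L n) (fun k => (lm n k : ℂ)) (hL n) (fun k => ?_) F hF
  rw [Complex.conj_ofReal]
  unfold lm
  simp

/-- the auxiliary weight -/
theorem nw_L (n N s : ℕ) (F : CP) : nw (wt 0 n N s) (L n F) ≤ 4 * nw (wt 0 0 N s) F := by
  refine nw_mono (wt_isWt _ _ _ _) (wt_isWt _ _ _ _) _ _ 4 fun k => ?_
  rw [hL, norm_mul, Complex.norm_real, Real.norm_of_nonneg (lm_nonneg n k)]
  have hk := sz_nonneg k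
  have h0 := norm_nonneg (coef F k)
  have hs : 0 ≤ (1 + sz k / N) ^ s := by positivity
  have h1 : (1 + sz k / n) ^ 2 * lm n k ≤ 4 := by
    have hd := lm_den n k
    unfold lm
    rw [mul_one_div, div_le_iff₀ (by linarith)]
    have h2 : (sz k / n) ^ 2 ≤ 2 * (((k.1 : ℝ) ^ 2 + (k.2 : ℝ) ^ 2) / (n : ℝ) ^ 2) := by
      rw [div_pow, ← mul_div_assoc]
      refine div_le_div_of_nonneg_right ?_ (by positivity)
      unfold sz
      have e1 : |(k.1 : ℝ)| ^ 2 = (k.1 : ℝ) ^ 2 := sq_abs _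
      have e2 : |(k.2 : ℝ)| ^ 2 = (k.2 : ℝ) ^ 2 := sq_abs _
      nlinarith [sq_nonneg (|(k.1 : ℝ)| - |(k.2 : ℝ)|)]
    nlinarith [sq_nonneg (1 - sz k / (n : ℝ))]
  have e1 : wt 0 n N s k = (1 + sz k / n) ^ 2 * (1 + sz k / N) ^ s := by
    unfold wt; rw [pow_zero, one_mul]
  have e2 : wt 0 0 N s k = (1 + sz k / N) ^ s := by
    unfold wt
    simp
  rw [e1, e2]
  calc (1 + sz k / n) ^ 2 * (1 + sz k / N) ^ s * (lm n k * ‖coef F k‖)
      = ((1 + sz k / n) ^ 2 * lm n k) * ((1 + sz k / N) ^ s * ‖coef F k‖) := by ring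
    _ ≤ 4 * ((1 + sz k / N) ^ s * ‖coef F k‖) :=
        mul_le_mul_of_nonneg_right h1 (by positivity)

omit hL

/-- a linear map bounded by n^a from the strong to the weak weight -/
def DB (a : ℕ) (A : CP →ₗ[ℂ] CP) : Prop := ∃ C : ℝ, 0 ≤ C ∧ ∀ n : ℕ, 1 ≤ n → ∀ N s F,
  nw (wt 0 0 N s) (A F) ≤ C * (n : ℝ) ^ a * nw (wt 0 n N s) F

theorem DB_of_symbol (a : ℕ) (ha : a ≤ 2) (A : CP →ₗ[ℂ] CP) (M : ℤ × ℤ → ℂ)
    (hA : ∀ F k, coef (A F) k = M k * coef F k) (C : ℝ) (hC : 0 ≤ C)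
    (hM : ∀ k, ‖M k‖ ≤ C * sz k ^ a) : DB a A := by
  refine ⟨C, hC, fun n hn N s F => ?_⟩
  refine nw_mono (wt_isWt _ _ _ _) (wt_isWt _ _ _ _) _ _ _ fun k => ?_
  have hk := sz_nonneg k
  have h0 := norm_nonneg (coef F k)
  have hnp : (0 : ℝ) < n := by exact_mod_cast hn
  have e1 : wt 0 n N s k = (1 + sz k / n) ^ 2 * (1 + sz k / N) ^ s := by
    unfold wt; rw [pow_zero, one_mul]
  have e2 : wt 0 0 N s k = (1 + sz k / N) ^ s := by
    unfold wt
    simp
  rw [e1, e2, hA, norm_mul]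
  have hs : 0 ≤ (1 + sz k / N) ^ s := by positivity
  have h1 : ‖M k‖ ≤ C * (n : ℝ) ^ a * (1 + sz k / n) ^ 2 := by
    refine (hM k).trans ?_
    rw [mul_assoc]
    refine mul_le_mul_of_nonneg_left ?_ hC
    have h2 : sz k ≤ n * (1 + sz k / n) := by
      rw [mul_add, mul_one, mul_div_cancel₀ _ hnp.ne']
      linarith
    calc sz k ^ a ≤ (n * (1 + sz k / n)) ^ a := pow_le_pow_left₀ hk h2 a
      _ = (n : ℝ) ^ a * (1 + sz k / n) ^ a := by rw [mul_pow]
      _ ≤ (n : ℝ) ^ a * (1 + sz k / n) ^ 2 := by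
          refine mul_le_mul_of_nonneg_left ?_ (by positivity)
          refine pow_le_pow_right₀ ?_ ha
          have : 0 ≤ sz k / (n : ℝ) := by positivity
          linarith
  calc (1 + sz k / N) ^ s * (‖M k‖ * ‖coef F k‖)
      ≤ (1 + sz k / N) ^ s * ((C * (n : ℝ) ^ a * (1 + sz k / n) ^ 2) * ‖coef F k‖) := by
        refine mul_le_mul_of_nonneg_left (mul_le_mul_of_nonneg_right h1 h0) hs
    _ = _ := by ring

theorem norm_int1 (k : ℤ × ℤ) : ‖Complex.I * (k.1 : ℂ)‖ ≤ sz k := by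
  rw [norm_mul, Complex.norm_I, one_mul, ← Complex.ofReal_intCast, Complex.norm_real,
    Real.norm_eq_abs]
  unfold sz
  have := abs_nonneg (k.2 : ℝ)
  linarith

theorem norm_int2 (k : ℤ × ℤ) : ‖Complex.I * (k.2 : ℂ)‖ ≤ sz k := by
  rw [norm_mul, Complex.norm_I, one_mul, ← Complex.ofReal_intCast, Complex.norm_real,
    Real.norm_eq_abs]
  unfold sz
  have := abs_nonneg (k.1 : ℝ)
  linarith

/-- symbol of DD i -/
noncomputable def sy (i : Fin 2) (k : ℤ × ℤ) : ℂ :=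
  if i = 0 then Complex.I * k.1 else Complex.I * k.2

theorem coef_DD (i : Fin 2) (F : CP) (k : ℤ × ℤ) : coef (DD i F) k = sy i k * coef F k := by
  fin_cases i
  · exact coef_dX F k
  · exact coef_dY F k

theorem norm_sy (i : Fin 2) (k : ℤ × ℤ) : ‖sy i k‖ ≤ sz k := by
  fin_cases i
  · exact norm_int1 k
  · exact norm_int2 k

theorem DB_DD (i : Fin 2) : DB 1 (DD i) :=
  DB_of_symbol 1 (by norm_num) _ (sy i) (coef_DD i) 1 zero_le_one (fun k => by
    rw [one_mul, pow_one]; exact norm_sy i k)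

theorem DB_DD2 (i j : Fin 2) : DB 2 (DD i ∘ₗ DD j) :=
  DB_of_symbol 2 le_rfl _ (fun k => sy i k * sy j k) (fun F k => by
    rw [LinearMap.comp_apply, coef_DD, coef_DD, mul_assoc]) 1 zero_le_one (fun k => by
    rw [one_mul, norm_mul, sq]
    exact mul_le_mul (norm_sy i k) (norm_sy j k) (norm_nonneg _) (sz_nonneg k))

theorem DB_lap : DB 2 lap :=
  DB_of_symbol 2 le_rfl _ (fun k => sy 0 k * sy 0 k + sy 1 k * sy 1 k) (fun F k => by
    have h1 : coef (dX F) k = sy 0 k * coef F k := coef_dX F k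
    have h2 : coef (dX (dX F)) k = sy 0 k * coef (dX F) k := coef_dX _ k
    have h3 : coef (dY F) k = sy 1 k * coef F k := coef_dY F k
    have h4 : coef (dY (dY F)) k = sy 1 k * coef (dY F) k := coef_dY _ k
    rw [lap_apply, coef_add, h2, h4, h1, h3]
    ring) 2 zero_le_two (fun k => by
    refine (norm_add_le _ _).trans ?_
    rw [norm_mul, norm_mul]
    have h0 := norm_sy 0 k
    have h1 := norm_sy 1 k
    nlinarith [norm_nonneg (sy 0 k), norm_nonneg (sy 1 k), sz_nonneg k])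

/-- bilinear bounded families -/
def BQ (B : ℕ → (Fin 4 → CP) → (Fin 4 → CP) → CP) : Prop :=
  (∀ n u u' v, B n (u - u') v = B n u v - B n u' v) ∧
  (∀ n u v v', B n u (v - v') = B n u v - B n u v') ∧
  ∃ C : ℝ, 0 ≤ C ∧ ∀ n : ℕ, 1 ≤ n → ∀ N s u v,
    nw (wt 0 n N s) (B n u v) ≤ C * (n : ℝ) ^ 2 * nv (wt 0 n N s) u * nv (wt 0 n N s) v

theorem BQ_add {B B' : ℕ → (Fin 4 → CP) → (Fin 4 → CP) → CP} (h : BQ B) (h' : BQ B') :
    BQ (fun n u v => B n u v + B' n u v) := by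
  obtain ⟨a1, a2, C, C0, hC⟩ := h
  obtain ⟨b1, b2, C', C0', hC'⟩ := h'
  refine ⟨fun n u u' v => ?_, fun n u v v' => ?_, C + C', by positivity, fun n hn N s u v => ?_⟩
  · simp only [a1, b1]; ring
  · simp only [a2, b2]; ring
  · refine (nw_add_le (wt_isWt _ _ _ _) _ _).trans ((add_le_add (hC n hn N s u v)
      (hC' n hn N s u v)).trans_eq ?_)
    ring

theorem BQ_sub {B B' : ℕ → (Fin 4 → CP) → (Fin 4 → CP) → CP} (h : BQ B) (h' : BQ B') :
    BQ (fun n u v => B n u v - B' n u v) := by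
  obtain ⟨a1, a2, C, C0, hC⟩ := h
  obtain ⟨b1, b2, C', C0', hC'⟩ := h'
  refine ⟨fun n u u' v => ?_, fun n u v v' => ?_, C + C', by positivity, fun n hn N s u v => ?_⟩
  · simp only [a1, b1]; ring
  · simp only [a2, b2]; ring
  · refine (nw_sub_le (wt_isWt _ _ _ _) _ _).trans ((add_le_add (hC n hn N s u v)
      (hC' n hn N s u v)).trans_eq ?_)
    ring

theorem Quad_of_BQ {B : ℕ → (Fin 4 → CP) → (Fin 4 → CP) → CP} (h : BQ B) :
    Quad (fun n u => B n u u) := by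
  obtain ⟨a1, a2, C, C0, hC⟩ := h
  refine ⟨C, C0, fun n hn => ⟨?_, fun s => Filter.Eventually.of_forall fun N U V => ?_⟩⟩
  · have h := a1 n 0 0 0
    rw [sub_self, sub_self] at h
    exact h
  · have hw := wt_isWt 0 n N s
    have e : B n U U - B n V V = B n (U - V) U + B n V (U - V) := by
      rw [a1, a2]; ring
    rw [e]
    have h1 := hC n hn N s (U - V) U
    have h2 := hC n hn N s V (U - V)
    refine (nw_add_le hw _ _).trans ((add_le_add h1 h2).trans_eq ?_)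
    ring

/-- the basic bilinear form -/
noncomputable def bf (L : ℕ → CP →ₗ[ℂ] CP) (c : ℕ → ℂ) (A A' : CP →ₗ[ℂ] CP) (n : ℕ)
    (u v : Fin 4 → CP) : CP := c n • L n (∑ i, A (u i) * A' (v i))

theorem nw_sum_le {w : ℤ × ℤ → ℝ} (hw : IsWt w) (f : Fin 4 → CP) :
    nw w (∑ i, f i) ≤ ∑ i, nw w (f i) := by
  rw [Fin.sum_univ_four, Fin.sum_univ_four]
  refine (nw_add_le hw _ _).trans (add_le_add ((nw_add_le hw _ _).trans
    (add_le_add (nw_add_le hw _ _) le_rfl)) le_rfl)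

include hL in
theorem BQ_bf (c : ℕ → ℂ) (A A' : CP →ₗ[ℂ] CP) (a a' b : ℕ) (hA : DB a A) (hA' : DB a' A')
    (hab : a + a' ≤ 2 + b) (K : ℝ) (hK : 0 ≤ K)
    (hc : ∀ n : ℕ, 1 ≤ n → ‖c n‖ * (n : ℝ) ^ b ≤ K) : BQ (bf L c A A') := by
  obtain ⟨C, C0, hC⟩ := hA
  obtain ⟨C', C0', hC'⟩ := hA'
  refine ⟨fun n u u' v => ?_, fun n u v v' => ?_, 4 * K * C * C', by positivity,
    fun n hn N s u v => ?_⟩
  · unfold bf
    rw [← smul_sub, ← map_sub, ← Finset.sum_sub_distrib]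
    congr 2
    refine Finset.sum_congr rfl fun i _ => ?_
    rw [Pi.sub_apply, map_sub]; ring
  · unfold bf
    rw [← smul_sub, ← map_sub, ← Finset.sum_sub_distrib]
    congr 2
    refine Finset.sum_congr rfl fun i _ => ?_
    rw [Pi.sub_apply, map_sub]; ring
  · unfold bf
    rw [nw_smul]
    have hw := wt_isWt 0 n N s
    have hw' := wt_isWt 0 0 N s
    have hn1 : (1 : ℝ) ≤ n := by exact_mod_cast hn
    have h1 : nw (wt 0 0 N s) (∑ i, A (u i) * A' (v i)) ≤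
        C * (n : ℝ) ^ a * (C' * (n : ℝ) ^ a') * (nv (wt 0 n N s) u * nv (wt 0 n N s) v) := by
      refine (nw_sum_le hw' _).trans ?_
      have h2 : ∀ i, nw (wt 0 0 N s) (A (u i) * A' (v i)) ≤
          C * (n : ℝ) ^ a * (C' * (n : ℝ) ^ a') *
            (nw (wt 0 n N s) (u i) * nv (wt 0 n N s) v) := by
        intro i
        refine (nw_mul_le hw' _ _).trans ?_
        have h3 := hC n hn N s (u i)
        have h4 := hC' n hn N s (v i)
        have h5 := le_nv hw v i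
        have h6 := nw_nonneg hw (u i)
        have h7 := nw_nonneg hw (v i)
        calc _ ≤ (C * (n : ℝ) ^ a * nw (wt 0 n N s) (u i)) *
              (C' * (n : ℝ) ^ a' * nw (wt 0 n N s) (v i)) :=
              mul_le_mul h3 h4 (nw_nonneg hw' _) (by positivity)
          _ = C * (n : ℝ) ^ a * (C' * (n : ℝ) ^ a') *
              (nw (wt 0 n N s) (u i) * nw (wt 0 n N s) (v i)) := by ring
          _ ≤ _ := by
              refine mul_le_mul_of_nonneg_left ?_ (by positivity)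
              exact mul_le_mul_of_nonneg_left h5 h6
      refine (Finset.sum_le_sum fun i _ => h2 i).trans_eq ?_
      rw [← Finset.mul_sum, ← Finset.sum_mul]
      rfl
    have h3 := nv_nonneg hw u
    have h4 := nv_nonneg hw v
    have h5 : (n : ℝ) ^ a * (n : ℝ) ^ a' ≤ (n : ℝ) ^ 2 * (n : ℝ) ^ b := by
      rw [← pow_add, ← pow_add]
      exact pow_le_pow_right₀ hn1 hab
    calc ‖c n‖ * nw (wt 0 n N s) (L n (∑ i, A (u i) * A' (v i)))
        ≤ ‖c n‖ * (4 * (C * (n : ℝ) ^ a * (C' * (n : ℝ) ^ a') *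
          (nv (wt 0 n N s) u * nv (wt 0 n N s) v))) := by
          refine mul_le_mul_of_nonneg_left ?_ (norm_nonneg _)
          exact (nw_L hL n N s _).trans (mul_le_mul_of_nonneg_left h1 (by norm_num))
      _ = 4 * C * C' * (‖c n‖ * ((n : ℝ) ^ a * (n : ℝ) ^ a')) *
          (nv (wt 0 n N s) u * nv (wt 0 n N s) v) := by ring
      _ ≤ 4 * C * C' * (‖c n‖ * ((n : ℝ) ^ 2 * (n : ℝ) ^ b)) *
          (nv (wt 0 n N s) u * nv (wt 0 n N s) v) := by
          refine mul_le_mul_of_nonneg_right ?_ (by positivity)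
          refine mul_le_mul_of_nonneg_left ?_ (by positivity)
          exact mul_le_mul_of_nonneg_left h5 (norm_nonneg _)
      _ = 4 * C * C' * (n : ℝ) ^ 2 * (‖c n‖ * (n : ℝ) ^ b) *
          (nv (wt 0 n N s) u * nv (wt 0 n N s) v) := by ring
      _ ≤ 4 * C * C' * (n : ℝ) ^ 2 * K * (nv (wt 0 n N s) u * nv (wt 0 n N s) v) := by
          refine mul_le_mul_of_nonneg_right ?_ (by positivity)
          exact mul_le_mul_of_nonneg_left (hc n hn) (by positivity)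
      _ = _ := by ring

theorem DD_mul (i : Fin 2) (F G : CP) : DD i (F * G) = DD i F * G + F * DD i G := by
  fin_cases i
  · exact dX_mul F G
  · exact dY_mul F G

theorem DD_comm (i j : Fin 2) (F : CP) : DD i (DD j F) = DD j (DD i F) := by
  fin_cases i <;> fin_cases j
  · rfl
  · exact dX_dY F
  · exact (dX_dY F).symm
  · rfl

theorem dX_DD (i : Fin 2) (F : CP) : dX (DD i F) = DD i (dX F) := DD_comm 0 i F

theorem dY_DD (i : Fin 2) (F : CP) : dY (DD i F) = DD i (dY F) := DD_comm 1 i F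

/-- the pointwise identity of Gunther -/
theorem key (μ : ℂ) (i j : Fin 2) (u : CP) :
    DD i u * DD j u - μ • lap (DD i u * DD j u) =
      -(μ • DD i (lap u * DD j u)) - μ • DD j (lap u * DD i u) + DD i u * DD j u
      + (2 * μ) • (lap u * DD i (DD j u))
      - (2 * μ) • (DD i (dX u) * DD j (dX u)) - (2 * μ) • (DD i (dY u) * DD j (dY u)) := by
  have e1 : lap (DD i u * DD j u) = DD i (lap u) * DD j u + DD i u * DD j (lap u)
      + 2 * (DD i (dX u) * DD j (dX u)) + 2 * (DD i (dY u) * DD j (dY u)) := by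
    simp only [lap_apply, dX_mul, dY_mul, map_add, dX_DD, dY_DD]
    ring
  have e2 : DD i (lap u * DD j u) = DD i (lap u) * DD j u + lap u * DD i (DD j u) := DD_mul _ _ _
  have e3 : DD j (lap u * DD i u) = DD j (lap u) * DD i u + lap u * DD i (DD j u) := by
    rw [DD_mul, DD_comm j i]
  rw [e1, e2, e3]
  have h2 : ∀ F : CP, (2 * μ) • F = 2 * (μ • F) := by
    intro F
    rw [mul_smul, two_smul, two_mul]
  simp only [h2, Algebra.smul_def]
  ring

end GunAux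

open GunAux GAux NAux

theorem gunther : ∃ (P : Fin 2 → ℕ → (Fin 4 → CP) → CP)
    (Q : Fin 2 → Fin 2 → ℕ → (Fin 4 → CP) → CP),
    (∀ i j n, 1 ≤ n → ∀ u : Fin 4 → CP, ∑ c, DD i (u c) * DD j (u c) =
      DD i (P j n u) + DD j (P i n u) + Q i j n u) ∧
    (∀ i, Quad (P i)) ∧ (∀ i j, Quad (Q i j)) ∧ (∀ i, RlMap (P i)) ∧
    (∀ i j, RlMap (Q i j)) := by
  obtain ⟨L, hL⟩ := exists_L
  let c1 : ℕ → ℂ := fun n => -(1 / (n : ℂ) ^ 2)
  let c2 : ℕ → ℂ := fun n => 2 * (1 / (n : ℂ) ^ 2)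
  have hc1 : ∀ n : ℕ, 1 ≤ n → ‖c1 n‖ * (n : ℝ) ^ 2 ≤ 1 := by
    intro n hn
    have hnp : (0 : ℝ) < n := by exact_mod_cast hn
    simp only [c1, norm_neg, norm_div, norm_one, norm_pow, Complex.norm_natCast]
    rw [one_div, inv_mul_cancel₀ (by positivity)]
  have hc2 : ∀ n : ℕ, 1 ≤ n → ‖c2 n‖ * (n : ℝ) ^ 2 ≤ 2 := by
    intro n hn
    have hnp : (0 : ℝ) < n := by exact_mod_cast hn
    simp only [c2, norm_mul, norm_div, norm_one, norm_pow, Complex.norm_natCast,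
      Complex.norm_ofNat]
    rw [one_div, mul_assoc, inv_mul_cancel₀ (by positivity), mul_one]
  have rsum : ∀ (A A' : CP →ₗ[ℂ] CP) (c : ℕ → ℂ), (∀ n, (c n).im = 0) →
      (∀ F, IsRl F → IsRl (A F)) → (∀ F, IsRl F → IsRl (A' F)) →
      RlMap (fun n u => bf L c A A' n u u) := by
    intro A A' c hc hA hA' n U hU
    refine IsRl.smul (L_real hL n _ (IsRl.sum _ _ fun i _ => ?_)) _ (hc n)
    exact (hA _ (hU i)).mul (hA' _ (hU i))
  have rDD : ∀ i F, IsRl F → IsRl (DD i F) := by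
    intro i F hF
    fin_cases i
    · exact hF.dX
    · exact hF.dY
  have rlap : ∀ F, IsRl F → IsRl (lap F) := fun F hF => hF.dX.dX.add hF.dY.dY
  have im1 : ∀ n, (c1 n).im = 0 := by
    intro n
    have : c1 n = ((-(1 / (n : ℝ) ^ 2) : ℝ) : ℂ) := by simp only [c1]; push_cast; rfl
    rw [this, Complex.ofReal_im]
  have im2 : ∀ n, (c2 n).im = 0 := by
    intro n
    have : c2 n = ((2 * (1 / (n : ℝ) ^ 2) : ℝ) : ℂ) := by simp only [c2]; push_cast; rfl
    rw [this, Complex.ofReal_im]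
  refine ⟨fun j n u => bf L c1 lap (DD j) n u u,
    fun i j n u => bf L (fun _ => 1) (DD i) (DD j) n u u + bf L c2 lap (DD i ∘ₗ DD j) n u u
      - bf L c2 (DD i ∘ₗ DD 0) (DD j ∘ₗ DD 0) n u u - bf L c2 (DD i ∘ₗ DD 1) (DD j ∘ₗ DD 1) n u u,
    ?_, ?_, ?_, ?_, ?_⟩
  · intro i j n _ u
    have hDL : ∀ (i : Fin 2) F, DD i (L n F) = L n (DD i F) := by
      intro i F
      fin_cases i
      · exact L_comm_dX hL n F
      · exact L_comm_dY hL n F
    have hkey : (∑ c, DD i (u c) * DD j (u c)) - (1 / (n : ℂ) ^ 2) •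
        lap (∑ c, DD i (u c) * DD j (u c)) =
        c1 n • DD i (∑ c, lap (u c) * DD j (u c)) + c1 n • DD j (∑ c, lap (u c) * DD i (u c))
        + ((∑ c, DD i (u c) * DD j (u c)) + c2 n • (∑ c, lap (u c) * DD i (DD j (u c)))
        - c2 n • (∑ c, DD i (dX (u c)) * DD j (dX (u c)))
        - c2 n • (∑ c, DD i (dY (u c)) * DD j (dY (u c)))) := by
      simp only [map_sum, Finset.smul_sum, ← Finset.sum_add_distrib, ← Finset.sum_sub_distrib]
      refine Finset.sum_congr rfl fun c _ => ?_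
      rw [key (1 / (n : ℂ) ^ 2) i j (u c)]
      simp only [c1, c2, neg_smul]
      ring
    calc ∑ c, DD i (u c) * DD j (u c)
        = L n ((∑ c, DD i (u c) * DD j (u c)) - (1 / (n : ℂ) ^ 2) •
          lap (∑ c, DD i (u c) * DD j (u c))) := (L_inv hL n _).symm
      _ = _ := by
          rw [hkey]
          simp only [map_add, map_sub, map_smul, bf, one_smul, hDL, LinearMap.comp_apply]
          rfl
  · intro j
    exact Quad_of_BQ (BQ_bf hL c1 lap (DD j) 2 1 2 DB_lap (DB_DD j) (by norm_num) 1 zero_le_one hc1)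
  · intro i j
    refine Quad_of_BQ (B := fun n u v => bf L (fun _ => 1) (DD i) (DD j) n u v
      + bf L c2 lap (DD i ∘ₗ DD j) n u v - bf L c2 (DD i ∘ₗ DD 0) (DD j ∘ₗ DD 0) n u v
      - bf L c2 (DD i ∘ₗ DD 1) (DD j ∘ₗ DD 1) n u v) ?_
    refine BQ_sub (BQ_sub (BQ_add ?_ ?_) ?_) ?_
    · exact BQ_bf hL _ (DD i) (DD j) 1 1 0 (DB_DD i) (DB_DD j) (by norm_num) 1 zero_le_one
        (fun n _ => by simp)
    · exact BQ_bf hL c2 lap (DD i ∘ₗ DD j) 2 2 2 DB_lap (DB_DD2 i j) (by norm_num) 2 zero_le_two hc2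
    · exact BQ_bf hL c2 _ _ 2 2 2 (DB_DD2 i 0) (DB_DD2 j 0) (by norm_num) 2 zero_le_two hc2
    · exact BQ_bf hL c2 _ _ 2 2 2 (DB_DD2 i 1) (DB_DD2 j 1) (by norm_num) 2 zero_le_two hc2
  · intro j
    exact rsum lap (DD j) c1 im1 rlap (rDD j)
  · intro i j n U hU
    refine ((IsRl.add ?_ ?_).sub ?_).sub ?_
    · exact rsum _ _ _ (fun _ => by simp) (rDD i) (rDD j) n U hU
    · exact rsum lap (DD i ∘ₗ DD j) c2 im2 rlap (fun F hF => rDD i (DD j F) (rDD j F hF)) n U hU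
    · exact rsum (DD i ∘ₗ DD 0) (DD j ∘ₗ DD 0) c2 im2
        (fun F hF => rDD i (DD 0 F) (rDD 0 F hF)) (fun F hF => rDD j (DD 0 F) (rDD 0 F hF)) n U hU
    · exact rsum (DD i ∘ₗ DD 1) (DD j ∘ₗ DD 1) c2 im2
        (fun F hF => rDD i (DD 1 F) (rDD 1 F hF)) (fun F hF => rDD j (DD 1 F) (rDD 1 F hF)) n U hU

end Vale.Agent.P205
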