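import Vale.Agent.P205.UBs
import Vale.Agent.P205.Bump

open scoped ContDiff ComplexConjugate
open Real Filter

namespace Vale.Agent.P205

namespace TO

theorem ex_zero : ex 0 = 1 := by
  ext z
  have h1 : ((1 : CP) : ℝ × ℝ → ℂ) z = 1 := rfl
  have h2 : (ex 0 : ℝ × ℝ → ℂ) z = Complex.exp (Complex.I * (((0 : ℤ × ℤ).1 : ℂ) * z.1 +
    ((0 : ℤ × ℤ).2 : ℂ) * z.2)) := rfl
  rw [h1, h2]
  simp

theorem coef_one (k : ℤ × ℤ) : coef 1 k = if k = 0 then 1 else 0 := by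
  rw [← ex_zero, coef_ex]

theorem coef_neg (F : CP) (k : ℤ × ℤ) : coef (-F) k = -coef F k := by
  have : -F = (-1 : ℂ) • F := by simp
  rw [this, coef_smul]; ring

theorem coef_sub (F G : CP) (k : ℤ × ℤ) : coef (F - G) k = coef F k - coef G k := by
  rw [sub_eq_add_neg, coef_add, coef_neg]; ring

/-- the multipliers used in the construction -/
structure Ops where
  /-- mean in the second variable -/
  mY : CP →ₗ[ℂ] CP
  /-- mean in the first variable -/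
  mX : CP →ₗ[ℂ] CP
  /-- primitive in the second variable -/
  iY : CP →ₗ[ℂ] CP
  /-- primitive in the first variable -/
  iX : CP →ₗ[ℂ] CP
  /-- inverse of the Laplacian -/
  Lv : CP →ₗ[ℂ] CP
  /-- mean -/
  L0 : CP →ₗ[ℂ] CP
  mY_coef : ∀ F k, coef (mY F) k = (if k.2 = 0 then 1 else 0) * coef F k
  mX_coef : ∀ F k, coef (mX F) k = (if k.1 = 0 then 1 else 0) * coef F k
  iY_coef : ∀ F k, coef (iY F) k = (if k.2 = 0 then 0 else 1 / (Complex.I * k.2)) * coef F k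
  iX_coef : ∀ F k, coef (iX F) k = (if k.1 = 0 then 0 else 1 / (Complex.I * k.1)) * coef F k
  Lv_coef : ∀ F k, coef (Lv F) k = (-(1 / ((k.1 : ℂ) ^ 2 + (k.2 : ℂ) ^ 2))) * coef F k
  L0_coef : ∀ F k, coef (L0 F) k = (if k = 0 then 1 else 0) * coef F k

theorem int_inv_le (k : ℤ) : ‖(if k = 0 then 0 else 1 / (Complex.I * k) : ℂ)‖ ≤ 1 := by
  split_ifs with h
  · simp
  · rw [norm_div, norm_mul, Complex.norm_I, one_mul, norm_one, Complex.norm_intCast]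
    have h1 : (1 : ℝ) ≤ |(k : ℝ)| := by
      have := Int.one_le_abs h
      exact_mod_cast this
    rw [div_le_one (by linarith)]
    exact h1

theorem ind_le (p : Prop) [Decidable p] : ‖(if p then 1 else 0 : ℂ)‖ ≤ 1 := by
  split_ifs <;> simp

theorem norm_sq_eq (k : ℤ × ℤ) : ‖((k.1 : ℂ) ^ 2 + (k.2 : ℂ) ^ 2)‖ = (k.1 : ℝ) ^ 2 + (k.2 : ℝ) ^ 2 := by
  have h1 : ((k.1 : ℂ) ^ 2 + (k.2 : ℂ) ^ 2) = (((k.1 : ℝ) ^ 2 + (k.2 : ℝ) ^ 2 : ℝ) : ℂ) := by
    push_cast; ring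
  rw [h1, Complex.norm_real, Real.norm_of_nonneg (by positivity)]

theorem sz_sq (k : ℤ × ℤ) : sz k ^ 2 ≤ 2 * ((k.1 : ℝ) ^ 2 + (k.2 : ℝ) ^ 2) := by
  unfold sz
  have h1 := sq_abs (k.1 : ℝ)
  have h2 := sq_abs (k.2 : ℝ)
  nlinarith [sq_nonneg (|(k.1 : ℝ)| - |(k.2 : ℝ)|)]

theorem one_le_sz (k : ℤ × ℤ) (hk : k ≠ 0) : 1 ≤ sz k := by
  unfold sz
  by_cases h : k.1 = 0
  · have h2 : k.2 ≠ 0 := fun h2 => hk (Prod.ext h h2)
    have h3 : (1 : ℝ) ≤ |(k.2 : ℝ)| := by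
      have := Int.one_le_abs h2
      exact_mod_cast this
    linarith [abs_nonneg (k.1 : ℝ)]
  · have h3 : (1 : ℝ) ≤ |(k.1 : ℝ)| := by
      have := Int.one_le_abs h
      exact_mod_cast this
    linarith [abs_nonneg (k.2 : ℝ)]

theorem sz_nonneg (k : ℤ × ℤ) : 0 ≤ sz k := by unfold sz; positivity

theorem lap_le (k : ℤ × ℤ) : ‖(-(1 / ((k.1 : ℂ) ^ 2 + (k.2 : ℂ) ^ 2)))‖ ≤ 2 := by
  rw [norm_neg, norm_div, norm_one, norm_sq_eq]
  by_cases hk : k = 0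
  · subst hk; simp
  · have h1 := one_le_sz k hk
    have h2 := sz_sq k
    have h3 : 1 ≤ sz k ^ 2 := one_le_pow₀ h1
    rw [div_le_iff₀ (by linarith)]
    linarith

theorem exists_ops : Nonempty Ops := by
  obtain ⟨mY, h1⟩ := exists_op (fun k => if k.2 = 0 then 1 else 0) 1 (fun k => ind_le _)
  obtain ⟨mX, h2⟩ := exists_op (fun k => if k.1 = 0 then 1 else 0) 1 (fun k => ind_le _)
  obtain ⟨iY, h3⟩ := exists_op (fun k => if k.2 = 0 then 0 else 1 / (Complex.I * k.2)) 1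
    (fun k => int_inv_le _)
  obtain ⟨iX, h4⟩ := exists_op (fun k => if k.1 = 0 then 0 else 1 / (Complex.I * k.1)) 1
    (fun k => int_inv_le _)
  obtain ⟨Lv, h5⟩ := exists_op (fun k => -(1 / ((k.1 : ℂ) ^ 2 + (k.2 : ℂ) ^ 2))) 2 lap_le
  obtain ⟨L0, h6⟩ := exists_op (fun k => if k = 0 then 1 else 0) 1 (fun k => ind_le _)
  exact ⟨⟨mY, mX, iY, iX, Lv, L0, h1, h2, h3, h4, h5, h6⟩⟩

variable (O : Ops)

theorem dY_mY (F : CP) : dY (O.mY F) = 0 := by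
  apply coef_inj
  intro k
  have h0 : coef 0 k = 0 := by
    have := coef_smul 0 (0 : CP) k
    simpa using this
  rw [coef_dY, O.mY_coef, h0]
  split_ifs with h
  · rw [h]; simp
  · simp

theorem coef_zero (k : ℤ × ℤ) : coef 0 k = 0 := by
  have := coef_smul 0 (0 : CP) k
  simpa using this

theorem dX_mX (F : CP) : dX (O.mX F) = 0 := by
  apply coef_inj
  intro k
  rw [coef_dX, O.mX_coef, coef_zero]
  split_ifs with h
  · rw [h]; simp
  · simp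

theorem dY_iY (F : CP) : dY (O.iY F) = F - O.mY F := by
  apply coef_inj
  intro k
  rw [coef_dY, O.iY_coef, coef_sub, O.mY_coef]
  split_ifs with h
  · rw [h]; simp
  · have h1 : (k.2 : ℂ) ≠ 0 := by exact_mod_cast h
    have h2 := Complex.I_ne_zero
    field_simp
    ring

theorem dX_iX (F : CP) : dX (O.iX F) = F - O.mX F := by
  apply coef_inj
  intro k
  rw [coef_dX, O.iX_coef, coef_sub, O.mX_coef]
  split_ifs with h
  · rw [h]; simp
  · have h1 : (k.1 : ℂ) ≠ 0 := by exact_mod_cast h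
    have h2 := Complex.I_ne_zero
    field_simp
    ring

theorem lap_Lv (F : CP) : dX (dX (O.Lv F)) + dY (dY (O.Lv F)) = F - O.L0 F := by
  apply coef_inj
  intro k
  rw [coef_add, coef_dX, coef_dX, coef_dY, coef_dY, O.Lv_coef, coef_sub, O.L0_coef]
  split_ifs with h
  · rw [h]; simp
  · have h1 : ((k.1 : ℂ) ^ 2 + (k.2 : ℂ) ^ 2) ≠ 0 := by
      rw [← norm_ne_zero_iff, norm_sq_eq]
      have h3 := one_le_sz k h
      have h4 := sz_sq k
      have h5 : 1 ≤ sz k ^ 2 := one_le_pow₀ h3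
      linarith
    have h2 : Complex.I * k.1 * (Complex.I * k.1 * (-(1 / ((k.1 : ℂ) ^ 2 + (k.2 : ℂ) ^ 2)) *
        coef F k)) + Complex.I * k.2 * (Complex.I * k.2 * (-(1 / ((k.1 : ℂ) ^ 2 + (k.2 : ℂ) ^ 2)) *
        coef F k)) = (-(Complex.I ^ 2)) * ((k.1 : ℂ) ^ 2 + (k.2 : ℂ) ^ 2) /
        ((k.1 : ℂ) ^ 2 + (k.2 : ℂ) ^ 2) * coef F k := by ring
    rw [h2, Complex.I_sq, neg_neg, one_mul, div_self h1]
    ring

theorem coef_of_dX {b : CP} (hb : dX b = 0) (k : ℤ × ℤ) (hk : k.1 ≠ 0) : coef b k = 0 := by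
  have h1 := coef_dX b k
  rw [hb, coef_zero] at h1
  have h2 : (k.1 : ℂ) ≠ 0 := by exact_mod_cast hk
  rcases mul_eq_zero.1 h1.symm with h3 | h3
  · rcases mul_eq_zero.1 h3 with h4 | h4
    · exact absurd h4 Complex.I_ne_zero
    · exact absurd h4 h2
  · exact h3

theorem coef_of_dY {b : CP} (hb : dY b = 0) (k : ℤ × ℤ) (hk : k.2 ≠ 0) : coef b k = 0 := by
  have h1 := coef_dY b k
  rw [hb, coef_zero] at h1
  have h2 : (k.2 : ℂ) ≠ 0 := by exact_mod_cast hk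
  rcases mul_eq_zero.1 h1.symm with h3 | h3
  · rcases mul_eq_zero.1 h3 with h4 | h4
    · exact absurd h4 Complex.I_ne_zero
    · exact absurd h4 h2
  · exact h3

theorem mX_mul {b : CP} (hb : dX b = 0) (F : CP) : O.mX (b * F) = b * O.mX F := by
  apply coef_inj
  intro k
  rw [O.mX_coef, coef_mul, coef_mul, ← tsum_mul_left]
  refine tsum_congr fun l => ?_
  rw [O.mX_coef]
  by_cases hl : l.1 = 0
  · have : (k - l).1 = k.1 := by simp [hl]
    rw [this]; ring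
  · rw [coef_of_dX hb l hl]; ring

theorem mY_mul {b : CP} (hb : dY b = 0) (F : CP) : O.mY (b * F) = b * O.mY F := by
  apply coef_inj
  intro k
  rw [O.mY_coef, coef_mul, coef_mul, ← tsum_mul_left]
  refine tsum_congr fun l => ?_
  rw [O.mY_coef]
  by_cases hl : l.2 = 0
  · have : (k - l).2 = k.2 := by simp [hl]
    rw [this]; ring
  · rw [coef_of_dY hb l hl]; ring

theorem mY_one {b : CP} (hb : dX b = 0) (h1 : coef b 0 = 1) : O.mY b = 1 := by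
  apply coef_inj
  intro k
  rw [O.mY_coef, coef_one]
  by_cases hk : k = 0
  · subst hk; simp [h1]
  · rw [if_neg hk]
    by_cases hk1 : k.1 = 0
    · have hk2 : k.2 ≠ 0 := fun h2 => hk (Prod.ext hk1 h2)
      rw [if_neg hk2, zero_mul]
    · rw [coef_of_dX hb k hk1, mul_zero]

theorem mX_one {b : CP} (hb : dY b = 0) (h1 : coef b 0 = 1) : O.mX b = 1 := by
  apply coef_inj
  intro k
  rw [O.mX_coef, coef_one]
  by_cases hk : k = 0
  · subst hk; simp [h1]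
  · rw [if_neg hk]
    by_cases hk1 : k.1 = 0
    · have hk2 : k.2 ≠ 0 := fun h2 => hk (Prod.ext hk1 h2)
      rw [coef_of_dY hb k hk2, mul_zero]
    · rw [if_neg hk1, zero_mul]

/-- reality -/
theorem real_mY (F : CP) (hF : IsRl F) : IsRl (O.mY F) :=
  op_real _ _ O.mY_coef (fun k => by simp) F hF

theorem real_mX (F : CP) (hF : IsRl F) : IsRl (O.mX F) :=
  op_real _ _ O.mX_coef (fun k => by simp) F hF

theorem real_iY (F : CP) (hF : IsRl F) : IsRl (O.iY F) :=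
  op_real _ _ O.iY_coef (fun k => by
    by_cases h : k.2 = 0
    · simp [h]
    · simp [h]) F hF

theorem real_iX (F : CP) (hF : IsRl F) : IsRl (O.iX F) :=
  op_real _ _ O.iX_coef (fun k => by
    by_cases h : k.1 = 0
    · simp [h]
    · simp [h]) F hF

theorem real_Lv (F : CP) (hF : IsRl F) : IsRl (O.Lv F) :=
  op_real _ _ O.Lv_coef (fun k => by simp) F hF

theorem real_L0 (F : CP) (hF : IsRl F) : IsRl (O.L0 F) :=
  op_real _ _ O.L0_coef (fun k => by simp) F hF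

/-- bounds -/
theorem ub_mY (j : ℕ) : UB j j (fun _ => O.mY) :=
  UB_op _ (fun _ k => if k.2 = 0 then 1 else 0) (fun _ _ => O.mY_coef) j j 1 fun n _ k => by
    have h1 := ind_le (k.2 = 0)
    have h2 : 0 ≤ (1 + sz k) ^ j := pow_nonneg (by linarith [sz_nonneg k]) j
    nlinarith

theorem ub_mX (j : ℕ) : UB j j (fun _ => O.mX) :=
  UB_op _ (fun _ k => if k.1 = 0 then 1 else 0) (fun _ _ => O.mX_coef) j j 1 fun n _ k => by
    have h1 := ind_le (k.1 = 0)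
    have h2 : 0 ≤ (1 + sz k) ^ j := pow_nonneg (by linarith [sz_nonneg k]) j
    nlinarith

theorem ub_iY (j : ℕ) : UB j j (fun _ => O.iY) :=
  UB_op _ (fun _ k => if k.2 = 0 then 0 else 1 / (Complex.I * k.2)) (fun _ _ => O.iY_coef)
    j j 1 fun n _ k => by
    have h1 := int_inv_le k.2
    have h2 : 0 ≤ (1 + sz k) ^ j := pow_nonneg (by linarith [sz_nonneg k]) j
    nlinarith

theorem ub_iX (j : ℕ) : UB j j (fun _ => O.iX) :=
  UB_op _ (fun _ k => if k.1 = 0 then 0 else 1 / (Complex.I * k.1)) (fun _ _ => O.iX_coef)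
    j j 1 fun n _ k => by
    have h1 := int_inv_le k.1
    have h2 : 0 ≤ (1 + sz k) ^ j := pow_nonneg (by linarith [sz_nonneg k]) j
    nlinarith

theorem ub_L0 (j : ℕ) : UB j (j + 1) (fun _ => O.L0) :=
  UB_op _ (fun _ k => if k = 0 then 1 else 0) (fun _ _ => O.L0_coef) j (j + 1) 1 fun n _ k => by
    by_cases hk : k = 0
    · subst hk
      simp [sz]
    · simp only [if_neg hk, norm_zero, mul_zero, one_mul]
      exact pow_nonneg (by linarith [sz_nonneg k]) j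

theorem grad_le (k : ℤ × ℤ) (a : ℤ) (ha : |(a : ℝ)| ≤ sz k) :
    (1 + sz k) * ‖Complex.I * a * (-(1 / ((k.1 : ℂ) ^ 2 + (k.2 : ℂ) ^ 2)))‖ ≤ 4 := by
  rw [norm_mul, norm_mul, Complex.norm_I, one_mul, Complex.norm_intCast, norm_neg, norm_div,
    norm_one, norm_sq_eq]
  by_cases hk : k = 0
  · subst hk
    simp
  · have h1 := one_le_sz k hk
    have h2 := sz_sq k
    have h3 : 1 ≤ sz k ^ 2 := one_le_pow₀ h1
    have h4 : 0 < (k.1 : ℝ) ^ 2 + (k.2 : ℝ) ^ 2 := by linarith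
    have h5 : (1 + sz k) * (|(a : ℝ)| * (1 / ((k.1 : ℝ) ^ 2 + (k.2 : ℝ) ^ 2))) =
      (1 + sz k) * |(a : ℝ)| / ((k.1 : ℝ) ^ 2 + (k.2 : ℝ) ^ 2) := by ring
    rw [h5, div_le_iff₀ h4]
    have h6 : (1 + sz k) * |(a : ℝ)| ≤ (2 * sz k) * sz k :=
      mul_le_mul (by linarith) ha (abs_nonneg _) (by linarith)
    nlinarith

theorem ub_dYLv (j : ℕ) : UB j (j + 1) (fun _ => dY ∘ₗ O.Lv) :=
  UB_op _ (fun _ k => Complex.I * k.2 * (-(1 / ((k.1 : ℂ) ^ 2 + (k.2 : ℂ) ^ 2))))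
    (fun _ _ F k => by rw [LinearMap.comp_apply, coef_dY, O.Lv_coef]; ring) j (j + 1) 4
    fun n _ k => by
    have h1 := grad_le k k.2 (by unfold sz; linarith [abs_nonneg (k.1 : ℝ)])
    have h2 : 0 ≤ (1 + sz k) ^ j := pow_nonneg (by linarith [sz_nonneg k]) j
    rw [pow_succ, mul_assoc, mul_comm 4]
    exact mul_le_mul_of_nonneg_left h1 h2

theorem ub_dXLv (j : ℕ) : UB j (j + 1) (fun _ => dX ∘ₗ O.Lv) :=
  UB_op _ (fun _ k => Complex.I * k.1 * (-(1 / ((k.1 : ℂ) ^ 2 + (k.2 : ℂ) ^ 2))))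
    (fun _ _ F k => by rw [LinearMap.comp_apply, coef_dX, O.Lv_coef]; ring) j (j + 1) 4
    fun n _ k => by
    have h1 := grad_le k k.1 (by unfold sz; linarith [abs_nonneg (k.2 : ℝ)])
    have h2 : 0 ≤ (1 + sz k) ^ j := pow_nonneg (by linarith [sz_nonneg k]) j
    rw [pow_succ, mul_assoc, mul_comm 4]
    exact mul_le_mul_of_nonneg_left h1 h2

end TO

open TO in
theorem exists_T (lE lG : CP) (hE : IsRl lE) (hG : IsRl lG)
    (hκ : dX (dY (lE - lG)) ≠ 0) : ∃ T1 T2 : CP →ₗ[ℂ] CP,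
    (∀ H, ee lE * dY (T1 H) + ee lG * dX (T2 H) = H) ∧
    (∀ H, IsRl H → IsRl (T1 H) ∧ IsRl (T2 H)) ∧
    UB 0 0 (fun _ => T1) ∧ UB 0 0 (fun _ => T2) ∧
    UB 0 0 (fun _ => dX ∘ₗ T1) ∧ UB 0 0 (fun _ => dY ∘ₗ T2) := by
  obtain ⟨O⟩ := exists_ops
  obtain ⟨b1, b, θ, rb1, rb, rθ, hb1, hb, cb1, cb, hθ⟩ :=
    exists_bump (dX (dY (lE - lG))) hκ (((hE.sub hG).dY).dX)
  obtain ⟨E, hEd⟩ : ∃ E, E = ee lE := ⟨_, rfl⟩
  obtain ⟨E', hE'd⟩ : ∃ E', E' = ee (-lE) := ⟨_, rfl⟩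
  obtain ⟨G, hGd⟩ : ∃ G, G = ee lG := ⟨_, rfl⟩
  obtain ⟨G', hG'd⟩ : ∃ G', G' = ee (-lG) := ⟨_, rfl⟩
  have hEE : E * E' = 1 := by rw [hEd, hE'd]; exact ee_mul_neg lE
  have hGG : G * G' = 1 := by rw [hGd, hG'd]; exact ee_mul_neg lG
  have dE' : dY E' = -dY lE * E' := by rw [hE'd, dY_ee, map_neg]
  have dG' : dX G' = -dX lG * G' := by rw [hG'd, dX_ee, map_neg]
  have rE : IsRl E := by rw [hEd]; exact hE.ee
  have rE' : IsRl E' := by rw [hE'd]; exact hE.neg.ee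
  have rG : IsRl G := by rw [hGd]; exact hG.ee
  have rG' : IsRl G' := by rw [hG'd]; exact hG.neg.ee
  -- the first parametrix
  let S1 : CP →ₗ[ℂ] CP := LinearMap.mulLeft ℂ E' ∘ₗ (dY ∘ₗ O.Lv)
  let S2 : CP →ₗ[ℂ] CP := LinearMap.mulLeft ℂ G' ∘ₗ (dX ∘ₗ O.Lv)
  let K : CP →ₗ[ℂ] CP := O.L0 + (LinearMap.mulLeft ℂ (dY lE) ∘ₗ (dY ∘ₗ O.Lv) +
    LinearMap.mulLeft ℂ (dX lG) ∘ₗ (dX ∘ₗ O.Lv))
  have hS1 : ∀ H, S1 H = E' * dY (O.Lv H) := fun H => rfl
  have hS2 : ∀ H, S2 H = G' * dX (O.Lv H) := fun H => rfl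
  have hK : ∀ H, K H = O.L0 H + (dY lE * dY (O.Lv H) + dX lG * dX (O.Lv H)) := fun H => rfl
  have hS : ∀ H, E * dY (S1 H) + G * dX (S2 H) = H - K H := by
    intro H
    have h1 := lap_Lv O H
    rw [hS1, hS2, hK, dY_mul, dX_mul, dE', dG']
    have h2 : E * (-dY lE * E' * dY (O.Lv H) + E' * dY (dY (O.Lv H))) +
      G * (-dX lG * G' * dX (O.Lv H) + G' * dX (dX (O.Lv H))) =
      (E * E') * (dY (dY (O.Lv H)) - dY lE * dY (O.Lv H)) +
      (G * G') * (dX (dX (O.Lv H)) - dX lG * dX (O.Lv H)) := by ring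
    rw [h2, hEE, hGG]
    have h3 : dY (dY (O.Lv H)) = H - O.L0 H - dX (dX (O.Lv H)) := by rw [← h1]; ring
    rw [h3]
    ring
  -- the right inverse with loss
  let cc : CP →ₗ[ℂ] CP := O.mY ∘ₗ LinearMap.mulLeft ℂ E'
  let ρ : CP →ₗ[ℂ] CP := O.mX ∘ₗ (LinearMap.mulLeft ℂ (G' * E) ∘ₗ cc)
  let u : CP →ₗ[ℂ] CP := LinearMap.mulLeft ℂ (θ * G) ∘ₗ ρ
  let M1 : CP →ₗ[ℂ] CP := O.iY ∘ₗ (LinearMap.mulLeft ℂ E' - LinearMap.mulLeft ℂ b ∘ₗ cc) +
    LinearMap.mulLeft ℂ E' ∘ₗ (dX ∘ₗ u - LinearMap.mulLeft ℂ (dX lG) ∘ₗ u)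
  let M2 : CP →ₗ[ℂ] CP := O.iX ∘ₗ (LinearMap.mulLeft ℂ (G' * E * b) ∘ₗ cc -
    LinearMap.mulLeft ℂ (b1 * b) ∘ₗ ρ) +
    LinearMap.mulLeft ℂ G' ∘ₗ (LinearMap.mulLeft ℂ (dY lE) ∘ₗ u - dY ∘ₗ u)
  have hcc : ∀ H, cc H = O.mY (E' * H) := fun H => rfl
  have hρ : ∀ H, ρ H = O.mX (G' * E * cc H) := fun H => rfl
  have hu : ∀ H, u H = θ * G * ρ H := fun H => rfl
  have hM1 : ∀ H, M1 H = O.iY (E' * H - b * cc H) + E' * (dX (u H) - dX lG * u H) :=
    fun H => rfl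
  have hM2 : ∀ H, M2 H = O.iX (G' * E * b * cc H - b1 * b * ρ H) +
    G' * (dY lE * u H - dY (u H)) := fun H => rfl
  have hdc : ∀ H, dY (cc H) = 0 := fun H => by rw [hcc]; exact dY_mY O _
  have hdρ : ∀ H, dX (ρ H) = 0 := fun H => by rw [hρ]; exact dX_mX O _
  have hm1 : ∀ H, O.mY (E' * H - b * cc H) = 0 := fun H => by
    rw [map_sub, mul_comm b (cc H), mY_mul O (hdc H), mY_one O hb cb, mul_one, hcc, sub_self]
  have hm2 : ∀ H, O.mX (G' * E * b * cc H - b1 * b * ρ H) = 0 := fun H => by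
    have h1 : G' * E * b * cc H = b * (G' * E * cc H) := by ring
    have h2 : b1 * b * ρ H = b * (ρ H * b1) := by ring
    rw [map_sub, h1, h2, mX_mul O hb, mX_mul O hb, mX_mul O (hdρ H), mX_one O hb1 cb1, mul_one,
      ← hρ, sub_self]
  have hM : ∀ H, E * dY (M1 H) + G * dX (M2 H) = H := by
    intro H
    rw [hM1, hM2, map_add, map_add, dY_iY, dX_iX, hm1, hm2, sub_zero, sub_zero, dY_mul, dX_mul,
      dE', dG', map_sub, map_sub, dY_mul, dX_mul]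
    have h1 : dX (dY (lE - lG)) * u H = b1 * b * (G * ρ H) := by
      rw [hu, ← hθ]; ring
    rw [map_sub, map_sub] at h1
    have h2 : dY (dX lG) = dX (dY lG) := (dX_dY lG).symm
    have h3 : dY (dX (u H)) = dX (dY (u H)) := (dX_dY (u H)).symm
    rw [h2, h3]
    have h4 : E * (E' * H - b * cc H + (-dY lE * E' * (dX (u H) - dX lG * u H) +
      E' * (dX (dY (u H)) - (dX (dY lG) * u H + dX lG * dY (u H))))) +
      G * (G' * E * b * cc H - b1 * b * ρ H + (-dX lG * G' * (dY lE * u H - dY (u H)) +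
      G' * (dX (dY lE) * u H + dY lE * dX (u H) - dX (dY (u H))))) =
      (E * E') * (H - dY lE * (dX (u H) - dX lG * u H) +
        (dX (dY (u H)) - (dX (dY lG) * u H + dX lG * dY (u H)))) - E * b * cc H +
      (G * G') * (E * b * cc H - dX lG * (dY lE * u H - dY (u H)) +
        (dX (dY lE) * u H + dY lE * dX (u H) - dX (dY (u H)))) - b1 * b * (G * ρ H) := by ring
    rw [h4, hEE, hGG, ← h1]
    ring
  -- bounds
  have uS1 : ∀ j, UB j (j + 1) (fun _ => S1) := fun j => UB_comp (ub_dYLv O j) (UB_mul E' (j + 1))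
  have uS2 : ∀ j, UB j (j + 1) (fun _ => S2) := fun j => UB_comp (ub_dXLv O j) (UB_mul G' (j + 1))
  have uK : ∀ j, UB j (j + 1) (fun _ => K) := fun j =>
    UB_add (ub_L0 O j) (UB_add (UB_comp (ub_dYLv O j) (UB_mul _ (j + 1)))
      (UB_comp (ub_dXLv O j) (UB_mul _ (j + 1))))
  have uc : ∀ j, UB j j (fun _ => cc) := fun j => UB_comp (UB_mul E' j) (ub_mY O j)
  have uρ : ∀ j, UB j j (fun _ => ρ) := fun j =>
    UB_comp (UB_comp (uc j) (UB_mul _ j)) (ub_mX O j)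
  have uu : ∀ j, UB j j (fun _ => u) := fun j => UB_comp (uρ j) (UB_mul _ j)
  have uM1 : ∀ j, UB (j + 1) j (fun _ => M1) := fun j =>
    UB_add (UB_comp (UB_sub (UB_mul _ (j + 1)) (UB_comp (uc (j + 1)) (UB_mul _ (j + 1))))
      (UB_le (ub_iY O (j + 1)) le_rfl (Nat.le_succ j)))
      (UB_comp (UB_sub (UB_comp (uu (j + 1)) (UB_dX j))
        (UB_le (UB_comp (uu (j + 1)) (UB_mul _ (j + 1))) le_rfl (Nat.le_succ j))) (UB_mul _ j))
  have uM2 : ∀ j, UB (j + 1) j (fun _ => M2) := fun j =>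
    UB_add (UB_comp (UB_sub (UB_comp (uc (j + 1)) (UB_mul _ (j + 1)))
      (UB_comp (uρ (j + 1)) (UB_mul _ (j + 1))))
      (UB_le (ub_iX O (j + 1)) le_rfl (Nat.le_succ j)))
      (UB_comp (UB_sub (UB_le (UB_comp (uu (j + 1)) (UB_mul _ (j + 1))) le_rfl (Nat.le_succ j))
        (UB_comp (uu (j + 1)) (UB_dY j))) (UB_mul _ j))
  -- the operator
  let T1 : CP →ₗ[ℂ] CP := S1 ∘ₗ (LinearMap.id + K) + M1 ∘ₗ (K ∘ₗ K)
  let T2 : CP →ₗ[ℂ] CP := S2 ∘ₗ (LinearMap.id + K) + M2 ∘ₗ (K ∘ₗ K)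
  have hT1 : ∀ H, T1 H = S1 (H + K H) + M1 (K (K H)) := fun H => rfl
  have hT2 : ∀ H, T2 H = S2 (H + K H) + M2 (K (K H)) := fun H => rfl
  have uT1 : UB 0 1 (fun _ => T1) :=
    UB_add (UB_comp (UB_add (UB_id 0) (UB_le (uK 0) le_rfl (Nat.le_succ 0))) (uS1 0))
      (UB_comp (UB_comp (uK 0) (uK 1)) (uM1 1))
  have uT2 : UB 0 1 (fun _ => T2) :=
    UB_add (UB_comp (UB_add (UB_id 0) (UB_le (uK 0) le_rfl (Nat.le_succ 0))) (uS2 0))
      (UB_comp (UB_comp (uK 0) (uK 1)) (uM2 1))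
  refine ⟨T1, T2, ?_, ?_, UB_le uT1 le_rfl (Nat.le_succ 0), UB_le uT2 le_rfl (Nat.le_succ 0),
    UB_comp uT1 (UB_dX 0), UB_comp uT2 (UB_dY 0)⟩
  · intro H
    rw [← hEd, ← hGd, hT1, hT2, map_add dY, map_add dX]
    have h1 := hS (H + K H)
    have h2 := hM (K (K H))
    have h3 : E * (dY (S1 (H + K H)) + dY (M1 (K (K H)))) +
      G * (dX (S2 (H + K H)) + dX (M2 (K (K H)))) =
      (E * dY (S1 (H + K H)) + G * dX (S2 (H + K H))) +
      (E * dY (M1 (K (K H))) + G * dX (M2 (K (K H)))) := by ring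
    rw [h3, h1, h2, map_add]
    ring
  · have rS1 : ∀ H, IsRl H → IsRl (S1 H) := fun H hH => by
      rw [hS1]; exact rE'.mul (real_Lv O H hH).dY
    have rS2 : ∀ H, IsRl H → IsRl (S2 H) := fun H hH => by
      rw [hS2]; exact rG'.mul (real_Lv O H hH).dX
    have rK : ∀ H, IsRl H → IsRl (K H) := fun H hH => by
      rw [hK]
      exact (real_L0 O H hH).add ((hE.dY.mul (real_Lv O H hH).dY).add
        (hG.dX.mul (real_Lv O H hH).dX))
    have rc : ∀ H, IsRl H → IsRl (cc H) := fun H hH => by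
      rw [hcc]; exact real_mY O _ (rE'.mul hH)
    have rρ : ∀ H, IsRl H → IsRl (ρ H) := fun H hH => by
      rw [hρ]; exact real_mX O _ ((rG'.mul rE).mul (rc H hH))
    have ru : ∀ H, IsRl H → IsRl (u H) := fun H hH => by
      rw [hu]; exact (rθ.mul rG).mul (rρ H hH)
    have rM1 : ∀ H, IsRl H → IsRl (M1 H) := fun H hH => by
      rw [hM1]
      exact (real_iY O _ ((rE'.mul hH).sub (rb.mul (rc H hH)))).add
        (rE'.mul ((ru H hH).dX.sub (hG.dX.mul (ru H hH))))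
    have rM2 : ∀ H, IsRl H → IsRl (M2 H) := fun H hH => by
      rw [hM2]
      exact (real_iX O _ ((((rG'.mul rE).mul rb).mul (rc H hH)).sub
        ((rb1.mul rb).mul (rρ H hH)))).add
        (rG'.mul ((hE.dY.mul (ru H hH)).sub (ru H hH).dY))
    intro H hH
    have h1 := hH.add (rK H hH)
    have h2 := rK _ (rK H hH)
    exact ⟨by rw [hT1]; exact (rS1 _ h1).add (rM1 _ h2), by rw [hT2]; exact (rS2 _ h1).add (rM2 _ h2)⟩

end Vale.Agent.P205
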