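import Vale.Agent.P205.Frame

open scoped ContDiff ComplexConjugate
open Real Filter

namespace Vale.Agent.P205

namespace E1

theorem wt_le (j n N s : ℕ) (k : ℤ × ℤ) :
    wt j n N s k ≤ (1 + sz k) ^ (j + 2) * (1 + sz k / N) ^ s := by
  have h := F1.sz_nonneg k
  have aux : 1 + sz k / n ≤ 1 + sz k := by
    have : sz k / n ≤ sz k := by
      rcases Nat.eq_zero_or_pos n with rfl | hc
      · simpa using h
      · exact div_le_self h (by exact_mod_cast hc)
    linarith
  have h1 : (1 + sz k / n) ^ 2 ≤ (1 + sz k) ^ 2 := pow_le_pow_left₀ (by positivity) aux 2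
  unfold wt
  rw [pow_add, ← mul_assoc]
  exact mul_le_mul_of_nonneg_right (mul_le_mul_of_nonneg_left h1 (by positivity)) (by positivity)

theorem wt_nonneg (j n N s : ℕ) (k : ℤ × ℤ) : 0 ≤ wt j n N s k := by
  have h := F1.sz_nonneg k
  unfold wt
  positivity

theorem wt_split (j n N s : ℕ) (k : ℤ × ℤ) :
    wt j n N s k = (1 + sz k) ^ j * wt 0 n N s k := by
  unfold wt; ring

theorem wt_mono {i j : ℕ} (h : i ≤ j) (n N s : ℕ) (k : ℤ × ℤ) :
    wt i n N s k ≤ wt j n N s k := by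
  rw [wt_split i, wt_split j]
  have h1 := F1.sz_nonneg k
  exact mul_le_mul_of_nonneg_right (pow_le_pow_right₀ (by linarith) h) (wt_nonneg 0 n N s k)

end E1

open E1

/-- the key eventual bound: the norm of a fixed function stays bounded, uniformly in n and s -/
theorem eventually_nw (a : CP) (j : ℕ) : ∃ C : ℝ, 0 ≤ C ∧ ∀ n : ℕ, 1 ≤ n → ∀ s : ℕ,
    ∀ᶠ N : ℕ in atTop, nw (wt j n N s) a ≤ C := by
  refine ⟨∑' k, (1 + sz k) ^ (j + 2) * ‖coef a k‖ + 1, ?_, fun n hn s => ?_⟩
  · have : 0 ≤ ∑' k, (1 + sz k) ^ (j + 2) * ‖coef a k‖ :=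
      tsum_nonneg fun k => by have := F1.sz_nonneg k; positivity
    linarith
  · have ht : Tendsto (fun N : ℕ => ∑' k, (1 + sz k) ^ (j + 2) * (1 + sz k / N) ^ s * ‖coef a k‖)
        atTop (nhds (∑' k, (1 + sz k) ^ (j + 2) * ‖coef a k‖)) := by
      refine tendsto_tsum_of_dominated_convergence
        (bound := fun k => (1 + sz k) ^ (j + 2 + s) * ‖coef a k‖) (coef_rapid a _) ?_ ?_
      · intro k
        have h1 : Tendsto (fun N : ℕ => (1 + sz k / N) ^ s) atTop (nhds ((1 + 0) ^ s)) := by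
          refine Tendsto.pow (Tendsto.add tendsto_const_nhds ?_) s
          exact tendsto_const_div_atTop_nhds_zero_nat (sz k)
        rw [add_zero, one_pow] at h1
        have h2 := (h1.const_mul ((1 + sz k) ^ (j + 2))).mul_const ‖coef a k‖
        rwa [mul_one] at h2
      · refine Eventually.of_forall fun N k => ?_
        have h := F1.sz_nonneg k
        have aux : 1 + sz k / N ≤ 1 + sz k := by
          have : sz k / N ≤ sz k := by
            rcases Nat.eq_zero_or_pos N with rfl | hc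
            · simpa using h
            · exact div_le_self h (by exact_mod_cast hc)
          linarith
        rw [Real.norm_of_nonneg (by positivity), pow_add _ (j + 2) s]
        refine mul_le_mul_of_nonneg_right (mul_le_mul_of_nonneg_left ?_ (by positivity))
          (norm_nonneg _)
        exact pow_le_pow_left₀ (by positivity) aux s
    have he := ht.eventually_lt_const (lt_add_one _)
    filter_upwards [he] with N hN
    refine le_trans ?_ hN.le
    unfold nw
    have hs : Summable fun k => (1 + sz k) ^ (j + 2) * (1 + sz k / N) ^ s * ‖coef a k‖ := by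
      refine Summable.of_nonneg_of_le (fun k => by have := F1.sz_nonneg k; positivity)
        (fun k => ?_) (coef_rapid a (j + 2 + s))
      have h := F1.sz_nonneg k
      have aux : 1 + sz k / N ≤ 1 + sz k := by
        have : sz k / N ≤ sz k := by
          rcases Nat.eq_zero_or_pos N with rfl | hc
          · simpa using h
          · exact div_le_self h (by exact_mod_cast hc)
        linarith
      rw [pow_add _ (j + 2) s]
      refine mul_le_mul_of_nonneg_right (mul_le_mul_of_nonneg_left ?_ (by positivity))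
        (norm_nonneg _)
      exact pow_le_pow_left₀ (by positivity) aux s
    refine (nw_summable (wt_isWt j n N s) a).tsum_le_tsum (fun k => ?_) hs
    exact mul_le_mul_of_nonneg_right (wt_le j n N s k) (norm_nonneg _)

theorem UB_op (L : ℕ → CP →ₗ[ℂ] CP) (M : ℕ → ℤ × ℤ → ℂ)
    (hL : ∀ n, 1 ≤ n → ∀ F k, coef (L n F) k = M n k * coef F k) (i j : ℕ) (C : ℝ)
    (hM : ∀ n, 1 ≤ n → ∀ k, (1 + sz k) ^ j * ‖M n k‖ ≤ C * (1 + sz k) ^ i) : UB i j L := by
  have hC : 0 ≤ C := by
    have h := hM 1 le_rfl 0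
    have h0 : sz 0 = 0 := by unfold sz; simp
    rw [h0] at h
    simp only [add_zero, one_pow, one_mul, mul_one] at h
    exact (norm_nonneg _).trans h
  refine ⟨C, hC, fun n hn s => Eventually.of_forall fun N H => ?_⟩
  refine nw_mono (wt_isWt j n N s) (wt_isWt i n N s) _ _ C fun k => ?_
  rw [hL n hn, norm_mul, wt_split j, wt_split i]
  have h1 := hM n hn k
  have h2 := wt_nonneg 0 n N s k
  calc (1 + sz k) ^ j * wt 0 n N s k * (‖M n k‖ * ‖coef H k‖)
      = ((1 + sz k) ^ j * ‖M n k‖) * (wt 0 n N s k * ‖coef H k‖) := by ring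
    _ ≤ (C * (1 + sz k) ^ i) * (wt 0 n N s k * ‖coef H k‖) :=
        mul_le_mul_of_nonneg_right h1 (by positivity)
    _ = _ := by ring

theorem UB_comp {i j l : ℕ} {L L' : ℕ → CP →ₗ[ℂ] CP} (h : UB i j L) (h' : UB j l L') :
    UB i l (fun n => L' n ∘ₗ L n) := by
  obtain ⟨C, hC, h⟩ := h
  obtain ⟨C', hC', h'⟩ := h'
  refine ⟨C' * C, by positivity, fun n hn s => ?_⟩
  filter_upwards [h n hn s, h' n hn s] with N h1 h2 H
  rw [LinearMap.comp_apply]
  calc nw (wt l n N s) (L' n (L n H)) ≤ C' * nw (wt j n N s) (L n H) := h2 _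
    _ ≤ C' * (C * nw (wt i n N s) H) := mul_le_mul_of_nonneg_left (h1 H) hC'
    _ = _ := by ring

theorem UB_add {i j : ℕ} {L L' : ℕ → CP →ₗ[ℂ] CP} (h : UB i j L) (h' : UB i j L') :
    UB i j (fun n => L n + L' n) := by
  obtain ⟨C, hC, h⟩ := h
  obtain ⟨C', hC', h'⟩ := h'
  refine ⟨C + C', by positivity, fun n hn s => ?_⟩
  filter_upwards [h n hn s, h' n hn s] with N h1 h2 H
  rw [LinearMap.add_apply, add_mul]
  exact (nw_add_le (wt_isWt j n N s) _ _).trans (add_le_add (h1 H) (h2 H))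

theorem UB_sub {i j : ℕ} {L L' : ℕ → CP →ₗ[ℂ] CP} (h : UB i j L) (h' : UB i j L') :
    UB i j (fun n => L n - L' n) := by
  obtain ⟨C, hC, h⟩ := h
  obtain ⟨C', hC', h'⟩ := h'
  refine ⟨C + C', by positivity, fun n hn s => ?_⟩
  filter_upwards [h n hn s, h' n hn s] with N h1 h2 H
  rw [LinearMap.sub_apply, add_mul]
  exact (nw_sub_le (wt_isWt j n N s) _ _).trans (add_le_add (h1 H) (h2 H))

theorem UB_id (j : ℕ) : UB j j (fun _ => LinearMap.id) := by
  refine ⟨1, zero_le_one, fun n _ s => Eventually.of_forall fun N H => ?_⟩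
  rw [one_mul, LinearMap.id_apply]

theorem UB_le {i j i' j' : ℕ} {L : ℕ → CP →ₗ[ℂ] CP} (h : UB i j L) (hi : i ≤ i') (hj : j' ≤ j) :
    UB i' j' L := by
  obtain ⟨C, hC, h⟩ := h
  refine ⟨C, hC, fun n hn s => ?_⟩
  filter_upwards [h n hn s] with N h1 H
  have a1 : nw (wt j' n N s) (L n H) ≤ 1 * nw (wt j n N s) (L n H) := by
    refine nw_mono (wt_isWt _ _ _ _) (wt_isWt _ _ _ _) _ _ 1 fun k => ?_
    rw [one_mul]
    exact mul_le_mul_of_nonneg_right (wt_mono hj n N s k) (norm_nonneg _)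
  have a2 : nw (wt i n N s) H ≤ 1 * nw (wt i' n N s) H := by
    refine nw_mono (wt_isWt _ _ _ _) (wt_isWt _ _ _ _) _ _ 1 fun k => ?_
    rw [one_mul]
    exact mul_le_mul_of_nonneg_right (wt_mono hi n N s k) (norm_nonneg _)
  rw [one_mul] at a1 a2
  exact (a1.trans (h1 H)).trans (mul_le_mul_of_nonneg_left a2 hC)

theorem UB_mul (a : CP) (j : ℕ) : UB j j (fun _ => LinearMap.mulLeft ℂ a) := by
  obtain ⟨C, hC, h⟩ := eventually_nw a j
  refine ⟨C, hC, fun n hn s => ?_⟩
  filter_upwards [h n hn s] with N h1 H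
  rw [LinearMap.mulLeft_apply]
  have hw := wt_isWt j n N s
  exact (nw_mul_le hw a H).trans (mul_le_mul_of_nonneg_right h1 (nw_nonneg hw H))

theorem UB_dX (j : ℕ) : UB (j + 1) j (fun _ => dX) := by
  refine UB_op _ (fun _ k => Complex.I * k.1) (fun _ _ F k => coef_dX F k) (j + 1) j 1
    fun n hn k => ?_
  rw [norm_mul, Complex.norm_I, one_mul, one_mul, pow_succ, Complex.norm_intCast]
  have h := F1.sz_nonneg k
  refine mul_le_mul_of_nonneg_left ?_ (by positivity)
  unfold sz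
  have : 0 ≤ |(k.2 : ℝ)| := abs_nonneg _
  linarith

theorem UB_dY (j : ℕ) : UB (j + 1) j (fun _ => dY) := by
  refine UB_op _ (fun _ k => Complex.I * k.2) (fun _ _ F k => coef_dY F k) (j + 1) j 1
    fun n hn k => ?_
  rw [norm_mul, Complex.norm_I, one_mul, one_mul, pow_succ, Complex.norm_intCast]
  have h := F1.sz_nonneg k
  refine mul_le_mul_of_nonneg_left ?_ (by positivity)
  unfold sz
  have : 0 ≤ |(k.1 : ℝ)| := abs_nonneg _
  linarith

theorem Bdd_const (a : CP) : Bdd (fun _ => a) := eventually_nw a 0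

theorem Bdd_add {a b : ℕ → CP} (ha : Bdd a) (hb : Bdd b) : Bdd (fun n => a n + b n) := by
  obtain ⟨C, hC, h⟩ := ha
  obtain ⟨C', hC', h'⟩ := hb
  refine ⟨C + C', by positivity, fun n hn s => ?_⟩
  filter_upwards [h n hn s, h' n hn s] with N h1 h2
  exact (nw_add_le (wt_isWt 0 n N s) _ _).trans (add_le_add h1 h2)

theorem Bdd_sub {a b : ℕ → CP} (ha : Bdd a) (hb : Bdd b) : Bdd (fun n => a n - b n) := by
  obtain ⟨C, hC, h⟩ := ha
  obtain ⟨C', hC', h'⟩ := hb
  refine ⟨C + C', by positivity, fun n hn s => ?_⟩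
  filter_upwards [h n hn s, h' n hn s] with N h1 h2
  exact (nw_sub_le (wt_isWt 0 n N s) _ _).trans (add_le_add h1 h2)

theorem Bdd_mul {a b : ℕ → CP} (ha : Bdd a) (hb : Bdd b) : Bdd (fun n => a n * b n) := by
  obtain ⟨C, hC, h⟩ := ha
  obtain ⟨C', hC', h'⟩ := hb
  refine ⟨C * C', by positivity, fun n hn s => ?_⟩
  filter_upwards [h n hn s, h' n hn s] with N h1 h2
  have hw := wt_isWt 0 n N s
  exact (nw_mul_le hw _ _).trans (mul_le_mul h1 h2 (nw_nonneg hw _) hC)

theorem Bdd_smul {a : ℕ → CP} (ha : Bdd a) (c : ℕ → ℂ) (hc : ∀ n, 1 ≤ n → ‖c n‖ ≤ 1) :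
    Bdd (fun n => c n • a n) := by
  obtain ⟨C, hC, h⟩ := ha
  refine ⟨C, hC, fun n hn s => ?_⟩
  filter_upwards [h n hn s] with N h1
  have hw := wt_isWt 0 n N s
  rw [nw_smul]
  have h2 := hc n hn
  have h3 := nw_nonneg hw (a n)
  have h4 := norm_nonneg (c n)
  nlinarith

theorem Bdd_ex (m : ℕ → ℤ × ℤ) (hm : ∀ n, 1 ≤ n → sz (m n) ≤ n) : Bdd (fun n => ex (m n)) := by
  refine ⟨8, by norm_num, fun n hn s => ?_⟩
  filter_upwards [K1.ev n hn s (m n) (hm n hn)] with N h1
  rw [K1.nw_ex]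
  exact h1

end Vale.Agent.P205
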