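import Vale.Agent.P205.Fix
import Vale.Agent.P205.TOp
import Vale.Agent.P205.Gunther
import Vale.Agent.P205.Frame
import Vale.Agent.P205.Approx
import Vale.Agent.P205.UBs

open scoped ContDiff ComplexConjugate
open Real Filter

namespace Vale.Agent.P205

namespace ContrAux

theorem good_sum (a : Fin 4 → ℕ → CP) (ha : ∀ c, Bdd (a c)) :
    Good (fun n U => (1 / (n : ℂ)) • ∑ c, a c n * U c) := by
  have h : Good (fun (n : ℕ) (U : Fin 4 → CP) => (1 / (n : ℂ)) • (a 0 n * U 0) + (1 / (n : ℂ)) • (a 1 n * U 1) +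
      (1 / (n : ℂ)) • (a 2 n * U 2) + (1 / (n : ℂ)) • (a 3 n * U 3)) :=
    Good_add (Good_add (Good_add (Good_lin (ha 0) 0) (Good_lin (ha 1) 1)) (Good_lin (ha 2) 2))
      (Good_lin (ha 3) 3)
  have e : (fun (n : ℕ) (U : Fin 4 → CP) => (1 / (n : ℂ)) • ∑ c, a c n * U c) =
      (fun (n : ℕ) (U : Fin 4 → CP) => (1 / (n : ℂ)) • (a 0 n * U 0) + (1 / (n : ℂ)) • (a 1 n * U 1) +
      (1 / (n : ℂ)) • (a 2 n * U 2) + (1 / (n : ℂ)) • (a 3 n * U 3)) := by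
    funext n U
    rw [Fin.sum_univ_four]
    simp only [smul_add]
  rw [e]; exact h

theorem inv_im (n : ℕ) : ((1 / (n : ℂ)) : ℂ).im = 0 := by
  have : (1 / (n : ℂ) : ℂ) = ((1 / (n : ℝ) : ℝ) : ℂ) := by push_cast; rfl
  rw [this, Complex.ofReal_im]

theorem inv_pow_im (n k : ℕ) : ((1 / (n : ℂ) ^ k) : ℂ).im = 0 := by
  have : (1 / (n : ℂ) ^ k : ℂ) = ((1 / (n : ℝ) ^ k : ℝ) : ℂ) := by push_cast; rfl
  rw [this, Complex.ofReal_im]

theorem inv_norm_le (n : ℕ) (hn : 1 ≤ n) : ‖(1 / (n : ℂ))‖ ≤ 1 := by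
  rw [norm_div, norm_one, Complex.norm_natCast]
  have : (1 : ℝ) ≤ n := by exact_mod_cast hn
  rw [div_le_one (by linarith)]
  exact this

theorem rl_sum (a : Fin 4 → ℕ → CP) (ha : ∀ c, RlFam (a c)) (n : ℕ) (U : Fin 4 → CP)
    (hU : ∀ c, IsRl (U c)) : IsRl ((1 / (n : ℂ)) • ∑ c, a c n * U c) :=
  (IsRl.sum _ _ fun c _ => (ha c n).mul (hU c)).smul _ (inv_im n)

/-- the data of the fixed point problem -/
structure Data where
  lE : CP
  lG : CP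
  r1i : CP
  r2i : CP
  T1 : CP →ₗ[ℂ] CP
  T2 : CP →ₗ[ℂ] CP
  P : Fin 2 → ℕ → (Fin 4 → CP) → CP
  Q : Fin 2 → Fin 2 → ℕ → (Fin 4 → CP) → CP
  h11 : ℕ → CP
  h12 : ℕ → CP
  h22 : ℕ → CP
  x : Fin 4 → ℕ → CP
  y : Fin 4 → ℕ → CP
  xx : Fin 4 → ℕ → CP
  xy : Fin 4 → ℕ → CP
  yy : Fin 4 → ℕ → CP

/-- small linear part -/
noncomputable def sm (a : Fin 4 → ℕ → CP) (n : ℕ) (U : Fin 4 → CP) : CP :=
  (1 / (n : ℂ)) • ∑ c, a c n * U c

variable (d : Data)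

/-- right-hand side of the mixed equation -/
noncomputable def HH (n : ℕ) (U : Fin 4 → CP) : CP :=
  (1 / (n : ℂ) ^ 4) • d.h12 n - d.Q 0 1 n (fr n U) + (2 : ℂ) • sm d.xy n U
    - dY d.lE * (sm d.x n U + d.P 0 n (fr n U)) - dX d.lG * (sm d.y n U + d.P 1 n (fr n U))

noncomputable def px (n : ℕ) (U : Fin 4 → CP) : CP := ee d.lE * d.T1 (HH d n U)

noncomputable def py (n : ℕ) (U : Fin 4 → CP) : CP := ee d.lG * d.T2 (HH d n U)

noncomputable def pxx (n : ℕ) (U : Fin 4 → CP) : CP :=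
  dX (ee d.lE) * d.T1 (HH d n U) + ee d.lE * dX (d.T1 (HH d n U))

noncomputable def pyy (n : ℕ) (U : Fin 4 → CP) : CP :=
  dY (ee d.lG) * d.T2 (HH d n U) + ee d.lG * dY (d.T2 (HH d n U))

noncomputable def F0 (n : ℕ) (U : Fin 4 → CP) : CP :=
  d.r1i * (sm d.xx n U - (1 / (n : ℂ)) • pxx d n U
    + (1 / (n : ℂ)) • ((1 / 2 : ℂ) • ((1 / (n : ℂ) ^ 4) • d.h11 n - d.Q 0 0 n (fr n U))))

noncomputable def F1 (n : ℕ) (U : Fin 4 → CP) : CP :=
  d.r1i * (px d n U - d.P 0 n (fr n U) - sm d.x n U)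

noncomputable def F2 (n : ℕ) (U : Fin 4 → CP) : CP :=
  d.r2i * (sm d.yy n U - (1 / (n : ℂ)) • pyy d n U
    + (1 / (n : ℂ)) • ((1 / 2 : ℂ) • ((1 / (n : ℂ) ^ 4) • d.h22 n - d.Q 1 1 n (fr n U))))

noncomputable def F3 (n : ℕ) (U : Fin 4 → CP) : CP :=
  d.r2i * (py d n U - d.P 1 n (fr n U) - sm d.y n U)

noncomputable def Phi (n : ℕ) (U : Fin 4 → CP) : Fin 4 → CP :=
  ![F0 d n U, F1 d n U, F2 d n U, F3 d n U]

structure Ok : Prop where
  rlE : IsRl d.lE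
  rlG : IsRl d.lG
  rr1 : IsRl d.r1i
  rr2 : IsRl d.r2i
  T1r : ∀ H, IsRl H → IsRl (d.T1 H)
  T2r : ∀ H, IsRl H → IsRl (d.T2 H)
  u1 : UB 0 0 (fun _ => d.T1)
  u2 : UB 0 0 (fun _ => d.T2)
  u3 : UB 0 0 (fun _ => dX ∘ₗ d.T1)
  u4 : UB 0 0 (fun _ => dY ∘ₗ d.T2)
  qP : ∀ i, Quad (d.P i)
  qQ : ∀ i j, Quad (d.Q i j)
  rP : ∀ i, RlMap (d.P i)
  rQ : ∀ i j, RlMap (d.Q i j)
  b11 : Bdd d.h11
  b12 : Bdd d.h12
  b22 : Bdd d.h22
  rh11 : RlFam d.h11
  rh12 : RlFam d.h12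
  rh22 : RlFam d.h22
  bx : ∀ c, Bdd (d.x c)
  by' : ∀ c, Bdd (d.y c)
  bxx : ∀ c, Bdd (d.xx c)
  bxy : ∀ c, Bdd (d.xy c)
  byy : ∀ c, Bdd (d.yy c)
  rx : ∀ c, RlFam (d.x c)
  ry : ∀ c, RlFam (d.y c)
  rxx : ∀ c, RlFam (d.xx c)
  rxy : ∀ c, RlFam (d.xy c)
  ryy : ∀ c, RlFam (d.yy c)

variable {d}

theorem good_HH (o : Ok d) : Good (HH d) := by
  unfold HH
  refine Good_sub (Good_sub (Good_add (Good_sub (Good_const o.b12) ?_) ?_) ?_) ?_
  · exact Good_quad (Quad_fr (o.qQ 0 1))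
  · exact Good_smul (good_sum _ o.bxy) (fun _ => 2) 2 (by intro n _; simp)
  · refine Good_mul (Good_add (good_sum _ o.bx) (Good_quad (Quad_fr (o.qP 0))))
      (Bdd_const (dY d.lE))
  · refine Good_mul (Good_add (good_sum _ o.by') (Good_quad (Quad_fr (o.qP 1))))
      (Bdd_const (dX d.lG))

theorem good_px (o : Ok d) : Good (px d) :=
  Good_mul (Good_ub (good_HH o) o.u1) (Bdd_const (ee d.lE))

theorem good_py (o : Ok d) : Good (py d) :=
  Good_mul (Good_ub (good_HH o) o.u2) (Bdd_const (ee d.lG))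

theorem good_pxx (o : Ok d) : Good (pxx d) :=
  Good_add (Good_mul (Good_ub (good_HH o) o.u1) (Bdd_const (dX (ee d.lE))))
    (Good_mul (Good_ub (good_HH o) o.u3) (Bdd_const (ee d.lE)))

theorem good_pyy (o : Ok d) : Good (pyy d) :=
  Good_add (Good_mul (Good_ub (good_HH o) o.u2) (Bdd_const (dY (ee d.lG))))
    (Good_mul (Good_ub (good_HH o) o.u4) (Bdd_const (ee d.lG)))

theorem good_F1 (o : Ok d) : Good (F1 d) :=
  Good_mul (Good_sub (Good_sub (good_px o) (Good_quad (Quad_fr (o.qP 0)))) (good_sum _ o.bx))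
    (Bdd_const d.r1i)

theorem good_F3 (o : Ok d) : Good (F3 d) :=
  Good_mul (Good_sub (Good_sub (good_py o) (Good_quad (Quad_fr (o.qP 1)))) (good_sum _ o.by'))
    (Bdd_const d.r2i)

theorem good_F0 (o : Ok d) : Good (F0 d) := by
  refine Good_mul (Good_add (Good_sub (good_sum _ o.bxx) ?_) ?_) (Bdd_const d.r1i)
  · exact Good_smul (good_pxx o) (fun n => 1 / (n : ℂ)) 1 inv_norm_le
  · refine Good_smul (Φ := fun n U =>
      (1 / 2 : ℂ) • ((1 / (n : ℂ) ^ 4) • d.h11 n - d.Q 0 0 n (fr n U)))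
      ?_ (fun n => 1 / (n : ℂ)) 1 inv_norm_le
    refine Good_smul (Φ := fun n U => ((1 / (n : ℂ) ^ 4) • d.h11 n - d.Q 0 0 n (fr n U)))
      ?_ (fun _ => (1 / 2 : ℂ)) 1 (by intro n _; norm_num)
    exact Good_sub (Good_const o.b11) (Good_quad (Quad_fr (o.qQ 0 0)))

theorem good_F2 (o : Ok d) : Good (F2 d) := by
  refine Good_mul (Good_add (Good_sub (good_sum _ o.byy) ?_) ?_) (Bdd_const d.r2i)
  · exact Good_smul (good_pyy o) (fun n => 1 / (n : ℂ)) 1 inv_norm_le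
  · refine Good_smul (Φ := fun n U =>
      (1 / 2 : ℂ) • ((1 / (n : ℂ) ^ 4) • d.h22 n - d.Q 1 1 n (fr n U)))
      ?_ (fun n => 1 / (n : ℂ)) 1 inv_norm_le
    refine Good_smul (Φ := fun n U => ((1 / (n : ℂ) ^ 4) • d.h22 n - d.Q 1 1 n (fr n U)))
      ?_ (fun _ => (1 / 2 : ℂ)) 1 (by intro n _; norm_num)
    exact Good_sub (Good_const o.b22) (Good_quad (Quad_fr (o.qQ 1 1)))

theorem rl_HH (o : Ok d) : RlMap (HH d) := by
  intro n U hU
  have hu := rl_fr n U hU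
  refine ((((((o.rh12 n).smul _ (inv_pow_im n 4)).sub (o.rQ 0 1 n _ hu)).add
    ((rl_sum _ o.rxy n U hU).smul 2 (by simp))).sub ?_).sub ?_)
  · exact o.rlE.dY.mul ((rl_sum _ o.rx n U hU).add (o.rP 0 n _ hu))
  · exact o.rlG.dX.mul ((rl_sum _ o.ry n U hU).add (o.rP 1 n _ hu))

theorem rl_F0 (o : Ok d) : RlMap (F0 d) := by
  intro n U hU
  have hu := rl_fr n U hU
  have h1 := o.T1r _ (rl_HH o n U hU)
  refine o.rr1.mul (((rl_sum _ o.rxx n U hU).sub (IsRl.smul ?_ _ (inv_im n))).add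
    (IsRl.smul (IsRl.smul ?_ _ (by norm_num)) _ (inv_im n)))
  · exact (o.rlE.ee.dX.mul h1).add (o.rlE.ee.mul h1.dX)
  · exact ((o.rh11 n).smul _ (inv_pow_im n 4)).sub (o.rQ 0 0 n _ hu)

theorem rl_F2 (o : Ok d) : RlMap (F2 d) := by
  intro n U hU
  have hu := rl_fr n U hU
  have h1 := o.T2r _ (rl_HH o n U hU)
  refine o.rr2.mul (((rl_sum _ o.ryy n U hU).sub (IsRl.smul ?_ _ (inv_im n))).add
    (IsRl.smul (IsRl.smul ?_ _ (by norm_num)) _ (inv_im n)))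
  · exact (o.rlG.ee.dY.mul h1).add (o.rlG.ee.mul h1.dY)
  · exact ((o.rh22 n).smul _ (inv_pow_im n 4)).sub (o.rQ 1 1 n _ hu)

theorem rl_F1 (o : Ok d) : RlMap (F1 d) := by
  intro n U hU
  have hu := rl_fr n U hU
  exact o.rr1.mul (((o.rlE.ee.mul (o.T1r _ (rl_HH o n U hU))).sub (o.rP 0 n _ hu)).sub
    (rl_sum _ o.rx n U hU))

theorem rl_F3 (o : Ok d) : RlMap (F3 d) := by
  intro n U hU
  have hu := rl_fr n U hU
  exact o.rr2.mul (((o.rlG.ee.mul (o.T2r _ (rl_HH o n U hU))).sub (o.rP 1 n _ hu)).sub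
    (rl_sum _ o.ry n U hU))

theorem fix (o : Ok d) : ∃ n : ℕ, 1 ≤ n ∧ ∃ U : Fin 4 → CP, (∀ c, IsRl (U c)) ∧
    F0 d n U = U 0 ∧ F1 d n U = U 1 ∧ F2 d n U = U 2 ∧ F3 d n U = U 3 := by
  obtain ⟨n, hn, U, hU, hr⟩ := exists_fix (Phi d)
    (by
      intro c
      fin_cases c
      · exact good_F0 o
      · exact good_F1 o
      · exact good_F2 o
      · exact good_F3 o)
    (by
      intro c
      fin_cases c
      · exact rl_F0 o
      · exact rl_F1 o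
      · exact rl_F2 o
      · exact rl_F3 o)
  exact ⟨n, hn, U, hr, congrFun hU 0, congrFun hU 1, congrFun hU 2, congrFun hU 3⟩

/-- scalars act through the algebra map -/
theorem smul_eq_mul' (c : ℂ) (F : CP) : c • F = algebraMap ℂ CP c * F := Algebra.smul_def c F

theorem half_ee (l : CP) : ee ((1 / 2 : ℂ) • l) * ee ((1 / 2 : ℂ) • l) = ee l := by
  rw [← ee_add, ← add_smul]; norm_num

theorem DD0 : DD 0 = dX := rfl

theorem DD1 : DD 1 = dY := rfl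

theorem expand (D1 D2 : CP →ₗ[ℂ] CP) (f u : Fin 4 → CP) :
    ∑ c, D1 (f c + u c) * D2 (f c + u c) = ∑ c, D1 (f c) * D2 (f c) +
      (∑ c, D1 (f c) * D2 (u c) + ∑ c, D1 (u c) * D2 (f c)) + ∑ c, D1 (u c) * D2 (u c) := by
  simp only [map_add, Fin.sum_univ_four]
  ring

theorem parts (D1 D2 : CP →ₗ[ℂ] CP) (hD : ∀ F G, D2 (F * G) = D2 F * G + F * D2 G)
    (f u : Fin 4 → CP) : ∑ c, D1 (f c) * D2 (u c) =
      D2 (∑ c, D1 (f c) * u c) - ∑ c, D2 (D1 (f c)) * u c := by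
  rw [map_sum, ← Finset.sum_sub_distrib]
  refine Finset.sum_congr rfl fun c _ => ?_
  rw [hD]; ring

end ContrAux

open ContrAux in
theorem diag_immersion (lE lG : CP) (hE : IsRl lE) (hG : IsRl lG)
    (hκ : dX (dY (lE - lG)) ≠ 0) : ∃ f : Fin 4 → CP, (∀ c, IsRl (f c)) ∧
    ∑ c, dX (f c) * dX (f c) = ee lE ∧ ∑ c, dX (f c) * dY (f c) = 0 ∧
    ∑ c, dY (f c) * dY (f c) = ee lG := by
  obtain ⟨T1, T2, hT, hTr, u1, u2, u3, u4⟩ := exists_T lE lG hE hG hκ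
  obtain ⟨P, Q, hPQ, qP, qQ, rP, rQ⟩ := gunther
  set r1 : CP := ee ((1 / 2 : ℂ) • lE) with hr1
  set r2 : CP := ee ((1 / 2 : ℂ) • lG) with hr2
  set r1i : CP := ee (-((1 / 2 : ℂ) • lE)) with hr1i
  set r2i : CP := ee (-((1 / 2 : ℂ) • lG)) with hr2i
  have i1 : r1 * r1i = 1 := ee_mul_neg _
  have i2 : r2 * r2i = 1 := ee_mul_neg _
  have s1 : r1 * r1 = ee lE := half_ee lE
  have s2 : r2 * r2 = ee lG := half_ee lG
  have rr1 : IsRl r1 := (hE.smul _ (by norm_num)).ee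
  have rr2 : IsRl r2 := (hG.smul _ (by norm_num)).ee
  have rr1i : IsRl r1i := (hE.smul _ (by norm_num)).neg.ee
  have rr2i : IsRl r2i := (hG.smul _ (by norm_num)).neg.ee
  set H0 : CP := -(dX r1 * dY r1 + dX r2 * dY r2) with hH0
  have rH0 : IsRl H0 := ((rr1.dX.mul rr1.dY).add (rr2.dX.mul rr2.dY)).neg
  set b1 : CP := r1 * T1 H0 with hb1
  set b2 : CP := r2 * T2 H0 with hb2
  have rb1 : IsRl b1 := rr1.mul (hTr H0 rH0).1
  have rb2 : IsRl b2 := rr2.mul (hTr H0 rH0).2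
  set a1 : CP := -((1 / 2 : ℂ) • (r1i * ((dX r1 - b1) * (dX r1 - b1) + dX r2 * dX r2))) - dX b1
    with ha1
  set a2 : CP := -((1 / 2 : ℂ) • (r2i * ((dY r2 - b2) * (dY r2 - b2) + dY r1 * dY r1))) - dY b2
    with ha2
  have ra1 : IsRl a1 := ((rr1i.mul (((rr1.dX.sub rb1).mul (rr1.dX.sub rb1)).add
    (rr2.dX.mul rr2.dX))).smul _ (by norm_num)).neg.sub rb1.dX
  have ra2 : IsRl a2 := ((rr2i.mul (((rr2.dY.sub rb2).mul (rr2.dY.sub rb2)).add
    (rr1.dY.mul rr1.dY))).smul _ (by norm_num)).neg.sub rb2.dY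
  have half2 : ∀ F : CP, (2 : CP) * ((1 / 2 : ℂ) • F) = F := by
    intro F
    have : (2 : CP) = algebraMap ℂ CP 2 := (map_ofNat (algebraMap ℂ CP) 2).symm
    rw [this, smul_eq_mul', ← mul_assoc, ← map_mul]; norm_num
  have e11 : (dX r1 - b1) * (dX r1 - b1) + 2 * r1 * (a1 + dX b1) + dX r2 * dX r2 = 0 := by
    have h := half2 (r1 * r1i * ((dX r1 - b1) * (dX r1 - b1) + dX r2 * dX r2))
    rw [i1, one_mul] at h
    have h2 : 2 * r1 * (a1 + dX b1) = -((2 : CP) * ((1 / 2 : ℂ) •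
        ((r1 * r1i) * ((dX r1 - b1) * (dX r1 - b1) + dX r2 * dX r2)))) := by
      rw [ha1, smul_eq_mul', smul_eq_mul']; ring
    rw [h2, i1, one_mul, h]; ring
  have e22 : (dY r2 - b2) * (dY r2 - b2) + 2 * r2 * (a2 + dY b2) + dY r1 * dY r1 = 0 := by
    have h := half2 (r2 * r2i * ((dY r2 - b2) * (dY r2 - b2) + dY r1 * dY r1))
    rw [i2, one_mul] at h
    have h2 : 2 * r2 * (a2 + dY b2) = -((2 : CP) * ((1 / 2 : ℂ) •
        ((r2 * r2i) * ((dY r2 - b2) * (dY r2 - b2) + dY r1 * dY r1)))) := by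
      rw [ha2, smul_eq_mul', smul_eq_mul']; ring
    rw [h2, i2, one_mul, h]; ring
  have e12 : (dX r1 - b1) * dY r1 + r1 * dY b1 + dX r2 * (dY r2 - b2) + r2 * dX b2 = 0 := by
    have h := hT H0
    rw [← s1, ← s2] at h
    rw [hb1, hb2, dY_mul, dX_mul]
    linear_combination h
  obtain ⟨f, h11, h12, h22, x, y, xx, xy, yy, fr', ⟨b11, b12, b22, rh11, rh12, rh22⟩, hb, hrl,
    hmet, hlin⟩ := exists_approx r1 r2 a1 a2 b1 b2 rr1 rr2 ra1 ra2 rb1 rb2 e11 e12 e22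
  let d : Data := ⟨lE, lG, r1i, r2i, T1, T2, P, Q, h11, h12, h22, x, y, xx, xy, yy⟩
  have o : Ok d := ⟨hE, hG, rr1i, rr2i, fun H hH => (hTr H hH).1, fun H hH => (hTr H hH).2,
    u1, u2, u3, u4, qP, qQ, rP, rQ, b11, b12, b22, rh11, rh12, rh22,
    fun c => (hb c).1, fun c => (hb c).2.1, fun c => (hb c).2.2.1, fun c => (hb c).2.2.2.1,
    fun c => (hb c).2.2.2.2,
    fun c => (hrl c).1, fun c => (hrl c).2.1, fun c => (hrl c).2.2.1, fun c => (hrl c).2.2.2.1,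
    fun c => (hrl c).2.2.2.2⟩
  obtain ⟨n, hn, U, rU, f0, f1, f2, f3⟩ := fix o
  have hn0 : (n : ℂ) ≠ 0 := by
    have : n ≠ 0 := by omega
    exact_mod_cast this
  set u : Fin 4 → CP := fr n U with hu
  have ru := rl_fr n U rU
  obtain ⟨lx, ly, lxx, lyy, lxy⟩ := hlin n hn U
  obtain ⟨m11, m12, m22⟩ := hmet n hn
  -- the two first-order quantities
  set H : CP := HH d n U with hH
  have hp1 : ee lE * T1 H = (∑ c, dX (f n c) * u c) + P 0 n u := by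
    have h : r1i * (ee lE * T1 H - P 0 n u - sm x n U) = U 1 := f1
    have h2 : r1 * U 1 = ee lE * T1 H - P 0 n u - sm x n U := by
      rw [← h, ← mul_assoc, i1, one_mul]
    rw [lx, h2]
    simp only [sm]
    ring
  have hp2 : ee lG * T2 H = (∑ c, dY (f n c) * u c) + P 1 n u := by
    have h : r2i * (ee lG * T2 H - P 1 n u - sm y n U) = U 3 := f3
    have h2 : r2 * U 3 = ee lG * T2 H - P 1 n u - sm y n U := by
      rw [← h, ← mul_assoc, i2, one_mul]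
    rw [ly, h2]
    simp only [sm]
    ring
  have dr1 : dY r1 = (1 / 2 : ℂ) • dY lE * r1 := by rw [hr1, dY_ee, map_smul]
  have dr2 : dX r2 = (1 / 2 : ℂ) • dX lG * r2 := by rw [hr2, dX_ee, map_smul]
  -- mixed equation
  have E12 : dY ((∑ c, dX (f n c) * u c) + P 0 n u) + dX ((∑ c, dY (f n c) * u c) + P 1 n u)
      - (2 : CP) * ∑ c, dX (dY (f n c)) * u c = (1 / (n : ℂ) ^ 4) • h12 n - Q 0 1 n u := by
    rw [← hp1, ← hp2, dY_mul, dX_mul, dY_ee, dX_ee, lxy]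
    have h1 := hT H
    have h2 : H = (1 / (n : ℂ) ^ 4) • h12 n - Q 0 1 n u + (2 : ℂ) • sm xy n U
      - dY lE * (sm x n U + P 0 n u) - dX lG * (sm y n U + P 1 n u) := rfl
    have h3 : (2 : ℂ) • sm xy n U = 2 * ((1 / (n : ℂ)) • ∑ c, xy c n * U c) := by
      rw [two_smul, two_mul]; rfl
    have h4 : dY r1 * 2 = dY lE * r1 := by
      rw [dr1]
      have := half2 (dY lE)
      linear_combination r1 * this
    have h5 : dX r2 * 2 = dX lG * r2 := by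
      rw [dr2]
      have := half2 (dX lG)
      linear_combination r2 * this
    rw [lx] at hp1
    rw [ly] at hp2
    simp only [sm] at h2 h3
    rw [h3] at h2
    linear_combination h1 + h2 + dY lE * hp1 + dX lG * hp2 - U 1 * h4 - U 3 * h5
  have E11 : (2 : CP) * dX ((∑ c, dX (f n c) * u c) + P 0 n u)
      - (2 : CP) * ∑ c, dX (dX (f n c)) * u c = (1 / (n : ℂ) ^ 4) • h11 n - Q 0 0 n u := by
    have h : r1i * (sm xx n U - (1 / (n : ℂ)) • (dX (ee lE) * T1 H + ee lE * dX (T1 H))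
      + (1 / (n : ℂ)) • ((1 / 2 : ℂ) • ((1 / (n : ℂ) ^ 4) • h11 n - Q 0 0 n u))) = U 0 := f0
    have h2 : r1 * U 0 = sm xx n U - (1 / (n : ℂ)) • (dX (ee lE) * T1 H + ee lE * dX (T1 H))
      + (1 / (n : ℂ)) • ((1 / 2 : ℂ) • ((1 / (n : ℂ) ^ 4) • h11 n - Q 0 0 n u)) := by
      rw [← h, ← mul_assoc, i1, one_mul]
    rw [← hp1, dX_mul]
    rw [h2] at lxx
    have h3 : (1 / (n : ℂ)) • ((∑ c, dX (dX (f n c)) * u c)
        - (dX (ee lE) * T1 H + ee lE * dX (T1 H))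
        + ((1 / 2 : ℂ) • ((1 / (n : ℂ) ^ 4) • h11 n - Q 0 0 n u))) = 0 := by
      rw [smul_add, smul_sub, lxx]
      simp only [sm]
      ring
    have h4 : (∑ c, dX (dX (f n c)) * u c)
        - (dX (ee lE) * T1 H + ee lE * dX (T1 H))
        + ((1 / 2 : ℂ) • ((1 / (n : ℂ) ^ 4) • h11 n - Q 0 0 n u)) = 0 := by
      rcases smul_eq_zero.mp h3 with h | h
      · exact absurd h (one_div_ne_zero hn0)
      · exact h
    have h5 := half2 ((1 / (n : ℂ) ^ 4) • h11 n - Q 0 0 n u)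
    linear_combination h5 - 2 * h4
  have E22 : (2 : CP) * dY ((∑ c, dY (f n c) * u c) + P 1 n u)
      - (2 : CP) * ∑ c, dY (dY (f n c)) * u c = (1 / (n : ℂ) ^ 4) • h22 n - Q 1 1 n u := by
    have h : r2i * (sm yy n U - (1 / (n : ℂ)) • (dY (ee lG) * T2 H + ee lG * dY (T2 H))
      + (1 / (n : ℂ)) • ((1 / 2 : ℂ) • ((1 / (n : ℂ) ^ 4) • h22 n - Q 1 1 n u))) = U 2 := f2
    have h2 : r2 * U 2 = sm yy n U - (1 / (n : ℂ)) • (dY (ee lG) * T2 H + ee lG * dY (T2 H))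
      + (1 / (n : ℂ)) • ((1 / 2 : ℂ) • ((1 / (n : ℂ) ^ 4) • h22 n - Q 1 1 n u)) := by
      rw [← h, ← mul_assoc, i2, one_mul]
    rw [← hp2, dY_mul]
    rw [h2] at lyy
    have h3 : (1 / (n : ℂ)) • ((∑ c, dY (dY (f n c)) * u c)
        - (dY (ee lG) * T2 H + ee lG * dY (T2 H))
        + ((1 / 2 : ℂ) • ((1 / (n : ℂ) ^ 4) • h22 n - Q 1 1 n u))) = 0 := by
      rw [smul_add, smul_sub, lyy]
      simp only [sm]
      ring
    have h4 : (∑ c, dY (dY (f n c)) * u c)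
        - (dY (ee lG) * T2 H + ee lG * dY (T2 H))
        + ((1 / 2 : ℂ) • ((1 / (n : ℂ) ^ 4) • h22 n - Q 1 1 n u)) = 0 := by
      rcases smul_eq_zero.mp h3 with h | h
      · exact absurd h (one_div_ne_zero hn0)
      · exact h
    have h5 := half2 ((1 / (n : ℂ) ^ 4) • h22 n - Q 1 1 n u)
    linear_combination h5 - 2 * h4
  have G11 := hPQ 0 0 n hn u
  have G12 := hPQ 0 1 n hn u
  have G22 := hPQ 1 1 n hn u
  simp only [DD0, DD1] at G11 G12 G22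
  refine ⟨fun c => f n c + u c, fun c => (fr' n c).add (ru c), ?_, ?_, ?_⟩
  · rw [expand dX dX (f n) u, G11]
    have hc : ∑ c, dX (u c) * dX (f n c) = ∑ c, dX (f n c) * dX (u c) :=
      Finset.sum_congr rfl fun c _ => mul_comm _ _
    rw [hc, parts dX dX dX_mul (f n) u, ← s1]
    rw [map_add] at E11
    linear_combination E11 - m11
  · rw [expand dX dY (f n) u, G12]
    have hc : ∑ c, dX (u c) * dY (f n c) = ∑ c, dY (f n c) * dX (u c) :=
      Finset.sum_congr rfl fun c _ => mul_comm _ _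
    rw [hc, parts dX dY dY_mul (f n) u, parts dY dX dX_mul (f n) u]
    rw [map_add, map_add] at E12
    have hc2 : ∑ c, dY (dX (f n c)) * u c = ∑ c, dX (dY (f n c)) * u c :=
      Finset.sum_congr rfl fun c _ => by rw [dX_dY]
    rw [hc2]
    linear_combination E12 - m12
  · rw [expand dY dY (f n) u, G22]
    have hc : ∑ c, dY (u c) * dY (f n c) = ∑ c, dY (f n c) * dY (u c) :=
      Finset.sum_congr rfl fun c _ => mul_comm _ _
    rw [hc, parts dY dY dY_mul (f n) u, ← s2]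
    rw [map_add] at E22
    linear_combination E22 - m22

end Vale.Agent.P205
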