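import Vale.Agent.P205.Norms

open scoped ContDiff ComplexConjugate
open Real Filter

namespace Vale.Agent.P205

namespace NC

/-- discrete Young inequality `l1 * l2 -> l2` -/
theorem young (α β : ℤ × ℤ → ℝ) (hα : ∀ k, 0 ≤ α k) (hβ : ∀ k, 0 ≤ β k)
    (sα : Summable α) (sβ : Summable fun k => β k ^ 2) (B : ℝ) (hB : ∀ k, β k ≤ B) :
    Summable (fun k => (∑' l, α l * β (k - l)) ^ 2) ∧
      ∑' k, (∑' l, α l * β (k - l)) ^ 2 ≤ (∑' l, α l) ^ 2 * ∑' k, β k ^ 2 := by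
  set A := ∑' l, α l with hA
  have hA0 : 0 ≤ A := tsum_nonneg hα
  have s1 : ∀ k, Summable fun l => α l * β (k - l) := fun k =>
    Summable.of_nonneg_of_le (fun l => mul_nonneg (hα l) (hβ _))
      (fun l => mul_le_mul_of_nonneg_left (hB _) (hα l)) (sα.mul_right B)
  have s2 : ∀ k, Summable fun l => α l * β (k - l) ^ 2 := fun k =>
    Summable.of_nonneg_of_le (fun l => mul_nonneg (hα l) (sq_nonneg _))
      (fun l => mul_le_mul_of_nonneg_left (pow_le_pow_left₀ (hβ _) (hB _) 2) (hα l))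
      (sα.mul_right (B ^ 2))
  -- Cauchy-Schwarz
  have cs : ∀ k, (∑' l, α l * β (k - l)) ^ 2 ≤ A * ∑' l, α l * β (k - l) ^ 2 := by
    intro k
    set c := ∑' l, α l * β (k - l) with hc
    set D := ∑' l, α l * β (k - l) ^ 2 with hD
    rcases hA0.eq_or_lt with h0 | h0
    · have hz : ∀ l, α l = 0 := by
        intro l
        have h1 : α l ≤ A := sα.le_tsum l (fun j _ => hα j)
        exact le_antisymm (by rw [← h0] at h1; exact h1) (hα l)
      have : c = 0 := by rw [hc]; simp [hz]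
      rw [this]
      simp only [ne_eq, OfNat.ofNat_ne_zero, not_false_eq_true, zero_pow]
      exact mul_nonneg hA0 (tsum_nonneg fun l => mul_nonneg (hα l) (sq_nonneg _))
    · have h1 : 0 ≤ ∑' l, (A ^ 2 * (α l * β (k - l) ^ 2) - (2 * A * c) * (α l * β (k - l))
          + c ^ 2 * α l) := by
        refine tsum_nonneg fun l => ?_
        have : A ^ 2 * (α l * β (k - l) ^ 2) - (2 * A * c) * (α l * β (k - l)) + c ^ 2 * α l
            = α l * (A * β (k - l) - c) ^ 2 := by ring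
        rw [this]
        exact mul_nonneg (hα l) (sq_nonneg _)
      rw [((s2 k).mul_left (A ^ 2) |>.sub ((s1 k).mul_left (2 * A * c))).tsum_add
        (sα.mul_left (c ^ 2)), ((s2 k).mul_left (A ^ 2)).tsum_sub ((s1 k).mul_left (2 * A * c)),
        tsum_mul_left, tsum_mul_left, tsum_mul_left, ← hA, ← hc, ← hD] at h1
      nlinarith
  -- the double sum
  have sP : Summable fun p : (ℤ × ℤ) × (ℤ × ℤ) => α p.1 * β p.2 ^ 2 :=
    sα.mul_of_nonneg sβ hα (fun k => sq_nonneg _)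
  let e : (ℤ × ℤ) × (ℤ × ℤ) ≃ (ℤ × ℤ) × (ℤ × ℤ) :=
    { toFun := fun p => (p.2, p.1 - p.2)
      invFun := fun q => (q.1 + q.2, q.1)
      left_inv := fun p => by ext <;> simp
      right_inv := fun q => by ext <;> simp }
  have sQ : Summable fun p : (ℤ × ℤ) × (ℤ × ℤ) => α p.2 * β (p.1 - p.2) ^ 2 :=
    (e.summable_iff (f := fun p : (ℤ × ℤ) × (ℤ × ℤ) => α p.1 * β p.2 ^ 2)).mpr sP
  have hQ : ∑' k, ∑' l, α l * β (k - l) ^ 2 = A * ∑' k, β k ^ 2 := by
    rw [← sQ.tsum_prod' (fun k => s2 k)]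
    have h1 : ∑' p : (ℤ × ℤ) × (ℤ × ℤ), α p.2 * β (p.1 - p.2) ^ 2 =
        ∑' p : (ℤ × ℤ) × (ℤ × ℤ), α p.1 * β p.2 ^ 2 :=
      e.tsum_eq (fun p : (ℤ × ℤ) × (ℤ × ℤ) => α p.1 * β p.2 ^ 2)
    rw [h1, sα.tsum_mul_tsum sβ sP]
  have sR : Summable fun k => ∑' l, α l * β (k - l) ^ 2 :=
    sQ.prod
  have s3 : Summable (fun k => (∑' l, α l * β (k - l)) ^ 2) :=
    Summable.of_nonneg_of_le (fun k => sq_nonneg _) cs (sR.mul_left A)
  refine ⟨s3, ?_⟩
  calc ∑' k, (∑' l, α l * β (k - l)) ^ 2 ≤ ∑' k, A * ∑' l, α l * β (k - l) ^ 2 :=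
        s3.tsum_le_tsum cs (sR.mul_left A)
    _ = A ^ 2 * ∑' k, β k ^ 2 := by rw [tsum_mul_left, hQ]; ring

open NAux

theorem sq_summable {w : ℤ × ℤ → ℝ} (hw : IsWt w) (F : CP) :
    Summable fun k => (w k * ‖coef F k‖) ^ 2 := by
  have h0 : ∀ k, 0 ≤ w k * ‖coef F k‖ := fun k => mul_nonneg (wpos hw k) (norm_nonneg _)
  have h1 := nw_summable hw F
  refine Summable.of_nonneg_of_le (fun k => sq_nonneg _) (fun k => ?_) (h1.mul_left (nw w F))
  rw [sq]
  exact mul_le_mul_of_nonneg_right (h1.le_tsum k (fun j _ => h0 j)) (h0 k)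

/-- weighted square norm -/
noncomputable def B2 (w : ℤ × ℤ → ℝ) (F : CP) : ℝ := ∑' k, (w k * ‖coef F k‖) ^ 2

theorem B2_nonneg (w : ℤ × ℤ → ℝ) (F : CP) : 0 ≤ B2 w F := tsum_nonneg fun _ => sq_nonneg _

theorem wt_diff {w : ℤ × ℤ → ℝ} (hw : IsWt w) (k l : ℤ × ℤ) :
    |w k - w (k - l)| ≤ (w l - 1) * w (k - l) := by
  have h1 : w k ≤ w l * w (k - l) := by
    have := hw.mul l (k - l)
    rwa [show l + (k - l) = k by abel] at this
  have h2 : w (k - l) ≤ w k * w l := by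
    have := hw.mul k (-l)
    rwa [show k + -l = k - l by abel, hw.symm] at this
  have h3 := hw.one_le l
  have h4 := hw.one_le (k - l)
  have h5 := hw.one_le k
  rw [abs_le]
  constructor
  · nlinarith
  · linarith

theorem step {w : ℤ × ℤ → ℝ} (hw : IsWt w) (m : CP) (k0 : ℝ) (h0 : 0 ≤ k0)
    (hm : ∀ z, ‖(m : ℝ × ℝ → ℂ) z‖ ≤ k0) (G : CP) (ε : ℝ) (hε : 0 < ε) :
    B2 w (m * G) ≤ ((1 + ε) * k0 ^ 2 + (1 + 1 / ε) *
      (∑' l, ‖coef m l‖ * (w l - 1)) ^ 2) * B2 w G := by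
  obtain ⟨M, C, hC⟩ := hw.growth
  obtain ⟨Gw, hGw⟩ := exists_ser (fun k => (w k : ℂ) * coef G k) (by
    intro j
    refine Summable.of_nonneg_of_le (fun k => by have := sz_nonneg k; positivity) (fun k => ?_)
      ((coef_rapid G (j + M)).mul_left C)
    have hs := sz_nonneg k
    rw [norm_mul, Complex.norm_of_nonneg (wpos hw k), pow_add]
    calc (1 + sz k) ^ j * (w k * ‖coef G k‖) ≤ (1 + sz k) ^ j * ((C * (1 + sz k) ^ M) * ‖coef G k‖) := by
          apply mul_le_mul_of_nonneg_left _ (by positivity)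
          exact mul_le_mul_of_nonneg_right (hC k) (norm_nonneg _)
      _ = _ := by ring)
  set α : ℤ × ℤ → ℝ := fun l => ‖coef m l‖ * (w l - 1) with hα
  set β : ℤ × ℤ → ℝ := fun l => w l * ‖coef G l‖ with hβ
  have α0 : ∀ l, 0 ≤ α l := fun l => mul_nonneg (norm_nonneg _) (by linarith [hw.one_le l])
  have β0 : ∀ l, 0 ≤ β l := fun l => mul_nonneg (wpos hw l) (norm_nonneg _)
  have sα : Summable α := by
    refine Summable.of_nonneg_of_le α0 (fun l => ?_) (nw_summable hw m)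
    calc α l = (w l - 1) * ‖coef m l‖ := mul_comm _ _
      _ ≤ w l * ‖coef m l‖ := mul_le_mul_of_nonneg_right (by linarith) (norm_nonneg (coef m l))
  have sβ1 : Summable β := nw_summable hw G
  have sβ : Summable fun k => β k ^ 2 := sq_summable hw G
  have hB : ∀ k, β k ≤ nw w G := fun k => sβ1.le_tsum k (fun j _ => β0 j)
  obtain ⟨sc, hc⟩ := young α β α0 β0 sα sβ (nw w G) hB
  obtain ⟨sm, -, hp⟩ := parseval_mul m Gw k0 h0 hm
  -- pointwise
  have hpt : ∀ k, w k * ‖coef (m * G) k‖ ≤ ‖coef (m * Gw) k‖ + ∑' l, α l * β (k - l) := by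
    intro k
    have e1 : HasSum (fun l => (w k : ℂ) * (coef m l * coef G (k - l)))
        ((w k : ℂ) * coef (m * G) k) := (F3.coef_mul_hasSum m G k).mul_left _
    have e2 := F3.coef_mul_hasSum m Gw k
    have e3 := e1.sub e2
    have s3 : Summable fun l => α l * β (k - l) :=
      Summable.of_nonneg_of_le (fun l => mul_nonneg (α0 l) (β0 _))
        (fun l => mul_le_mul_of_nonneg_left (hB _) (α0 l)) (sα.mul_right _)
    have hle : ∀ l, ‖(w k : ℂ) * (coef m l * coef G (k - l)) - coef m l * coef Gw (k - l)‖ ≤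
        α l * β (k - l) := by
      intro l
      rw [hGw]
      have : (w k : ℂ) * (coef m l * coef G (k - l)) - coef m l * ((w (k - l) : ℂ) * coef G (k - l))
          = ((w k - w (k - l) : ℝ) : ℂ) * (coef m l * coef G (k - l)) := by
        push_cast; ring
      rw [this, norm_mul, norm_mul, Complex.norm_real, Real.norm_eq_abs]
      calc |w k - w (k - l)| * (‖coef m l‖ * ‖coef G (k - l)‖) ≤
          ((w l - 1) * w (k - l)) * (‖coef m l‖ * ‖coef G (k - l)‖) :=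
            mul_le_mul_of_nonneg_right (wt_diff hw k l) (by positivity)
        _ = α l * β (k - l) := by rw [hα, hβ]; ring
    have h4 : ‖(w k : ℂ) * coef (m * G) k - coef (m * Gw) k‖ ≤ ∑' l, α l * β (k - l) := by
      rw [← e3.tsum_eq]
      exact tsum_of_norm_bounded s3.hasSum hle
    have h5 : ‖(w k : ℂ) * coef (m * G) k‖ = w k * ‖coef (m * G) k‖ := by
      rw [norm_mul, Complex.norm_of_nonneg (wpos hw k)]
    rw [← h5]
    calc ‖(w k : ℂ) * coef (m * G) k‖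
        = ‖coef (m * Gw) k + ((w k : ℂ) * coef (m * G) k - coef (m * Gw) k)‖ := by
          congr 1; ring
      _ ≤ _ := (norm_add_le _ _).trans (by linarith)
  have hsq : ∀ k, (w k * ‖coef (m * G) k‖) ^ 2 ≤ (1 + ε) * ‖coef (m * Gw) k‖ ^ 2 +
      (1 + 1 / ε) * (∑' l, α l * β (k - l)) ^ 2 := by
    intro k
    have h1 := hpt k
    have h2 : 0 ≤ w k * ‖coef (m * G) k‖ := mul_nonneg (wpos hw k) (norm_nonneg _)
    set u := ‖coef (m * Gw) k‖
    set v := ∑' l, α l * β (k - l)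
    have h3 : (w k * ‖coef (m * G) k‖) ^ 2 ≤ (u + v) ^ 2 := pow_le_pow_left₀ h2 h1 2
    have h4 : (u + v) ^ 2 ≤ (1 + ε) * u ^ 2 + (1 + 1 / ε) * v ^ 2 := by
      have h5 : 0 ≤ (ε * u - v) ^ 2 / ε := by positivity
      have h6 : (ε * u - v) ^ 2 / ε = ε * u ^ 2 - 2 * u * v + 1 / ε * v ^ 2 := by
        field_simp
        ring
      rw [h6] at h5
      nlinarith
    exact h3.trans h4
  have s4 : Summable fun k => (1 + ε) * ‖coef (m * Gw) k‖ ^ 2 +
      (1 + 1 / ε) * (∑' l, α l * β (k - l)) ^ 2 := (sm.mul_left _).add (sc.mul_left _)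
  have h7 : ∑' k, ‖coef Gw k‖ ^ 2 = B2 w G := by
    unfold B2
    refine tsum_congr fun k => ?_
    rw [hGw, norm_mul, Complex.norm_of_nonneg (wpos hw k)]
  have hε' : 0 < 1 / ε := by positivity
  calc B2 w (m * G) ≤ ∑' k, ((1 + ε) * ‖coef (m * Gw) k‖ ^ 2 +
      (1 + 1 / ε) * (∑' l, α l * β (k - l)) ^ 2) :=
        (sq_summable hw (m * G)).tsum_le_tsum hsq s4
    _ = (1 + ε) * ∑' k, ‖coef (m * Gw) k‖ ^ 2 +
      (1 + 1 / ε) * ∑' k, (∑' l, α l * β (k - l)) ^ 2 := by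
        rw [(sm.mul_left _).tsum_add (sc.mul_left _), tsum_mul_left, tsum_mul_left]
    _ ≤ (1 + ε) * (k0 ^ 2 * B2 w G) + (1 + 1 / ε) * ((∑' l, α l) ^ 2 * B2 w G) := by
        rw [← h7]
        apply add_le_add
        · exact mul_le_mul_of_nonneg_left hp (by linarith)
        · apply mul_le_mul_of_nonneg_left _ (by linarith)
          rw [h7]
          exact hc
    _ = _ := by ring

theorem exists_N (m : CP) (s : ℕ) (δ : ℝ) (hδ : 0 < δ) : ∃ N : ℕ, 1 ≤ N ∧
    ∑' l, ‖coef m l‖ * (wt 0 N N s l - 1) ≤ δ := by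
  have hlim : Tendsto (fun N : ℕ => ∑' l, ‖coef m l‖ * (wt 0 N N s l - 1)) atTop
      (nhds (∑' _l : ℤ × ℤ, (0 : ℝ))) := by
    refine tendsto_tsum_of_dominated_convergence
      (bound := fun l => (1 + sz l) ^ (s + 2) * ‖coef m l‖) (coef_rapid m (s + 2)) ?_ ?_
    · intro l
      have h1 : Tendsto (fun N : ℕ => sz l / (N : ℝ)) atTop (nhds 0) :=
        tendsto_const_div_atTop_nhds_zero_nat (sz l)
      have h2 : Tendsto (fun N : ℕ => ‖coef m l‖ * ((1 + sz l) ^ 0 *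
          ((1 + sz l / (N : ℝ)) ^ 2 * (1 + sz l / (N : ℝ)) ^ s) - 1)) atTop
          (nhds (‖coef m l‖ * ((1 + sz l) ^ 0 * ((1 + 0) ^ 2 * (1 + 0) ^ s) - 1))) :=
        (((((h1.const_add 1).pow 2).mul ((h1.const_add 1).pow s)).const_mul _).sub_const
          1).const_mul _
      simpa [wt] using h2
    · filter_upwards [eventually_ge_atTop 1] with N hN l
      have hs := sz_nonneg l
      have hN' : (1 : ℝ) ≤ N := by exact_mod_cast hN
      have h3 : sz l / (N : ℝ) ≤ sz l := div_le_self hs hN'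
      have h4 := (wt_isWt 0 N N s).one_le l
      rw [Real.norm_of_nonneg (mul_nonneg (norm_nonneg _) (by linarith)), mul_comm]
      apply mul_le_mul_of_nonneg_right _ (norm_nonneg _)
      have h5 : wt 0 N N s l ≤ (1 + sz l) ^ (s + 2) := by
        unfold wt
        rw [pow_zero, one_mul, pow_add, mul_comm ((1 + sz l) ^ s)]
        have h6 : 0 ≤ sz l / (N : ℝ) := by positivity
        exact mul_le_mul (pow_le_pow_left₀ (by positivity) (by linarith) 2)
          (pow_le_pow_left₀ (by positivity) (by linarith) s) (by positivity) (by positivity)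
      linarith
  rw [tsum_zero] at hlim
  have h1 : ∀ᶠ N : ℕ in atTop, ∑' l, ‖coef m l‖ * (wt 0 N N s l - 1) < δ :=
    (tendsto_order.1 hlim).2 δ hδ
  obtain ⟨N, hN1, hN2⟩ := ((eventually_ge_atTop 1).and h1).exists
  exact ⟨N, hN1, hN2.le⟩

end NC

open NAux NC

theorem l2_contraction (m : CP) (k0 : ℝ) (h0 : 0 ≤ k0) (hk : k0 < 1)
    (hm : ∀ z, ‖(m : ℝ × ℝ → ℂ) z‖ ≤ k0) (L : CP →ₗ[ℂ] CP) (M : ℤ × ℤ → ℂ)
    (hL : ∀ F k, coef (L F) k = M k * coef F k) (hM : ∀ k, ‖M k‖ ≤ 1) :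
    ∃ k1 : ℝ, 0 ≤ k1 ∧ k1 < 1 ∧ ∀ (s : ℕ) (a : CP), ∃ A : ℝ, ∀ (j : ℕ) (k : ℤ × ℤ),
      (1 + sz k) ^ s *
        ‖coef ((fun F : CP => m * L F - coef (m * L F) 0 • (1 : CP))^[j] a) k‖ ≤ A * k1 ^ j := by
  have hk2 : k0 ^ 2 < 1 := by nlinarith
  set ε : ℝ := (1 - k0 ^ 2) / 4 with hε
  have hε0 : 0 < ε := by rw [hε]; linarith
  set k1 : ℝ := Real.sqrt ((1 + k0 ^ 2) / 2) with hk1
  have hk1sq : k1 ^ 2 = (1 + k0 ^ 2) / 2 := Real.sq_sqrt (by positivity)
  have hk10 : 0 ≤ k1 := Real.sqrt_nonneg _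
  refine ⟨k1, hk10, ?_, ?_⟩
  · nlinarith
  intro s a
  set T : CP → CP := fun F : CP => m * L F - coef (m * L F) 0 • (1 : CP) with hT
  -- choose N
  set δ : ℝ := Real.sqrt (ε / (1 + 1 / ε)) with hδ
  have hδ0 : 0 < δ := Real.sqrt_pos.mpr (by positivity)
  have hδsq : (1 + 1 / ε) * δ ^ 2 = ε := by
    rw [hδ, Real.sq_sqrt (by positivity)]
    field_simp
  obtain ⟨N, hN1, hN2⟩ := exists_N m s δ hδ0
  set w := wt 0 N N s with hw_def
  have hw : IsWt w := wt_isWt 0 N N s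
  have hTstep : ∀ F : CP, B2 w (T F) ≤ k1 ^ 2 * B2 w F := by
    intro F
    have e1 : B2 w (T F) ≤ B2 w (m * L F) := by
      refine (sq_summable hw (T F)).tsum_le_tsum (fun k => ?_) (sq_summable hw (m * L F))
      apply pow_le_pow_left₀ (mul_nonneg (wpos hw k) (norm_nonneg _))
      apply mul_le_mul_of_nonneg_left _ (wpos hw k)
      have e2 : coef (T F) k = coef (m * L F) k - coef (m * L F) 0 * coef (1 : CP) k := by
        rw [hT]
        have : m * L F - coef (m * L F) 0 • (1 : CP) =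
          m * L F + (-coef (m * L F) 0) • (1 : CP) := by
          rw [neg_smul, sub_eq_add_neg]
        simp only [this]
        rw [coef_add, coef_smul]
        ring
      have e3 : coef (1 : CP) k = if k = 0 then 1 else 0 := by
        rw [← F1.ex_zero, coef_ex]
      rw [e2, e3]
      by_cases hk0 : k = 0
      · subst hk0
        simp
      · rw [if_neg hk0]; simp
    have e4 : B2 w (L F) ≤ B2 w F := by
      refine (sq_summable hw (L F)).tsum_le_tsum (fun k => ?_) (sq_summable hw F)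
      apply pow_le_pow_left₀ (mul_nonneg (wpos hw k) (norm_nonneg _))
      apply mul_le_mul_of_nonneg_left _ (wpos hw k)
      rw [hL, norm_mul]
      calc ‖M k‖ * ‖coef F k‖ ≤ 1 * ‖coef F k‖ := mul_le_mul_of_nonneg_right (hM k) (norm_nonneg _)
        _ = _ := one_mul _
    have e5 := step hw m k0 h0 hm (L F) ε hε0
    have e6 : 0 ≤ ∑' l, ‖coef m l‖ * (w l - 1) :=
      tsum_nonneg fun l => mul_nonneg (norm_nonneg _) (by linarith [hw.one_le l])
    have e7 : (∑' l, ‖coef m l‖ * (w l - 1)) ^ 2 ≤ δ ^ 2 := pow_le_pow_left₀ e6 hN2 2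
    have e8 : (1 + ε) * k0 ^ 2 + (1 + 1 / ε) * (∑' l, ‖coef m l‖ * (w l - 1)) ^ 2 ≤ k1 ^ 2 := by
      have e9 : 0 < 1 + 1 / ε := by positivity
      have e10 := mul_le_mul_of_nonneg_left e7 e9.le
      rw [hk1sq]
      nlinarith [sq_nonneg k0]
    calc B2 w (T F) ≤ B2 w (m * L F) := e1
      _ ≤ _ := e5
      _ ≤ k1 ^ 2 * B2 w (L F) := mul_le_mul_of_nonneg_right e8 (B2_nonneg _ _)
      _ ≤ k1 ^ 2 * B2 w F := mul_le_mul_of_nonneg_left e4 (sq_nonneg _)
  have hiter : ∀ j : ℕ, B2 w (T^[j] a) ≤ (k1 ^ j) ^ 2 * B2 w a := by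
    intro j
    induction j with
    | zero => simp
    | succ j ih =>
      rw [Function.iterate_succ_apply']
      calc B2 w (T (T^[j] a)) ≤ k1 ^ 2 * B2 w (T^[j] a) := hTstep _
        _ ≤ k1 ^ 2 * ((k1 ^ j) ^ 2 * B2 w a) := mul_le_mul_of_nonneg_left ih (sq_nonneg _)
        _ = _ := by rw [pow_succ]; ring
  refine ⟨(N : ℝ) ^ s * Real.sqrt (B2 w a), fun j k => ?_⟩
  have hs := sz_nonneg k
  have hN' : (1 : ℝ) ≤ N := by exact_mod_cast hN1
  have g1 : (w k * ‖coef (T^[j] a) k‖) ^ 2 ≤ (k1 ^ j) ^ 2 * B2 w a :=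
    ((sq_summable hw (T^[j] a)).le_tsum k (fun i _ => sq_nonneg _)).trans (hiter j)
  have g2 : w k * ‖coef (T^[j] a) k‖ ≤ k1 ^ j * Real.sqrt (B2 w a) := by
    apply le_of_sq_le_sq _ (by positivity)
    rw [mul_pow (k1 ^ j), Real.sq_sqrt (B2_nonneg _ _)]
    exact g1
  have g3 : (1 + sz k) ^ s ≤ (N : ℝ) ^ s * w k := by
    rw [hw_def]
    unfold wt
    have g4 : 1 + sz k ≤ (N : ℝ) * (1 + sz k / N) := by
      have : (N : ℝ) * (1 + sz k / N) = N + sz k := by field_simp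
      rw [this]; linarith
    have g5 : (1 : ℝ) ≤ (1 + sz k / N) ^ 2 := by
      have : 0 ≤ sz k / N := by positivity
      nlinarith
    calc (1 + sz k) ^ s ≤ ((N : ℝ) * (1 + sz k / N)) ^ s := pow_le_pow_left₀ (by positivity) g4 s
      _ = (N : ℝ) ^ s * (1 * (1 + sz k / N) ^ s) := by rw [mul_pow, one_mul]
      _ ≤ (N : ℝ) ^ s * ((1 + sz k) ^ 0 * ((1 + sz k / N) ^ 2 * (1 + sz k / N) ^ s)) := by
          rw [pow_zero, one_mul ((1 + sz k / (N : ℝ)) ^ 2 * (1 + sz k / N) ^ s)]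
          apply mul_le_mul_of_nonneg_left _ (by positivity)
          exact mul_le_mul_of_nonneg_right g5 (by positivity)
  calc (1 + sz k) ^ s * ‖coef (T^[j] a) k‖ ≤ ((N : ℝ) ^ s * w k) * ‖coef (T^[j] a) k‖ :=
        mul_le_mul_of_nonneg_right g3 (norm_nonneg _)
    _ = (N : ℝ) ^ s * (w k * ‖coef (T^[j] a) k‖) := by ring
    _ ≤ (N : ℝ) ^ s * (k1 ^ j * Real.sqrt (B2 w a)) :=
        mul_le_mul_of_nonneg_left g2 (by positivity)
    _ = _ := by ring

end Vale.Agent.P205
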