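import Vale.Agent.P205.Contract

open scoped ContDiff ComplexConjugate
open Real Filter

namespace Vale.Agent.P205

namespace Sig

open NAux

theorem coef_dZ (F : CP) (k : ℤ × ℤ) :
    coef (dZ F) k = (Complex.I / 2) * ((k.1 : ℂ) - Complex.I * k.2) * coef F k := by
  have h : dZ F = (1 / 2 : ℂ) • (dX F + (-Complex.I) • dY F) := by
    unfold dZ
    rw [neg_smul, ← sub_eq_add_neg]
    rfl
  rw [h, coef_smul, coef_add, coef_smul, coef_dX, coef_dY]
  have := Complex.I_mul_I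
  linear_combination (-(1 / 2 : ℂ) * (0 : ℂ)) * this

theorem coef_dZb (F : CP) (k : ℤ × ℤ) :
    coef (dZb F) k = (Complex.I / 2) * ((k.1 : ℂ) + Complex.I * k.2) * coef F k := by
  have h : dZb F = (1 / 2 : ℂ) • (dX F + Complex.I • dY F) := rfl
  rw [h, coef_smul, coef_add, coef_smul, coef_dX, coef_dY]
  ring

theorem dZ_mul (F G : CP) : dZ (F * G) = dZ F * G + F * dZ G := by
  have h : ∀ F : CP, dZ F = (1 / 2 : ℂ) • (dX F - Complex.I • dY F) := fun F => rfl
  rw [h, h, h, dX_mul, dY_mul, smul_mul_assoc, mul_smul_comm, ← smul_add]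
  congr 1
  rw [sub_mul, mul_sub, smul_add, smul_mul_assoc, mul_smul_comm]
  abel

theorem dZ_ee (F : CP) : dZ (ee F) = dZ F * ee F := by
  have h : ∀ F : CP, dZ F = (1 / 2 : ℂ) • (dX F - Complex.I • dY F) := fun F => rfl
  rw [h, h, dX_ee, dY_ee, smul_mul_assoc, sub_mul, smul_mul_assoc]

theorem dZb_ee (F : CP) : dZb (ee F) = dZb F * ee F := by
  have h : ∀ F : CP, dZb F = (1 / 2 : ℂ) • (dX F + Complex.I • dY F) := fun F => rfl
  rw [h, h, dX_ee, dY_ee, smul_mul_assoc, add_mul, smul_mul_assoc]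

/-- identity theorem for power series with geometric coefficients -/
theorem ident (c : ℕ → ℂ) (A k1 : ℝ) (hk0 : 0 ≤ k1) (hk1 : k1 < 1) (hc : ∀ j, ‖c j‖ ≤ A * k1 ^ j)
    (t0 : ℝ) (ht0 : 0 < t0) (h : ∀ t : ℝ, 0 < t → t < t0 → ∑' j, (t : ℂ) ^ j * c j = 0) :
    ∀ j, c j = 0 := by
  have hA : 0 ≤ A := by have := (norm_nonneg _).trans (hc 0); simpa using this
  have sg : Summable fun j : ℕ => A * k1 ^ j := (summable_geometric_of_lt_one hk0 hk1).mul_left A
  have s1 : ∀ t : ℝ, 0 < t → t ≤ 1 → ∀ n : ℕ, Summable fun j : ℕ => (t : ℂ) ^ j * c (j + n) := by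
    intro t ht ht1 n
    refine Summable.of_norm_bounded (g := fun j => A * k1 ^ (j + n))
      ((summable_nat_add_iff n).mpr sg) (fun j => ?_)
    rw [norm_mul, norm_pow, Complex.norm_of_nonneg ht.le]
    calc t ^ j * ‖c (j + n)‖ ≤ 1 * ‖c (j + n)‖ :=
          mul_le_mul_of_nonneg_right (pow_le_one₀ ht.le ht1) (norm_nonneg _)
      _ ≤ _ := by rw [one_mul]; exact hc _
  intro j
  induction j using Nat.strong_induction_on with
  | _ j ih =>
    by_contra hne
    have hpos : 0 < ‖c j‖ := norm_pos_iff.mpr hne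
    set C := ∑' i, A * k1 ^ i with hC
    have hC0 : 0 ≤ C := tsum_nonneg fun i => by positivity
    obtain ⟨t, ht, htlt, ht1, ht2⟩ : ∃ t : ℝ, 0 < t ∧ t < t0 ∧ t ≤ 1 ∧ t * C < ‖c j‖ := by
      refine ⟨min (min (t0 / 2) 1) (‖c j‖ / (2 * (C + 1))), by positivity, ?_, ?_, ?_⟩
      · calc _ ≤ t0 / 2 := (min_le_left _ _).trans (min_le_left _ _)
          _ < t0 := by linarith
      · exact (min_le_left _ _).trans (min_le_right _ _)
      · calc _ ≤ (‖c j‖ / (2 * (C + 1))) * C := mul_le_mul_of_nonneg_right (min_le_right _ _) hC0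
          _ < ‖c j‖ := by
            rw [div_mul_eq_mul_div, div_lt_iff₀ (by positivity)]
            nlinarith
    have h1 := h t ht htlt
    have h2 : ∑' i, (t : ℂ) ^ i * c i = ∑' i, (t : ℂ) ^ (i + j) * c (i + j) := by
      rw [← (by simpa using s1 t ht ht1 0 : Summable fun j : ℕ => (t : ℂ) ^ j * c j).sum_add_tsum_nat_add j]
      rw [Finset.sum_eq_zero, zero_add]
      intro i hi
      rw [ih i (Finset.mem_range.mp hi), mul_zero]
    have h3 : ∑' i, (t : ℂ) ^ (i + j) * c (i + j) = (t : ℂ) ^ j * ∑' i, (t : ℂ) ^ i * c (i + j) := by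
      rw [← tsum_mul_left]
      refine tsum_congr fun i => ?_
      rw [pow_add]; ring
    have ht' : (t : ℂ) ≠ 0 := by exact_mod_cast ht.ne'
    have h4 : ∑' i, (t : ℂ) ^ i * c (i + j) = 0 := by
      rw [h2, h3] at h1
      rcases mul_eq_zero.mp h1 with h5 | h5
      · exact absurd h5 (pow_ne_zero _ ht')
      · exact h5
    have h5 : c j = -((t : ℂ) * ∑' i, (t : ℂ) ^ i * c (i + (j + 1))) := by
      rw [(s1 t ht ht1 j).tsum_eq_zero_add] at h4
      rw [← tsum_mul_left]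
      have h6 : ∑' i, (t : ℂ) ^ (i + 1) * c (i + 1 + j) =
          ∑' i, (t : ℂ) * ((t : ℂ) ^ i * c (i + (j + 1))) := by
        refine tsum_congr fun i => ?_
        rw [show i + 1 + j = i + (j + 1) by ring, pow_succ]; ring
      rw [← h6]
      simp only [pow_zero, one_mul, zero_add] at h4
      linear_combination h4
    have h6 : ‖c j‖ ≤ t * C := by
      rw [h5, norm_neg, norm_mul, Complex.norm_of_nonneg ht.le]
      apply mul_le_mul_of_nonneg_left _ ht.le
      refine tsum_of_norm_bounded sg.hasSum (fun i => ?_)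
      rw [norm_mul, norm_pow, Complex.norm_of_nonneg ht.le]
      calc t ^ i * ‖c (i + (j + 1))‖ ≤ 1 * ‖c (i + (j + 1))‖ :=
            mul_le_mul_of_nonneg_right (pow_le_one₀ ht.le ht1) (norm_nonneg _)
        _ ≤ A * k1 ^ (i + (j + 1)) := by rw [one_mul]; exact hc _
        _ ≤ A * k1 ^ i := by
            apply mul_le_mul_of_nonneg_left _ hA
            exact pow_le_pow_of_le_one hk0 hk1.le (by omega)
    linarith

theorem coef_le (F : CP) (C : ℝ) (hC : ∀ z, ‖(F : ℝ × ℝ → ℂ) z‖ ≤ C) (k : ℤ × ℤ) :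
    ‖coef F k‖ ≤ C := by
  have h1 : ‖coef F k‖ ≤ ‖(1 / (2 * π) ^ 2 : ℂ)‖ * ((C * |2 * π - 0|) * |2 * π - 0|) := by
    unfold coef
    rw [norm_mul]
    refine mul_le_mul_of_nonneg_left ?_ (norm_nonneg _)
    refine intervalIntegral.norm_integral_le_of_norm_le_const fun x _ => ?_
    refine intervalIntegral.norm_integral_le_of_norm_le_const fun y _ => ?_
    rw [norm_mul]
    have h1 : ‖Complex.exp (-(Complex.I * ((k.1 : ℂ) * x + (k.2 : ℂ) * y)))‖ = 1 := by
      rw [Complex.norm_exp]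
      simp
    rw [h1, mul_one]
    exact hC _
  refine h1.trans (le_of_eq ?_)
  have hπ : (0 : ℝ) < 2 * π := by positivity
  have h2 : ‖(1 / (2 * π) ^ 2 : ℂ)‖ = 1 / (2 * π) ^ 2 := by
    have : (1 / (2 * π) ^ 2 : ℂ) = ((1 / (2 * π) ^ 2 : ℝ) : ℂ) := by push_cast; ring
    rw [this, Complex.norm_of_nonneg (by positivity)]
  rw [h2, sub_zero, abs_of_pos hπ]
  field_simp

/-- summability of `(1 + sz)^(-4)` -/
theorem sum4 : Summable fun k : ℤ × ℤ => ((1 + sz k) ^ 4)⁻¹ := F1.summable_two_dim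

/-- termwise multiplication of a geometrically convergent series of functions -/
theorem ser_mul (F : ℕ → CP) (Ω : CP) (A k1 t : ℝ) (hk0 : 0 ≤ k1) (hk1 : k1 < 1) (ht0 : 0 ≤ t)
    (ht1 : t ≤ 1) (hF : ∀ j k, ‖coef (F j) k‖ ≤ A * k1 ^ j)
    (hΩ : ∀ k, coef Ω k = ∑' j, (t : ℂ) ^ j * coef (F j) k) (G : CP) (k : ℤ × ℤ) :
    coef (G * Ω) k = ∑' j, (t : ℂ) ^ j * coef (G * F j) k := by
  have hA : 0 ≤ A := by have := (norm_nonneg _).trans (hF 0 0); simpa using this
  have sg : Summable fun j : ℕ => A * k1 ^ j := (summable_geometric_of_lt_one hk0 hk1).mul_left A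
  rw [coef_mul]
  have hb : ∀ (l : ℤ × ℤ) (j : ℕ), ‖coef G l * ((t : ℂ) ^ j * coef (F j) (k - l))‖ ≤
      ‖coef G l‖ * (A * k1 ^ j) := by
    intro l j
    rw [norm_mul]
    apply mul_le_mul_of_nonneg_left _ (norm_nonneg _)
    rw [norm_mul, norm_pow, Complex.norm_of_nonneg ht0]
    calc t ^ j * ‖coef (F j) (k - l)‖ ≤ 1 * ‖coef (F j) (k - l)‖ :=
          mul_le_mul_of_nonneg_right (pow_le_one₀ ht0 ht1) (norm_nonneg _)
      _ ≤ _ := by rw [one_mul]; exact hF _ _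
  have sP : Summable fun p : (ℤ × ℤ) × ℕ => ‖coef G p.1‖ * (A * k1 ^ p.2) :=
    (F2.summable_norm G).mul_of_nonneg sg (fun _ => norm_nonneg _) (fun j => by positivity)
  have sQ : Summable (Function.uncurry fun (l : ℤ × ℤ) (j : ℕ) =>
      coef G l * ((t : ℂ) ^ j * coef (F j) (k - l))) :=
    Summable.of_norm_bounded sP (fun p => hb p.1 p.2)
  have h1 : ∑' l, coef G l * coef Ω (k - l) =
      ∑' l, ∑' j, coef G l * ((t : ℂ) ^ j * coef (F j) (k - l)) := by
    refine tsum_congr fun l => ?_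
    rw [hΩ, tsum_mul_left]
  rw [h1, ← sQ.tsum_comm]
  refine tsum_congr fun j => ?_
  rw [coef_mul, ← tsum_mul_left]
  refine tsum_congr fun l => ?_
  ring

end Sig

open NAux Sig

theorem exists_sigma (m : CP) (k0 : ℝ) (h0 : 0 ≤ k0) (hk : k0 < 1)
    (hm : ∀ z, ‖(m : ℝ × ℝ → ℂ) z‖ ≤ k0) : ∃ σ : CP, dZb σ = m * dZ σ + dZ m := by
  classical
  -- symbols
  have hden : ∀ k : ℤ × ℤ, k ≠ 0 → (1 : ℝ) ≤ ‖(k.1 : ℂ) + Complex.I * k.2‖ ∧
      ‖(k.1 : ℂ) - Complex.I * k.2‖ = ‖(k.1 : ℂ) + Complex.I * k.2‖ := by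
    intro k hk0
    have e1 : ‖(k.1 : ℂ) + Complex.I * k.2‖ ^ 2 = (k.1 : ℝ) ^ 2 + (k.2 : ℝ) ^ 2 := by
      rw [← Complex.normSq_eq_norm_sq, Complex.normSq_apply]
      simp
      ring
    have e2 : ‖(k.1 : ℂ) - Complex.I * k.2‖ ^ 2 = (k.1 : ℝ) ^ 2 + (k.2 : ℝ) ^ 2 := by
      rw [← Complex.normSq_eq_norm_sq, Complex.normSq_apply]
      simp
      ring
    have e3 : (1 : ℝ) ≤ (k.1 : ℝ) ^ 2 + (k.2 : ℝ) ^ 2 := by
      have : (1 : ℤ) ≤ k.1 ^ 2 + k.2 ^ 2 := by
        by_contra hlt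
        push Not at hlt
        apply hk0
        have h1 : k.1 ^ 2 = 0 := by nlinarith [sq_nonneg k.1, sq_nonneg k.2]
        have h2 : k.2 ^ 2 = 0 := by nlinarith [sq_nonneg k.1, sq_nonneg k.2]
        ext
        · simpa using h1
        · simpa using h2
      exact_mod_cast this
    constructor
    · rw [← e1] at e3
      nlinarith [norm_nonneg ((k.1 : ℂ) + Complex.I * k.2)]
    · have e4 := e1.trans e2.symm
      nlinarith [norm_nonneg ((k.1 : ℂ) + Complex.I * k.2), norm_nonneg ((k.1 : ℂ) - Complex.I * k.2),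
        sq_nonneg (‖(k.1 : ℂ) - Complex.I * k.2‖ - ‖(k.1 : ℂ) + Complex.I * k.2‖)]
  set MS : ℤ × ℤ → ℂ := fun k => if k = 0 then 0 else
    ((k.1 : ℂ) - Complex.I * k.2) / ((k.1 : ℂ) + Complex.I * k.2) with hMS
  have hMS1 : ∀ k, ‖MS k‖ ≤ 1 := by
    intro k
    by_cases hk0 : k = 0
    · simp [hMS, hk0]
    · simp only [hMS, if_neg hk0]
      obtain ⟨e1, e2⟩ := hden k hk0
      rw [norm_div, e2, div_self (by linarith)]
  obtain ⟨S, hS⟩ := exists_op MS 1 hMS1
  set MB : ℤ × ℤ → ℂ := fun k => if k = 0 then 0 else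
    2 / (Complex.I * ((k.1 : ℂ) + Complex.I * k.2)) with hMB
  have hMB1 : ∀ k, ‖MB k‖ ≤ 2 := by
    intro k
    by_cases hk0 : k = 0
    · simp [hMB, hk0]
    · simp only [hMB, if_neg hk0]
      obtain ⟨e1, e2⟩ := hden k hk0
      rw [norm_div, norm_mul, Complex.norm_I, one_mul, Complex.norm_ofNat,
        div_le_iff₀ (by linarith)]
      linarith
  obtain ⟨B, hB⟩ := exists_op MB 2 hMB1
  obtain ⟨k1, hk10, hk11, hcon⟩ := l2_contraction m k0 h0 hk hm S MS hS hMS1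
  set R : CP → CP := fun F : CP => m * S F - coef (m * S F) 0 • (1 : CP) with hR
  set a : CP := dZ m with ha
  set F : ℕ → CP := fun j => R^[j] a with hF
  have hone : ∀ k : ℤ × ℤ, coef (1 : CP) k = if k = 0 then 1 else 0 := by
    intro k; rw [← F1.ex_zero, coef_ex]
  have hRcoef : ∀ (G : CP) (k : ℤ × ℤ), coef (R G) k =
      if k = 0 then 0 else coef (m * S G) k := by
    intro G k
    have e1 : R G = m * S G + (-coef (m * S G) 0) • (1 : CP) := by
      simp only [hR]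
      rw [neg_smul, sub_eq_add_neg]
    rw [e1, coef_add, coef_smul, hone]
    by_cases hk0 : k = 0
    · subst hk0; simp
    · simp [hk0]
  have ha0 : coef a 0 = 0 := by
    rw [ha, coef_dZ]; simp
  have hF0 : ∀ j, coef (F j) 0 = 0 := by
    intro j
    cases j with
    | zero => exact ha0
    | succ j =>
      simp only [hF, Function.iterate_succ_apply']
      rw [hRcoef]; simp
  -- the solution for the parameter t
  have hbd : ∀ s : ℕ, ∃ A : ℝ, ∀ j k, (1 + sz k) ^ s * ‖coef (F j) k‖ ≤ A * k1 ^ j :=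
    fun s => hcon s a
  obtain ⟨A0, hA0⟩ := hbd 0
  have hA0' : ∀ j k, ‖coef (F j) k‖ ≤ A0 * k1 ^ j := by
    intro j k; simpa using hA0 j k
  have hA0nn : 0 ≤ A0 := by have := (norm_nonneg _).trans (hA0' 0 0); simpa using this
  have sg : ∀ A : ℝ, Summable fun j : ℕ => A * k1 ^ j :=
    fun A => (summable_geometric_of_lt_one hk10 hk11).mul_left A
  have hser : ∀ t : ℝ, 0 ≤ t → t ≤ 1 → ∃ Ω : CP,
      ∀ k, coef Ω k = ∑' j, (t : ℂ) ^ j * coef (F j) k := by
    intro t ht0 ht1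
    refine exists_ser _ fun s => ?_
    obtain ⟨A, hA⟩ := hbd (s + 4)
    refine Summable.of_nonneg_of_le (fun k => by have := sz_nonneg k; positivity) (fun k => ?_)
      (sum4.mul_left (∑' j, A * k1 ^ j))
    have hs := sz_nonneg k
    have hpos : (0 : ℝ) < 1 + sz k := by linarith
    have hn : ‖∑' j, (t : ℂ) ^ j * coef (F j) k‖ ≤
        ∑' j, (A * k1 ^ j) * ((1 + sz k) ^ (s + 4))⁻¹ := by
      refine tsum_of_norm_bounded ((sg A).mul_right _).hasSum (fun j => ?_)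
      rw [norm_mul, norm_pow, Complex.norm_of_nonneg ht0, ← div_eq_mul_inv,
        le_div_iff₀ (by positivity)]
      calc t ^ j * ‖coef (F j) k‖ * (1 + sz k) ^ (s + 4) ≤
            1 * ‖coef (F j) k‖ * (1 + sz k) ^ (s + 4) := by
            apply mul_le_mul_of_nonneg_right _ (by positivity)
            exact mul_le_mul_of_nonneg_right (pow_le_one₀ ht0 ht1) (norm_nonneg _)
        _ = (1 + sz k) ^ (s + 4) * ‖coef (F j) k‖ := by ring
        _ ≤ _ := hA j k
    rw [tsum_mul_right] at hn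
    calc (1 + sz k) ^ s * ‖∑' j, (t : ℂ) ^ j * coef (F j) k‖ ≤
          (1 + sz k) ^ s * ((∑' j, A * k1 ^ j) * ((1 + sz k) ^ (s + 4))⁻¹) :=
          mul_le_mul_of_nonneg_left hn (by positivity)
      _ = (∑' j, A * k1 ^ j) * ((1 + sz k) ^ 4)⁻¹ := by
          rw [pow_add]; field_simp
  choose! Ω hΩ using hser
  -- coefficients of m * S Ω
  have hSF : ∀ j k, ‖coef (S (F j)) k‖ ≤ A0 * k1 ^ j := by
    intro j k
    rw [hS, norm_mul]
    calc ‖MS k‖ * ‖coef (F j) k‖ ≤ 1 * ‖coef (F j) k‖ :=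
          mul_le_mul_of_nonneg_right (hMS1 k) (norm_nonneg _)
      _ ≤ _ := by rw [one_mul]; exact hA0' j k
  have hmS : ∀ t : ℝ, 0 ≤ t → t ≤ 1 → ∀ k,
      coef (m * S (Ω t)) k = ∑' j, (t : ℂ) ^ j * coef (m * S (F j)) k := by
    intro t ht0 ht1 k
    refine ser_mul (fun j => S (F j)) (S (Ω t)) A0 k1 t hk10 hk11 ht0 ht1 hSF ?_ m k
    intro k
    rw [hS, hΩ t ht0 ht1, ← tsum_mul_left]
    refine tsum_congr fun j => ?_
    rw [hS]; ring
  have sΩ : ∀ t : ℝ, 0 ≤ t → t ≤ 1 → ∀ k, Summable fun j => (t : ℂ) ^ j * coef (F j) k := by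
    intro t ht0 ht1 k
    refine Summable.of_norm_bounded (sg A0) (fun j => ?_)
    rw [norm_mul, norm_pow, Complex.norm_of_nonneg ht0]
    calc t ^ j * ‖coef (F j) k‖ ≤ 1 * ‖coef (F j) k‖ :=
          mul_le_mul_of_nonneg_right (pow_le_one₀ ht0 ht1) (norm_nonneg _)
      _ ≤ _ := by rw [one_mul]; exact hA0' _ _
  -- Ω t = a + t (m S Ω - mean)
  have hfix : ∀ t : ℝ, 0 ≤ t → t ≤ 1 → ∀ k, k ≠ 0 →
      coef (Ω t) k = coef a k + t * coef (m * S (Ω t)) k := by
    intro t ht0 ht1 k hk0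
    rw [hΩ t ht0 ht1, (sΩ t ht0 ht1 k).tsum_eq_zero_add, hmS t ht0 ht1, ← tsum_mul_left]
    congr 1
    · simp [hF]
    · refine tsum_congr fun j => ?_
      have : coef (F (j + 1)) k = coef (m * S (F j)) k := by
        simp only [hF, Function.iterate_succ_apply']
        rw [hRcoef, if_neg hk0]
      rw [this, pow_succ]; ring
  have hΩ0 : ∀ t : ℝ, 0 ≤ t → t ≤ 1 → coef (Ω t) 0 = 0 := by
    intro t ht0 ht1
    rw [hΩ t ht0 ht1]
    simp [hF0]
  -- σ t
  set σ : ℝ → CP := fun t => (t : ℂ) • B (Ω t) with hσ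
  have hzb : ∀ t : ℝ, 0 ≤ t → t ≤ 1 → dZb (σ t) = (t : ℂ) • Ω t := by
    intro t ht0 ht1
    refine coef_inj fun k => ?_
    rw [coef_dZb, hσ]
    simp only
    rw [coef_smul, coef_smul, hB]
    by_cases hk0 : k = 0
    · subst hk0
      rw [hΩ0 t ht0 ht1]; simp
    · simp only [hMB, if_neg hk0]
      have h1 : (k.1 : ℂ) + Complex.I * k.2 ≠ 0 := by
        intro h
        have := (hden k hk0).1
        rw [h, norm_zero] at this
        linarith
      have h2 := Complex.I_ne_zero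
      field_simp
  have hz : ∀ t : ℝ, dZ (σ t) = (t : ℂ) • S (Ω t) := by
    intro t
    refine coef_inj fun k => ?_
    rw [coef_dZ, hσ]
    simp only
    rw [coef_smul, coef_smul, hB, hS]
    by_cases hk0 : k = 0
    · subst hk0
      simp [hMS]
    · simp only [hMB, hMS, if_neg hk0]
      have h1 : (k.1 : ℂ) + Complex.I * k.2 ≠ 0 := by
        intro h
        have := (hden k hk0).1
        rw [h, norm_zero] at this
        linarith
      have h2 := Complex.I_ne_zero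
      field_simp
  -- equation with a constant
  have heq : ∀ t : ℝ, 0 ≤ t → t ≤ 1 → dZb (σ t) =
      (t : ℂ) • (m * dZ (σ t)) + (t : ℂ) • dZ m - ((t : ℂ) ^ 2 * coef (m * S (Ω t)) 0) • (1 : CP) := by
    intro t ht0 ht1
    rw [hzb t ht0 ht1, hz]
    refine coef_inj fun k => ?_
    have e1 : (t : ℂ) • (m * (t : ℂ) • S (Ω t)) + (t : ℂ) • dZ m -
        ((t : ℂ) ^ 2 * coef (m * S (Ω t)) 0) • (1 : CP) =
        ((t : ℂ) ^ 2) • (m * S (Ω t)) + ((t : ℂ) • dZ m +
        (-((t : ℂ) ^ 2 * coef (m * S (Ω t)) 0)) • (1 : CP)) := by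
      rw [mul_smul_comm, smul_smul, ← sq, neg_smul]
      abel
    rw [e1, coef_add, coef_add, coef_smul, coef_smul, coef_smul, coef_smul, hone]
    by_cases hk0 : k = 0
    · subst hk0
      rw [hΩ0 t ht0 ht1, ← ha, ha0]; simp
    · rw [hfix t ht0 ht1 k hk0, if_neg hk0, ← ha]
      ring
  -- the constant times the mean of e^σ vanishes
  have hprod : ∀ t : ℝ, 0 ≤ t → t ≤ 1 →
      ((t : ℂ) ^ 2 * coef (m * S (Ω t)) 0) * coef (ee (σ t)) 0 = 0 := by
    intro t ht0 ht1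
    set γ := (t : ℂ) ^ 2 * coef (m * S (Ω t)) 0 with hγ
    have e1 : dZb (ee (σ t)) = (t : ℂ) • dZ (m * ee (σ t)) + (-γ) • ee (σ t) := by
      rw [dZb_ee, heq t ht0 ht1, dZ_mul, dZ_ee, sub_mul, add_mul, smul_mul_assoc, smul_mul_assoc,
        smul_mul_assoc, one_mul, smul_add, neg_smul, mul_assoc]
      abel
    have e2 := congrArg (fun G : CP => coef G 0) e1
    simp only [coef_add, coef_smul, coef_dZb, coef_dZ] at e2
    simp at e2
    rcases e2 with h | h <;> simp [h]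
  -- for small t the mean of e^σ is not zero
  obtain ⟨C, hC0, hC⟩ : ∃ C : ℝ, 0 ≤ C ∧ ∀ t : ℝ, 0 ≤ t → t ≤ 1 → ∀ z,
      ‖(σ t : ℝ × ℝ → ℂ) z‖ ≤ t * C := by
    obtain ⟨A, hA⟩ := hbd 4
    have hAnn : 0 ≤ A := by
      have h1 := hA 0 0
      have h2 := sz_nonneg 0
      have : 0 ≤ (1 + sz 0) ^ 4 * ‖coef (F 0) 0‖ := by positivity
      simpa using this.trans h1
    refine ⟨∑' k, 2 * ((∑' j, A * k1 ^ j) * ((1 + sz k) ^ 4)⁻¹), tsum_nonneg fun k => ?_, ?_⟩
    · have := sz_nonneg k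
      have h3 : 0 ≤ ∑' j, A * k1 ^ j := tsum_nonneg fun j => by positivity
      positivity
    intro t ht0 ht1 z
    have h1 := norm_le_tsum (B (Ω t)) z
    have h2 : ((σ t : CP) : ℝ × ℝ → ℂ) z = (t : ℂ) * (B (Ω t) : ℝ × ℝ → ℂ) z := rfl
    rw [h2, norm_mul, Complex.norm_of_nonneg ht0]
    apply mul_le_mul_of_nonneg_left _ ht0
    refine h1.trans ?_
    refine (F2.summable_norm (B (Ω t))).tsum_le_tsum (fun k => ?_)
      ((sum4.mul_left _).mul_left 2)
    have hs := sz_nonneg k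
    rw [hB, norm_mul]
    apply mul_le_mul (hMB1 k) _ (norm_nonneg _) (by norm_num)
    rw [hΩ t ht0 ht1, ← tsum_mul_right]
    refine tsum_of_norm_bounded ((sg A).mul_right _).hasSum (fun j => ?_)
    rw [norm_mul, norm_pow, Complex.norm_of_nonneg ht0, ← div_eq_mul_inv,
      le_div_iff₀ (by positivity)]
    calc t ^ j * ‖coef (F j) k‖ * (1 + sz k) ^ 4 ≤
          1 * ‖coef (F j) k‖ * (1 + sz k) ^ 4 := by
          apply mul_le_mul_of_nonneg_right _ (by positivity)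
          exact mul_le_mul_of_nonneg_right (pow_le_one₀ ht0 ht1) (norm_nonneg _)
      _ = (1 + sz k) ^ 4 * ‖coef (F j) k‖ := by ring
      _ ≤ _ := hA j k
  have hsmall : ∀ t : ℝ, 0 < t → t < 1 / (4 * (C + 1)) →
      ∑' j, (t : ℂ) ^ j * coef (m * S (F j)) 0 = 0 := by
    intro t ht htlt
    have hC1 : 0 < 4 * (C + 1) := by linarith
    have ht1 : t ≤ 1 := by
      have : 1 / (4 * (C + 1)) ≤ 1 := by
        rw [div_le_one hC1]; linarith
      linarith
    have htC : t * C ≤ 1 / 4 := by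
      rw [lt_div_iff₀ hC1] at htlt
      nlinarith
    have hne : coef (ee (σ t)) 0 ≠ 0 := by
      have e1 : ∀ z, ‖((ee (σ t) + (-1 : ℂ) • (1 : CP) : CP) : ℝ × ℝ → ℂ) z‖ ≤ 1 / 2 := by
        intro z
        have e2 : ((ee (σ t) + (-1 : ℂ) • (1 : CP) : CP) : ℝ × ℝ → ℂ) z =
          Complex.exp ((σ t : ℝ × ℝ → ℂ) z) + (-1 : ℂ) * 1 := rfl
        rw [e2]
        have e3 := hC t ht.le ht1 z
        have e4 : ‖(σ t : ℝ × ℝ → ℂ) z‖ ≤ 1 := by linarith
        have e5 := Complex.norm_exp_sub_one_le e4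
        have e6 : Complex.exp ((σ t : ℝ × ℝ → ℂ) z) + (-1 : ℂ) * 1 =
          Complex.exp ((σ t : ℝ × ℝ → ℂ) z) - 1 := by ring
        rw [e6]
        linarith
      have e2 := coef_le _ _ e1 0
      rw [coef_add, coef_smul, hone, if_pos rfl] at e2
      intro h
      rw [h] at e2
      norm_num at e2
    have h1 := hprod t ht.le ht1
    rcases mul_eq_zero.mp h1 with h2 | h2
    · rcases mul_eq_zero.mp h2 with h3 | h3
      · exfalso
        have : (t : ℂ) ≠ 0 := by exact_mod_cast ht.ne'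
        exact this (by simpa using h3)
      · rw [← hmS t ht.le ht1]; exact h3
    · exact absurd h2 hne
  -- identity theorem
  have hcj : ∀ j, coef (m * S (F j)) 0 = 0 := by
    refine ident _ ((∑' l, ‖coef m l‖) * A0) k1 hk10 hk11 ?_ (1 / (4 * (C + 1)))
      (by positivity) hsmall
    intro j
    rw [coef_mul]
    refine tsum_of_norm_bounded (g := fun l => ‖coef m l‖ * (A0 * k1 ^ j)) ?_ (fun l => ?_)
    · have := (F2.summable_norm m).hasSum.mul_right (A0 * k1 ^ j)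
      rw [mul_assoc]
      exact this
    · rw [norm_mul]
      exact mul_le_mul_of_nonneg_left (hSF j _) (norm_nonneg _)
  refine ⟨σ 1, ?_⟩
  have h1 := heq 1 zero_le_one le_rfl
  have h2 : coef (m * S (Ω 1)) 0 = 0 := by
    rw [hmS 1 zero_le_one le_rfl]
    simp [hcj]
  rw [h2] at h1
  simpa using h1

end Vale.Agent.P205
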