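import Vale.Agent.P205.CoordsAux
import Vale.Agent.P205.Sigma

open scoped ContDiff ComplexConjugate
open Real Filter

namespace Vale.Agent.P205

theorem diag_coords (g11 g12 g22 : ℝ × ℝ → ℝ) (h11 : ContDiff ℝ ∞ g11) (h12 : ContDiff ℝ ∞ g12)
    (h22 : ContDiff ℝ ∞ g22)
    (p11 : ∀ x y, g11 (x + 2 * π, y) = g11 (x, y) ∧ g11 (x, y + 2 * π) = g11 (x, y))
    (p12 : ∀ x y, g12 (x + 2 * π, y) = g12 (x, y) ∧ g12 (x, y + 2 * π) = g12 (x, y))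
    (p22 : ∀ x y, g22 (x + 2 * π, y) = g22 (x, y) ∧ g22 (x, y + 2 * π) = g22 (x, y))
    (hpos : ∀ z, 0 < g11 z ∧ g12 z ^ 2 < g11 z * g22 z) :
    ∃ (Φ : ℝ × ℝ → ℝ × ℝ) (lE lG : CP) (m : ℤ), ContDiff ℝ ∞ Φ ∧
    (∀ z, Φ (z + (2 * π, 0)) = Φ z + (2 * π, 2 * π * m)) ∧
    (∀ z, Φ (z + (0, 2 * π)) = Φ z + (0, 2 * π)) ∧
    IsRl lE ∧ IsRl lG ∧ dX (dY (lE - lG)) ≠ 0 ∧
    ∀ z v : ℝ × ℝ, g11 z * v.1 ^ 2 + 2 * g12 z * v.1 * v.2 + g22 z * v.2 ^ 2 =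
      Real.exp (((lE : ℝ × ℝ → ℂ) (Φ z)).re) * (fderiv ℝ Φ z v).1 ^ 2 +
      Real.exp (((lG : ℝ × ℝ → ℂ) (Φ z)).re) * (fderiv ℝ Φ z v).2 ^ 2 :=
  diag_coords_of (fun m k0 h0 hk hm => exists_sigma m k0 h0 hk hm) g11 g12 g22 h11 h12 h22
    p11 p12 p22 hpos

end Vale.Agent.P205
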