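import Mathlib

open scoped ContDiff
open Filter Topology

namespace Vale.Agent.P205

theorem hadamard (w : ℝ × ℝ → ℝ × ℝ) (hw : ContDiff ℝ ∞ w) (L : (ℝ × ℝ) ≃L[ℝ] (ℝ × ℝ)) (C : ℝ)
    (hper : ∀ z, ‖w z - L z‖ ≤ C) (hinv : ∀ z, Function.Bijective (fderiv ℝ w z)) :
    ∃ v : ℝ × ℝ → ℝ × ℝ, ContDiff ℝ ∞ v ∧ (∀ z, v (w z) = z) ∧ ∀ z, w (v z) = z := by
  have hne : (∞ : WithTop ℕ∞) ≠ 0 := by simp
  have hderiv : ∀ z, ∃ f' : (ℝ × ℝ) ≃L[ℝ] (ℝ × ℝ), HasFDerivAt w (f' : ℝ × ℝ →L[ℝ] ℝ × ℝ) z := by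
    intro z
    refine ⟨ContinuousLinearEquiv.ofBijective (fderiv ℝ w z)
      (LinearMap.ker_eq_bot.2 (hinv z).1) (LinearMap.range_eq_top.2 (hinv z).2), ?_⟩
    have h1 : HasFDerivAt w (fderiv ℝ w z) z := (hw.differentiable hne z).hasFDerivAt
    convert! h1 using 1
  have hloc : IsLocalHomeomorph w := by
    intro z
    obtain ⟨f', hf'⟩ := hderiv z
    exact ⟨hw.contDiffAt.toOpenPartialHomeomorph w hf' hne,
      hw.contDiffAt.mem_toOpenPartialHomeomorph_source hf' hne, rfl⟩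
  have hcont : Continuous w := hw.continuous
  have hproper : IsProperMap w := by
    rw [isProperMap_iff_tendsto_cocompact]
    refine ⟨hcont, ?_⟩
    have h1 : Tendsto (fun z : ℝ × ℝ => ‖L z‖ - C) (cocompact (ℝ × ℝ)) atTop := by
      refine tendsto_atTop_add_const_right _ (-C) ?_
      exact tendsto_norm_cocompact_atTop.comp L.toHomeomorph.isClosedEmbedding.tendsto_cocompact
    suffices h0 : Tendsto (fun z => ‖w z‖) (cocompact (ℝ × ℝ)) atTop by
      rw [tendsto_norm_atTop_iff_cobounded, Metric.cobounded_eq_cocompact] at h0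
      exact h0
    refine tendsto_atTop_mono (fun z => ?_) h1
    have h2 : ‖L z‖ ≤ ‖w z‖ + ‖w z - L z‖ := by
      have : L z = w z - (w z - L z) := by abel
      calc ‖L z‖ = ‖w z - (w z - L z)‖ := by rw [← this]
        _ ≤ _ := norm_sub_le _ _
    have := hper z
    linarith
  have hcov : IsCoveringMap w := by
    rw [isCoveringMap_iff_isCoveringMapOn_univ]
    refine hproper.isClosedMap.isCoveringMapOn_of_isLocalHomeomorphOn (fun x _ => ?_) ?_
    · refine (hproper.isCompact_preimage isCompact_singleton).finite ?_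
      exact IsDiscrete.of_openPartialHomeomorph w subset_rfl (fun e _ => by
        obtain ⟨φ, h1, h2⟩ := hloc e
        exact ⟨φ, h1, h2.symm⟩)
    · exact fun e _ => hloc e
  -- section
  obtain ⟨σ, ⟨hσ1, hσ2⟩, -⟩ := hcov.existsUnique_continuousMap_lifts
    (ContinuousMap.id (ℝ × ℝ)) (w 0) 0 rfl
  have hσw : ∀ z, σ (w z) = z := by
    have := hcov.eq_of_comp_eq (g₁ := fun z => σ (w z)) (g₂ := id) (σ.continuous.comp hcont)
      continuous_id (by
        funext z
        exact congrFun hσ2 (w z)) 0 (by simpa using hσ1)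
    intro z
    exact congrFun this z
  have hwσ : ∀ z, w (σ z) = z := fun z => congrFun hσ2 z
  refine ⟨σ, ?_, hσw, hwσ⟩
  let e : (ℝ × ℝ) ≃ₜ (ℝ × ℝ) :=
    { toFun := w, invFun := σ, left_inv := hσw, right_inv := hwσ,
      continuous_toFun := hcont, continuous_invFun := σ.continuous }
  choose f' hf' using hderiv
  exact e.contDiff_symm (f₀' := f') hf' hw

end Vale.Agent.P205
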