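import Vale.Agent.P205.Defs

open scoped ContDiff
open Real Filter

namespace Vale.Agent.P205

namespace Net

/-- the profile -/
noncomputable def om (s t : ℝ) : ℝ := exp (s * cos (2 * π * t))

/-- its mean -/
noncomputable def I0 (s : ℝ) : ℝ := ∫ t in (0 : ℝ)..1, om s t

theorem om_pos (s t : ℝ) : 0 < om s t := exp_pos _

theorem om_per (s t : ℝ) : om s (t + 1) = om s t := by
  unfold om
  have : 2 * π * (t + 1) = 2 * π * t + 2 * π := by ring
  rw [this, cos_add_two_pi]

theorem om_smooth (s : ℝ) : ContDiff ℝ ∞ (om s) := by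
  unfold om
  exact contDiff_exp.comp (contDiff_const.mul (contDiff_cos.comp (contDiff_const.mul contDiff_id)))

theorem om_cont (s : ℝ) : Continuous (om s) := (om_smooth s).continuous

theorem om_neg (s t : ℝ) : om s (t + 1 / 2) = om (-s) t := by
  unfold om
  have : 2 * π * (t + 1 / 2) = 2 * π * t + π := by ring
  rw [this, cos_add_pi]
  congr 1
  ring

theorem om_inv (s t : ℝ) : (om s t)⁻¹ = om (-s) t := by
  unfold om
  rw [← exp_neg]
  congr 1
  ring

theorem I0_neg (s : ℝ) : I0 (-s) = I0 s := by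
  unfold I0
  have h1 : ∫ t in (0 : ℝ)..1, om (-s) t = ∫ t in (0 : ℝ)..1, om s (t + 1 / 2) := by
    refine intervalIntegral.integral_congr fun t _ => (om_neg s t).symm
  rw [h1, intervalIntegral.integral_comp_add_right (fun t => om s t)]
  have hp : Function.Periodic (om s) 1 := fun t => om_per s t
  have := hp.intervalIntegral_add_eq (0 + 1 / 2) 0
  rw [zero_add 1] at this
  rw [← this]
  norm_num

theorem I0_cont : Continuous I0 := by
  unfold I0
  refine intervalIntegral.continuous_parametric_intervalIntegral_of_continuous' ?_ 0 1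
  unfold Function.uncurry om
  fun_prop

theorem I0_zero : I0 0 = 1 := by
  unfold I0 om
  simp

theorem I0_lower (s : ℝ) : 1 + s ^ 2 / 8 ≤ I0 s := by
  have hcos : ∫ t in (0 : ℝ)..1, cos (2 * π * t) ^ 2 = 1 / 2 := by
    have h1 := intervalIntegral.integral_comp_mul_left (a := 0) (b := 1) (fun x => cos x ^ 2)
      (c := 2 * π) (by positivity)
    rw [h1, integral_cos_sq]
    simp
    field_simp
  have h2 : ∀ t, 2 + (s * cos (2 * π * t)) ^ 2 / 2 ≤ om s t + om (-s) t := by
    intro t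
    unfold om
    set x := s * cos (2 * π * t) with hx
    have hx' : -s * cos (2 * π * t) = -x := by rw [hx]; ring
    rw [hx']
    rcases le_total 0 x with h | h
    · have h3 := Real.quadratic_le_exp_of_nonneg h
      have h4 := Real.add_one_le_exp (-x)
      linarith
    · have h3 := Real.quadratic_le_exp_of_nonneg (x := -x) (by linarith)
      have h4 := Real.add_one_le_exp x
      nlinarith
  have h5 : ∫ t in (0 : ℝ)..1, (2 + (s * cos (2 * π * t)) ^ 2 / 2) ≤
      ∫ t in (0 : ℝ)..1, (om s t + om (-s) t) := by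
    refine intervalIntegral.integral_mono_on (by norm_num) ?_ ?_ fun t _ => h2 t
    · exact (by fun_prop : Continuous fun t : ℝ => 2 + (s * cos (2 * π * t)) ^ 2 / 2).intervalIntegrable _ _
    · exact ((om_cont s).add (om_cont (-s))).intervalIntegrable _ _
  rw [intervalIntegral.integral_add ((om_cont s).intervalIntegrable _ _)
    ((om_cont (-s)).intervalIntegrable _ _)] at h5
  have h6 : ∫ t in (0 : ℝ)..1, (2 + (s * cos (2 * π * t)) ^ 2 / 2) = 2 + s ^ 2 / 2 * (1 / 2) := by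
    have : (fun t : ℝ => 2 + (s * cos (2 * π * t)) ^ 2 / 2) =
        fun t => 2 + s ^ 2 / 2 * cos (2 * π * t) ^ 2 := by funext t; ring
    rw [this, intervalIntegral.integral_add, intervalIntegral.integral_const_mul, hcos]
    · simp
    · exact continuous_const.intervalIntegrable _ _
    · exact (by fun_prop : Continuous fun t : ℝ => s ^ 2 / 2 * cos (2 * π * t) ^ 2).intervalIntegrable _ _
  rw [h6] at h5
  have h7 : ∫ t in (0 : ℝ)..1, om (-s) t = I0 s := I0_neg s
  rw [h7] at h5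
  have h8 : ∫ t in (0 : ℝ)..1, om s t = I0 s := rfl
  rw [h8] at h5
  linarith

theorem exists_s (K : ℝ) (hK : 1 < K) : ∃ s : ℝ, 0 < s ∧ I0 s ^ 2 = K := by
  have hc : Continuous fun s => I0 s ^ 2 := I0_cont.pow 2
  have hb : K ≤ I0 (8 * K) ^ 2 := by
    have h1 := I0_lower (8 * K)
    have h2 : K ≤ 1 + (8 * K) ^ 2 / 8 := by nlinarith
    nlinarith
  have h0 : I0 0 ^ 2 ≤ K := by rw [I0_zero]; linarith
  obtain ⟨s, hs, hs'⟩ := intermediate_value_Icc (by linarith : (0 : ℝ) ≤ 8 * K) hc.continuousOn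
    ⟨h0, hb⟩
  refine ⟨s, lt_of_le_of_ne hs.1 ?_, hs'⟩
  rintro rfl
  simp only [I0_zero] at hs'
  linarith

theorem I0_pos (s : ℝ) : 0 < I0 s := by
  have := I0_lower s
  nlinarith [sq_nonneg s]
/-- primitive -/
noncomputable def prim (f : ℝ → ℝ) (t : ℝ) : ℝ := ∫ u in (0 : ℝ)..t, f u

theorem prim_deriv {f : ℝ → ℝ} (hf : Continuous f) (t : ℝ) : HasDerivAt (prim f) (f t) t :=
  intervalIntegral.integral_hasDerivAt_right (hf.intervalIntegrable _ _)
    (hf.stronglyMeasurableAtFilter _ _) hf.continuousAt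

theorem prim_smooth {f : ℝ → ℝ} (hf : ContDiff ℝ ∞ f) : ContDiff ℝ ∞ (prim f) := by
  rw [contDiff_infty_iff_deriv]
  refine ⟨fun t => (prim_deriv hf.continuous t).differentiableAt, ?_⟩
  have : deriv (prim f) = f := funext fun t => (prim_deriv hf.continuous t).deriv
  rwa [this]

theorem prim_add {f : ℝ → ℝ} (hf : Continuous f) (hp : ∀ t, f (t + 1) = f t) (t : ℝ) :
    prim f (t + 1) = prim f t + ∫ u in (0 : ℝ)..1, f u := by
  unfold prim
  have hp' : Function.Periodic f 1 := hp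
  have h1 := hp'.intervalIntegral_add_eq t 0
  rw [zero_add] at h1
  rw [← h1, intervalIntegral.integral_add_adjacent_intervals (hf.intervalIntegrable _ _)
    (hf.intervalIntegrable _ _)]

/-- lift a real periodic function to the algebra -/
noncomputable def mk (f : ℝ × ℝ → ℝ) (hf : ContDiff ℝ ∞ f)
    (hx : ∀ x y, f (x + 2 * π, y) = f (x, y)) (hy : ∀ x y, f (x, y + 2 * π) = f (x, y)) : CP :=
  ⟨fun z => (f z : ℂ), Complex.ofRealCLM.contDiff.comp hf, fun x y => by simp only [hx],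
    fun x y => by simp only [hy]⟩

theorem mk_apply (f : ℝ × ℝ → ℝ) (hf : ContDiff ℝ ∞ f)
    (hx : ∀ x y, f (x + 2 * π, y) = f (x, y)) (hy : ∀ x y, f (x, y + 2 * π) = f (x, y))
    (z : ℝ × ℝ) : (mk f hf hx hy : ℝ × ℝ → ℂ) z = (f z : ℂ) := rfl

theorem mk_real (f : ℝ × ℝ → ℝ) (hf : ContDiff ℝ ∞ f)
    (hx : ∀ x y, f (x + 2 * π, y) = f (x, y)) (hy : ∀ x y, f (x, y + 2 * π) = f (x, y)) :
    IsRl (mk f hf hx hy) := fun z => by rw [mk_apply, Complex.ofReal_im]

/-- inverse of an increasing function quasi-periodic -/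
theorem exists_inv (Θ Θ' : ℝ → ℝ) (p : ℝ) (hp : 0 < p) (hs : ContDiff ℝ ∞ Θ)
    (hd : ∀ t, HasDerivAt Θ (Θ' t) t) (hpos : ∀ t, 0 < Θ' t) (hper : ∀ t, Θ (t + 1) = Θ t + p) :
    ∃ κ : ℝ → ℝ, ContDiff ℝ ∞ κ ∧ (∀ t, κ (Θ t) = t) ∧ (∀ u, Θ (κ u) = u) ∧
      ∀ u, κ (u + p) = κ u + 1 := by
  have hmono : StrictMono Θ := strictMono_of_deriv_pos fun t => by rw [(hd t).deriv]; exact hpos t
  have hnat : ∀ n : ℕ, ∀ t, Θ (t + n) = Θ t + n * p := by
    intro n
    induction n with
    | zero => intro t; simp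
    | succ n ih =>
      intro t
      have : t + ((n + 1 : ℕ) : ℝ) = (t + n) + 1 := by push_cast; ring
      rw [this, hper, ih]
      push_cast
      ring
  have htop : Tendsto Θ atTop atTop := by
    refine tendsto_atTop_atTop.2 fun b => ?_
    obtain ⟨n, hn⟩ := exists_nat_gt ((b - Θ 0) / p)
    refine ⟨n, fun a ha => ?_⟩
    have h1 := hmono.monotone ha
    have h2 := hnat n 0
    rw [zero_add] at h2
    rw [div_lt_iff₀ hp] at hn
    linarith
  have hbot : Tendsto Θ atBot atBot := by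
    refine tendsto_atBot_atBot.2 fun b => ?_
    obtain ⟨n, hn⟩ := exists_nat_gt ((Θ 0 - b) / p)
    refine ⟨-n, fun a ha => ?_⟩
    have h1 := hmono.monotone ha
    have h2 := hnat n (-n)
    rw [neg_add_cancel] at h2
    rw [div_lt_iff₀ hp] at hn
    linarith
  have hsurj : Function.Surjective Θ := hs.continuous.surjective htop hbot
  let e : ℝ ≃ₜ ℝ := (hmono.orderIsoOfSurjective Θ hsurj).toHomeomorph
  have he : ∀ t, e t = Θ t := fun t => rfl
  have hsymm : ContDiff ℝ ∞ (e.symm : ℝ → ℝ) :=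
    e.contDiff_symm_deriv (f' := Θ') (fun t => (hpos t).ne') (fun t => hd t) hs
  refine ⟨e.symm, hsymm, fun t => ?_, fun u => ?_, fun u => ?_⟩
  · rw [← he, e.symm_apply_apply]
  · rw [← he, e.apply_symm_apply]
  · rw [e.symm_apply_eq, he, hper, ← he, e.apply_symm_apply]

/-- a function of the difference -/
theorem dXdY_ne {F : CP} {h : ℝ → ℝ} (hh : ContDiff ℝ ∞ h)
    (hF : ∀ z : ℝ × ℝ, (F : ℝ × ℝ → ℂ) z = (h (z.2 - z.1) : ℂ))
    (hne : ∃ u v, h u ≠ h v) : dX (dY F) ≠ 0 := by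
  intro h0
  have hh1 : ContDiff ℝ ∞ (deriv h) := (contDiff_infty_iff_deriv.1 hh).2
  have hdh : Differentiable ℝ h := (contDiff_infty_iff_deriv.1 hh).1
  have hdh1 : Differentiable ℝ (deriv h) := (contDiff_infty_iff_deriv.1 hh1).1
  -- derivative of a function of the difference
  have key : ∀ (G : ℝ → ℝ), Differentiable ℝ G → ∀ (z v : ℝ × ℝ),
      fderiv ℝ (fun z : ℝ × ℝ => ((G (z.2 - z.1) : ℝ) : ℂ)) z v
        = ((deriv G (z.2 - z.1) * (v.2 - v.1) : ℝ) : ℂ) := by
    intro G hG z v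
    have h1 : HasFDerivAt (fun z : ℝ × ℝ => z.2 - z.1)
        (ContinuousLinearMap.snd ℝ ℝ ℝ - ContinuousLinearMap.fst ℝ ℝ ℝ) z :=
      hasFDerivAt_snd.sub hasFDerivAt_fst
    have h2 := (hG (z.2 - z.1)).hasDerivAt.comp_hasFDerivAt z h1
    have h3 := Complex.ofRealCLM.hasFDerivAt.comp z h2
    have h4 : fderiv ℝ (fun z : ℝ × ℝ => ((G (z.2 - z.1) : ℝ) : ℂ)) z = _ := h3.fderiv
    rw [h4]
    simp
  have hY : ∀ z : ℝ × ℝ, (dY F : ℝ × ℝ → ℂ) z = ((deriv h (z.2 - z.1) : ℝ) : ℂ) := by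
    intro z
    rw [dY_apply]
    have : (F : ℝ × ℝ → ℂ) = fun z => (h (z.2 - z.1) : ℂ) := funext hF
    rw [this, key h hdh]
    simp
  have hXY : ∀ z : ℝ × ℝ, (dX (dY F) : ℝ × ℝ → ℂ) z = ((-deriv (deriv h) (z.2 - z.1) : ℝ) : ℂ) := by
    intro z
    rw [dX_apply]
    have : (dY F : ℝ × ℝ → ℂ) = fun z => ((deriv h (z.2 - z.1) : ℝ) : ℂ) := funext hY
    rw [this, key (deriv h) hdh1]
    simp
  have h2 : ∀ u, deriv (deriv h) u = 0 := by
    intro u
    have h3 := hXY (0, u)
    rw [h0] at h3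
    have h4 : ((0 : CP) : ℝ × ℝ → ℂ) (0, u) = 0 := rfl
    rw [h4] at h3
    simp only [sub_zero] at h3
    have h5 : -deriv (deriv h) u = 0 := by exact_mod_cast h3.symm
    linarith
  have h3 : ∀ u, deriv h u = deriv h 0 := fun u => is_const_of_deriv_eq_zero hdh1 h2 u 0
  have h4 : ∀ u, h u - deriv h 0 * u = h 0 - deriv h 0 * 0 := by
    intro u
    refine is_const_of_deriv_eq_zero (f := fun u => h u - deriv h 0 * u) ?_ ?_ u 0
    · exact hdh.sub (differentiable_id.const_mul _)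
    · intro x
      have h5 : HasDerivAt (fun u => h u - deriv h 0 * u) (deriv h x - deriv h 0 * 1) x :=
        (hdh x).hasDerivAt.sub ((hasDerivAt_id x).const_mul _)
      rw [h5.deriv, h3 x]
      ring
  -- periodicity
  have h5 : h (2 * π) = h 0 := by
    have h6 := F.perY 0 0
    rw [hF, hF] at h6
    simp only [zero_add, sub_zero] at h6
    exact_mod_cast h6
  have h6 : deriv h 0 = 0 := by
    have h7 := h4 (2 * π)
    rw [h5] at h7
    have h8 : deriv h 0 * (2 * π) = 0 := by linarith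
    rcases mul_eq_zero.1 h8 with h9 | h9
    · exact h9
    · exact absurd h9 (by positivity)
  obtain ⟨u, v, huv⟩ := hne
  apply huv
  have h7 := h4 u
  have h8 := h4 v
  rw [h6] at h7 h8
  linarith

end Net

open Net in
theorem exists_net (p q : ℝ) (hp : 0 < p) (hq0 : 0 < q) (hq1 : q ≤ 1) :
    ∃ (φ θ : ℝ × ℝ → ℝ × ℝ) (le lg : CP), ContDiff ℝ ∞ φ ∧ ContDiff ℝ ∞ θ ∧
    (∀ z, θ (φ z) = z) ∧ (∀ z, φ (θ z) = z) ∧
    (∀ z, φ (z + (0, 1)) = φ z + (0, 2 * π)) ∧ (∀ z, φ (z + (p, q)) = φ z + (2 * π, 0)) ∧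
    IsRl le ∧ IsRl lg ∧ dX (dY (le - lg)) ≠ 0 ∧
    ∀ z v : ℝ × ℝ, v.1 ^ 2 + v.2 ^ 2 =
      Real.exp (((le : ℝ × ℝ → ℂ) (φ z)).re) * (fderiv ℝ φ z v).1 ^ 2 +
      Real.exp (((lg : ℝ × ℝ → ℂ) (φ z)).re) * (fderiv ℝ φ z v).2 ^ 2 := by
  obtain ⟨c, hc⟩ : ∃ c : ℝ, c = (1 + q) / p := ⟨_, rfl⟩
  have hcpos : 0 < c := by rw [hc]; positivity
  have hcp : c * p = 1 + q := by rw [hc]; field_simp
  have hc1 : 0 < 1 + c ^ 2 := by positivity
  obtain ⟨s, hs, hsI⟩ := exists_s (1 + q * (1 + c ^ 2)) (by nlinarith [mul_pos hq0 hc1])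
  have hI := I0_pos s
  obtain ⟨d, hd⟩ : ∃ d : ℝ → ℝ, d = fun t => c / I0 s * om s t := ⟨_, rfl⟩
  have hdpos : ∀ t, 0 < d t := fun t => by
    rw [hd]; exact mul_pos (div_pos hcpos hI) (om_pos s t)
  have hdsm : ContDiff ℝ ∞ d := by rw [hd]; exact contDiff_const.mul (om_smooth s)
  have hdper : ∀ t, d (t + 1) = d t := fun t => by rw [hd]; simp only [om_per]
  have hdint : ∫ t in (0 : ℝ)..1, d t = c := by
    rw [hd, intervalIntegral.integral_const_mul]
    have : ∫ t in (0 : ℝ)..1, om s t = I0 s := rfl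
    rw [this]
    field_simp
  have hdinv : ∀ t, (d t)⁻¹ = I0 s / c * om (-s) t := fun t => by
    rw [hd, ← om_inv]
    simp only [mul_inv, inv_div]
  have hdinvint : ∫ t in (0 : ℝ)..1, (d t)⁻¹ = I0 s ^ 2 / c := by
    simp only [hdinv]
    rw [intervalIntegral.integral_const_mul]
    have : ∫ t in (0 : ℝ)..1, om (-s) t = I0 s := I0_neg s
    rw [this]
    ring
  obtain ⟨a, ha⟩ : ∃ a : ℝ → ℝ, a = fun t => (d t - c) / (1 + c ^ 2) := ⟨_, rfl⟩
  obtain ⟨g, hg⟩ : ∃ g : ℝ → ℝ, g = fun t => (1 + c * d t) / ((1 + c ^ 2) * d t) := ⟨_, rfl⟩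
  have hasm : ContDiff ℝ ∞ a := by rw [ha]; exact (hdsm.sub contDiff_const).div_const _
  have hgsm : ContDiff ℝ ∞ g := by
    rw [hg]
    exact (contDiff_const.add (contDiff_const.mul hdsm)).div (contDiff_const.mul hdsm)
      fun t => (mul_pos hc1 (hdpos t)).ne'
  have haper : ∀ t, a (t + 1) = a t := fun t => by rw [ha]; simp only [hdper]
  have hgper : ∀ t, g (t + 1) = g t := fun t => by rw [hg]; simp only [hdper]
  have haint : ∫ t in (0 : ℝ)..1, a t = 0 := by
    rw [ha, intervalIntegral.integral_div, intervalIntegral.integral_sub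
      (hdsm.continuous.intervalIntegrable _ _) (continuous_const.intervalIntegrable _ _), hdint]
    simp
  have hgint : ∫ t in (0 : ℝ)..1, g t = p := by
    have h1 : g = fun t => (1 / (1 + c ^ 2)) * ((d t)⁻¹ + c) := by
      rw [hg]; funext t
      have := (hdpos t).ne'
      field_simp
    have h2 : Continuous fun t => (d t)⁻¹ := hdsm.continuous.inv₀ fun t => (hdpos t).ne'
    rw [h1, intervalIntegral.integral_const_mul, intervalIntegral.integral_add
      (h2.intervalIntegrable _ _) (continuous_const.intervalIntegrable _ _), hdinvint, hsI]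
    simp only [intervalIntegral.integral_const, sub_zero, one_smul]
    have h3 : p = (1 + q) / c := by rw [eq_div_iff hcpos.ne']; linarith
    rw [h3]
    field_simp
    ring
  have hψd : ∀ t, HasDerivAt (prim a) (a t) t := prim_deriv hasm.continuous
  have hΓd : ∀ t, HasDerivAt (prim g) (g t) t := prim_deriv hgsm.continuous
  have hψs : ContDiff ℝ ∞ (prim a) := prim_smooth hasm
  have hΓs : ContDiff ℝ ∞ (prim g) := prim_smooth hgsm
  have hψp : ∀ t, prim a (t + 1) = prim a t := fun t => by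
    rw [prim_add hasm.continuous haper, haint, add_zero]
  have hΓp : ∀ t, prim g (t + 1) = prim g t + p := fun t => by
    rw [prim_add hgsm.continuous hgper, hgint]
  obtain ⟨κ, hκ1, hκ2, hκ3, hκ4⟩ := exists_inv (fun t => prim g t + prim a t)
    (fun t => g t + a t) p hp (hΓs.add hψs) (fun t => (hΓd t).add (hψd t)) (fun t => by
      have h1 : g t + a t = (1 + d t ^ 2) / ((1 + c ^ 2) * d t) := by
        rw [hg, ha]
        have := (hdpos t).ne'
        field_simp
        ring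
      rw [h1]
      have := hdpos t
      positivity) (fun t => by rw [hψp, hΓp]; ring)
  have hκ4' : ∀ u, κ (u - p) = κ u - 1 := fun u => by
    have := hκ4 (u - p)
    rw [sub_add_cancel] at this
    linarith
  obtain ⟨D, hD⟩ : ∃ D : ℝ → ℝ, D = fun t => (1 + c * a t) ^ 2 + a t ^ 2 := ⟨_, rfl⟩
  have h1ca : ∀ t, 0 < 1 + c * a t := fun t => by
    have h1 : 1 + c * a t = (1 + c * d t) / (1 + c ^ 2) := by
      rw [ha]; field_simp; ring
    rw [h1]
    have := hdpos t
    positivity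
  have hDpos : ∀ t, 0 < D t := fun t => by
    rw [hD]
    have := h1ca t
    positivity
  have hDsm : ContDiff ℝ ∞ D := by
    rw [hD]; exact ((contDiff_const.add (contDiff_const.mul hasm)).pow 2).add (hasm.pow 2)
  have hDper : ∀ t, D (t + 1) = D t := fun t => by rw [hD]; simp only [haper]
  have hDper' : ∀ t, D (t - 1) = D t := fun t => by
    have := hDper (t - 1); rw [sub_add_cancel] at this; exact this.symm
  have hdper' : ∀ t, d (t - 1) = d t := fun t => by
    have := hdper (t - 1); rw [sub_add_cancel] at this; exact this.symm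
  obtain ⟨η, hη⟩ : ∃ η : ℝ × ℝ → ℝ, η = fun z => κ (p / (2 * π) * (z.2 - z.1)) := ⟨_, rfl⟩
  have hηs : ContDiff ℝ ∞ η := by
    rw [hη]; exact hκ1.comp (contDiff_const.mul (contDiff_snd.sub contDiff_fst))
  have hηx : ∀ x y, η (x + 2 * π, y) = η (x, y) - 1 := fun x y => by
    rw [hη]
    simp only
    rw [← hκ4']
    congr 1
    field_simp
    ring
  have hηy : ∀ x y, η (x, y + 2 * π) = η (x, y) + 1 := fun x y => by
    rw [hη]
    simp only
    rw [← hκ4]
    congr 1
    field_simp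
    ring
  have hpp : (0 : ℝ) < (p / (2 * π)) ^ 2 := by positivity
  have hle_s : ContDiff ℝ ∞ fun z => log ((p / (2 * π)) ^ 2 / D (η z)) :=
    (contDiff_const.div (hDsm.comp hηs) fun z => (hDpos _).ne').log
      fun z => (div_pos hpp (hDpos _)).ne'
  have hlg_s : ContDiff ℝ ∞ fun z => log ((p / (2 * π)) ^ 2 * d (η z) ^ 2 / D (η z)) :=
    ((contDiff_const.mul ((hdsm.comp hηs).pow 2)).div (hDsm.comp hηs) fun z => (hDpos _).ne').log
      fun z => (div_pos (mul_pos hpp (pow_pos (hdpos _) 2)) (hDpos _)).ne'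
  obtain ⟨le, hle⟩ : ∃ le : CP, le = mk (fun z => log ((p / (2 * π)) ^ 2 / D (η z))) hle_s
    (fun x y => by simp only [hηx, hDper']) (fun x y => by simp only [hηy, hDper]) := ⟨_, rfl⟩
  obtain ⟨lg, hlg⟩ : ∃ lg : CP, lg =
    mk (fun z => log ((p / (2 * π)) ^ 2 * d (η z) ^ 2 / D (η z))) hlg_s
    (fun x y => by simp only [hηx, hDper', hdper'])
    (fun x y => by simp only [hηy, hDper, hdper]) := ⟨_, rfl⟩
  have hpi : (0 : ℝ) < 2 * π := by positivity
  obtain ⟨φ, hφ⟩ : ∃ φ : ℝ × ℝ → ℝ × ℝ, φ = fun z =>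
    (2 * π / p * (z.1 - prim a (z.2 - c * z.1)), 2 * π / p * (z.1 + prim g (z.2 - c * z.1))) :=
    ⟨_, rfl⟩
  obtain ⟨θ, hθ⟩ : ∃ θ : ℝ × ℝ → ℝ × ℝ, θ = fun z =>
    (p / (2 * π) * z.1 + prim a (η z), η z + c * (p / (2 * π) * z.1 + prim a (η z))) := ⟨_, rfl⟩
  have hηφ : ∀ z, η (φ z) = z.2 - c * z.1 := fun z => by
    rw [hη, hφ]
    simp only
    rw [← hκ2 (z.2 - c * z.1)]
    congr 1
    rw [hκ2]
    field_simp
    ring
  have hlin : ContDiff ℝ ∞ fun z : ℝ × ℝ => z.2 - c * z.1 :=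
    contDiff_snd.sub (contDiff_const.mul contDiff_fst)
  refine ⟨φ, θ, le, lg, ?_, ?_, ?_, ?_, ?_, ?_, ?_, ?_, ?_, ?_⟩
  · rw [hφ]
    exact (contDiff_const.mul (contDiff_fst.sub (hψs.comp hlin))).prodMk
      (contDiff_const.mul (contDiff_fst.add (hΓs.comp hlin)))
  · rw [hθ]
    have h1 : ContDiff ℝ ∞ fun z : ℝ × ℝ => p / (2 * π) * z.1 + prim a (η z) :=
      (contDiff_const.mul contDiff_fst).add (hψs.comp hηs)
    exact h1.prodMk (hηs.add (contDiff_const.mul h1))
  · intro z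
    rw [hθ]
    simp only [hηφ]
    have h1 : p / (2 * π) * (φ z).1 + prim a (z.2 - c * z.1) = z.1 := by
      rw [hφ]; field_simp; ring
    rw [h1]
    ext <;> simp
  · intro w
    have h1 : (θ w).2 - c * (θ w).1 = η w := by rw [hθ]; simp
    have h2 : (θ w).1 = p / (2 * π) * w.1 + prim a (η w) := by rw [hθ]
    have h3 : prim g (η w) + prim a (η w) = p / (2 * π) * (w.2 - w.1) := by
      rw [hη]; exact hκ3 _
    rw [hφ]
    simp only
    rw [h1, h2]
    have h4 : prim g (η w) = p / (2 * π) * (w.2 - w.1) - prim a (η w) := by linarith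
    rw [h4]
    ext
    · field_simp; ring
    · field_simp; ring
  · intro z
    rw [hφ]
    have h1 : z.2 + 1 - c * z.1 = (z.2 - c * z.1) + 1 := by ring
    simp only [Prod.fst_add, Prod.snd_add, add_zero, h1, hψp, hΓp]
    ext
    · simp
    · simp; field_simp; ring
  · intro z
    rw [hφ]
    have h1 : z.2 + q - c * (z.1 + p) = (z.2 - c * z.1) - 1 := by linarith
    have h2 : ∀ t, prim a (t - 1) = prim a t := fun t => by
      have := hψp (t - 1); rw [sub_add_cancel] at this; exact this.symm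
    have h3 : ∀ t, prim g (t - 1) = prim g t - p := fun t => by
      have := hΓp (t - 1); rw [sub_add_cancel] at this; linarith
    simp only [Prod.fst_add, Prod.snd_add, h1, h2, h3]
    ext
    · simp; field_simp; ring
    · simp
  · rw [hle]; exact mk_real _ _ _ _
  · rw [hlg]; exact mk_real _ _ _ _
  · have hh : ContDiff ℝ ∞ fun u => -(2 * log (d (κ (p / (2 * π) * u)))) := by
      refine (contDiff_const.mul ?_).neg
      exact (hdsm.comp (hκ1.comp (contDiff_const.mul contDiff_id))).log fun u => (hdpos _).ne'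
    refine dXdY_ne hh (fun z => ?_) ?_
    · have h1 : ((le - lg : CP) : ℝ × ℝ → ℂ) z = (le : ℝ × ℝ → ℂ) z - (lg : ℝ × ℝ → ℂ) z := rfl
      rw [h1, hle, hlg, mk_apply, mk_apply, ← Complex.ofReal_sub]
      congr 1
      have h2 := (hDpos (η z)).ne'
      have h3 := (hdpos (η z)).ne'
      have h4 : log (d (η z) ^ 2) = 2 * log (d (η z)) := by rw [log_pow]; norm_num
      have h5 : κ (p / (2 * π) * (z.2 - z.1)) = η z := by rw [hη]
      rw [log_div hpp.ne' h2, log_div (mul_pos hpp (pow_pos (hdpos _) 2)).ne' h2,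
        log_mul hpp.ne' (pow_pos (hdpos _) 2).ne', h4, h5]
      ring
    · have h1 : ∀ t, ∃ u, κ (p / (2 * π) * u) = t := fun t => by
        refine ⟨2 * π / p * (prim g t + prim a t), ?_⟩
        have : p / (2 * π) * (2 * π / p * (prim g t + prim a t)) = prim g t + prim a t := by
          field_simp
        rw [this]
        exact hκ2 t
      obtain ⟨u, hu⟩ := h1 0
      obtain ⟨v, hv⟩ := h1 (1 / 2)
      refine ⟨u, v, ?_⟩
      intro h2
      rw [hu, hv] at h2
      have h3 : log (d 0) = log (d (1 / 2)) := by linarith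
      have h4 := log_injOn_pos (Set.mem_Ioi.2 (hdpos 0)) (Set.mem_Ioi.2 (hdpos (1 / 2))) h3
      rw [hd] at h4
      simp only at h4
      have h5 : om s 0 = om s (1 / 2) := mul_left_cancel₀ (div_pos hcpos hI).ne' h4
      unfold om at h5
      have h6 := exp_injective h5
      have h7 : 2 * π * (1 / 2) = π := by ring
      rw [h7] at h6
      simp only [mul_zero, cos_zero, cos_pi] at h6
      linarith
  · intro z v
    obtain ⟨t, ht⟩ : ∃ t, t = z.2 - c * z.1 := ⟨_, rfl⟩
    have hlinD : HasFDerivAt (fun z : ℝ × ℝ => z.2 - c * z.1)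
        (ContinuousLinearMap.snd ℝ ℝ ℝ - c • ContinuousLinearMap.fst ℝ ℝ ℝ) z :=
      hasFDerivAt_snd.sub (hasFDerivAt_fst.const_smul c)
    have hA := (hψd (z.2 - c * z.1)).comp_hasFDerivAt z hlinD
    have hB := (hΓd (z.2 - c * z.1)).comp_hasFDerivAt z hlinD
    have h1 := (((hasFDerivAt_fst (𝕜 := ℝ) (p := z)).sub hA).const_smul (2 * π / p)).prodMk
      (((hasFDerivAt_fst (𝕜 := ℝ) (p := z)).add hB).const_smul (2 * π / p))
    have h2 : fderiv ℝ (fun z : ℝ × ℝ => (2 * π / p * (z.1 - prim a (z.2 - c * z.1)),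
        2 * π / p * (z.1 + prim g (z.2 - c * z.1)))) z = _ := h1.fderiv
    rw [← hφ] at h2
    have h3 : (fderiv ℝ φ z v).1 = 2 * π / p * (v.1 - a t * (v.2 - c * v.1)) := by
      rw [h2, ht]; simp
    have h4 : (fderiv ℝ φ z v).2 = 2 * π / p * (v.1 + g t * (v.2 - c * v.1)) := by
      rw [h2, ht]; simp; ring
    rw [h3, h4, hle, hlg, mk_apply, mk_apply, Complex.ofReal_re, Complex.ofReal_re, hηφ, ← ht,
      exp_log (div_pos hpp (hDpos _)), exp_log (div_pos (mul_pos hpp (pow_pos (hdpos _) 2)) (hDpos _))]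
    have h5 : v.1 - a t * (v.2 - c * v.1) = (1 + c * a t) * v.1 - a t * v.2 := by ring
    have h6 : d t * (v.1 + g t * (v.2 - c * v.1)) = a t * v.1 + (1 + c * a t) * v.2 := by
      rw [hg, ha]
      have := (hdpos t).ne'
      field_simp
      ring
    have h7 : (p / (2 * π)) ^ 2 / D t * (2 * π / p * (v.1 - a t * (v.2 - c * v.1))) ^ 2 +
        (p / (2 * π)) ^ 2 * d t ^ 2 / D t * (2 * π / p * (v.1 + g t * (v.2 - c * v.1))) ^ 2
        = ((v.1 - a t * (v.2 - c * v.1)) ^ 2 + (d t * (v.1 + g t * (v.2 - c * v.1))) ^ 2) / D t := by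
      have := (hDpos t).ne'
      field_simp
    rw [h7, h5, h6, eq_div_iff (hDpos t).ne', hD]
    ring

end Vale.Agent.P205
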