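import Vale.Agent.P205.Uni
import Vale.Agent.P205.Hadamard
import Vale.Agent.P205.Net

/-!
# P205: coordinates in which a metric on the torus is diagonal
-/

open scoped ContDiff ComplexConjugate
open Real Filter

namespace Vale.Agent.P205

namespace CoordsAux

open UniAux F1 F2

/-- a function of CP attains its maximum -/
theorem exists_max (G : CP) : ∃ z0 : ℝ × ℝ, ∀ z, ‖(G : ℝ × ℝ → ℂ) z‖ ≤ ‖(G : ℝ × ℝ → ℂ) z0‖ := by
  have hc : Continuous fun z => ‖(G : ℝ × ℝ → ℂ) z‖ := G.smooth.continuous.norm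
  have h0 : (0 : ℝ) < 2 * π := by positivity
  obtain ⟨z0, _, hz0⟩ := (((isCompact_Icc (a := (0 : ℝ)) (b := 2 * π)).prod
    (isCompact_Icc (a := (0 : ℝ)) (b := 2 * π)))).exists_isMaxOn
    ⟨((0 : ℝ), (0 : ℝ)), ⟨⟨le_rfl, h0.le⟩, ⟨le_rfl, h0.le⟩⟩⟩ hc.continuousOn
  refine ⟨z0, ?_⟩
  rintro ⟨x, y⟩
  have p1 : Function.Periodic (fun x => (G : ℝ × ℝ → ℂ) (x, y)) (2 * π) := fun x => G.perX x y
  obtain ⟨x', hx', e1⟩ := p1.exists_mem_Ico₀ h0 x
  have p2 : Function.Periodic (fun y => (G : ℝ × ℝ → ℂ) (x', y)) (2 * π) := fun y => G.perY x' y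
  obtain ⟨y', hy', e2⟩ := p2.exists_mem_Ico₀ h0 y
  rw [e1, e2]
  exact hz0 ⟨⟨hx'.1, hx'.2.le⟩, ⟨hy'.1, hy'.2.le⟩⟩

theorem dV_lin (F : CP) (z v : ℝ × ℝ) : fderiv ℝ (F : ℝ × ℝ → ℂ) z v
    = (v.1 : ℂ) * (dX F : ℝ × ℝ → ℂ) z + (v.2 : ℂ) * (dY F : ℝ × ℝ → ℂ) z := by
  have h : v = v.1 • ((1 : ℝ), (0 : ℝ)) + v.2 • ((0 : ℝ), (1 : ℝ)) := by
    ext <;> simp
  conv_lhs => rw [h]
  rw [map_add, map_smul, map_smul, dX_apply, dY_apply]
  simp only [Complex.real_smul]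

/-- Step A: the metric is conformal to `|l1 dx + l2 dy + dW|²` -/
theorem stepA (hsig : ∀ (m : CP) (k0 : ℝ), 0 ≤ k0 → k0 < 1 → (∀ z, ‖(m : ℝ × ℝ → ℂ) z‖ ≤ k0) →
      ∃ σ : CP, dZb σ = m * dZ σ + dZ m)
    (g11 g12 g22 : ℝ × ℝ → ℝ) (h11 : ContDiff ℝ ∞ g11) (h12 : ContDiff ℝ ∞ g12)
    (h22 : ContDiff ℝ ∞ g22)
    (p11 : ∀ x y, g11 (x + 2 * π, y) = g11 (x, y) ∧ g11 (x, y + 2 * π) = g11 (x, y))
    (p12 : ∀ x y, g12 (x + 2 * π, y) = g12 (x, y) ∧ g12 (x, y + 2 * π) = g12 (x, y))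
    (p22 : ∀ x y, g22 (x + 2 * π, y) = g22 (x, y) ∧ g22 (x, y + 2 * π) = g22 (x, y))
    (hpos : ∀ z, 0 < g11 z ∧ g12 z ^ 2 < g11 z * g22 z) :
    ∃ (l1 l2 : ℂ) (W : CP) (R : ℝ × ℝ → ℝ), 0 < (conj l1 * l2).im ∧ ContDiff ℝ ∞ R ∧
      (∀ z, 0 < R z) ∧
      (∀ x y, R (x + 2 * π, y) = R (x, y) ∧ R (x, y + 2 * π) = R (x, y)) ∧
      ∀ z v : ℝ × ℝ, g11 z * v.1 ^ 2 + 2 * g12 z * v.1 * v.2 + g22 z * v.2 ^ 2 =
        R z * Complex.normSq (l1 * v.1 + l2 * v.2 + fderiv ℝ (W : ℝ × ℝ → ℂ) z v) := by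
  have hdet : ∀ z, 0 < g11 z * g22 z - g12 z ^ 2 := fun z => sub_pos.mpr (hpos z).2
  have hg22 : ∀ z, 0 < g22 z := by
    intro z
    have h1 := (hpos z).1
    have h2 := (hpos z).2
    by_contra hcon
    push Not at hcon
    nlinarith [sq_nonneg (g12 z)]
  set s : ℝ × ℝ → ℝ := fun z => Real.sqrt (g11 z * g22 z - g12 z ^ 2) with hs
  have hspos : ∀ z, 0 < s z := fun z => Real.sqrt_pos.mpr (hdet z)
  have hs2 : ∀ z, s z ^ 2 = g11 z * g22 z - g12 z ^ 2 := fun z => Real.sq_sqrt (hdet z).le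
  have hssm : ContDiff ℝ ∞ s :=
    ((h11.mul h22).sub (h12.pow 2)).sqrt (fun z => (hdet z).ne')
  set D : ℝ × ℝ → ℝ := fun z => g11 z + g22 z + 2 * s z with hD
  have hDpos : ∀ z, 0 < D z := by
    intro z
    have h1 := (hpos z).1
    have h2 := hg22 z
    have h3 := hspos z
    simp only [hD]
    linarith
  have hDsm : ContDiff ℝ ∞ D := (h11.add h22).add (contDiff_const.mul hssm)
  have hsper : ∀ x y, s (x + 2 * π, y) = s (x, y) ∧ s (x, y + 2 * π) = s (x, y) := by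
    intro x y
    simp only [hs, (p11 x y).1, (p11 x y).2, (p12 x y).1, (p12 x y).2, (p22 x y).1, (p22 x y).2,
      and_self]
  have hDper : ∀ x y, D (x + 2 * π, y) = D (x, y) ∧ D (x, y + 2 * π) = D (x, y) := by
    intro x y
    simp only [hD, (p11 x y).1, (p11 x y).2, (p22 x y).1, (p22 x y).2, (hsper x y).1,
      (hsper x y).2, and_self]
  set mr : ℝ × ℝ → ℝ := fun z => (g11 z - g22 z) / D z with hmr
  set mi : ℝ × ℝ → ℝ := fun z => 2 * g12 z / D z with hmi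
  have hmrsm : ContDiff ℝ ∞ mr := (h11.sub h22).div hDsm (fun z => (hDpos z).ne')
  have hmism : ContDiff ℝ ∞ mi := (contDiff_const.mul h12).div hDsm (fun z => (hDpos z).ne')
  set mu : CP := ⟨fun z => (mr z : ℂ) + Complex.I * (mi z : ℂ), by
    refine ⟨?_, ?_, ?_⟩
    · exact (Complex.ofRealCLM.contDiff.comp hmrsm).add
        (contDiff_const.mul (Complex.ofRealCLM.contDiff.comp hmism))
    · intro x y
      simp only [hmr, hmi, (p11 x y).1, (p12 x y).1, (p22 x y).1, (hDper x y).1]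
    · intro x y
      simp only [hmr, hmi, (p11 x y).2, (p12 x y).2, (p22 x y).2, (hDper x y).2]⟩ with hmu
  have hmuz : ∀ z, (mu : ℝ × ℝ → ℂ) z = (mr z : ℂ) + Complex.I * (mi z : ℂ) := fun z => rfl
  have hmm : ∀ z, 1 + (mr z ^ 2 + mi z ^ 2) = 2 * (g11 z + g22 z) / D z := by
    intro z
    have h1 := (hDpos z).ne'
    have h2 := hs2 z
    simp only [hmr, hmi]
    rw [div_pow, div_pow, ← add_div, eq_div_iff h1]
    field_simp
    have hDz : D z = g11 z + g22 z + 2 * s z := rfl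
    rw [hDz]
    nlinarith [h2]
  have hnorm : ∀ z, ‖(mu : ℝ × ℝ → ℂ) z‖ < 1 := by
    intro z
    have h1 : ‖(mu : ℝ × ℝ → ℂ) z‖ ^ 2 = mr z ^ 2 + mi z ^ 2 := by
      rw [hmuz, Complex.sq_norm, Complex.normSq_apply]
      simp
      ring
    have h2 : mr z ^ 2 + mi z ^ 2 < 1 := by
      have h3 := hmm z
      have h4 : 2 * (g11 z + g22 z) / D z < 2 := by
        rw [div_lt_iff₀ (hDpos z)]
        have := hspos z
        simp only [hD]
        linarith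
      linarith
    have h5 := norm_nonneg ((mu : ℝ × ℝ → ℂ) z)
    nlinarith
  obtain ⟨z0, hz0⟩ := exists_max mu
  obtain ⟨σ, hσ⟩ := hsig mu ‖(mu : ℝ × ℝ → ℂ) z0‖ (norm_nonneg _) (hnorm z0) hz0
  have hF : ∀ z, (ee σ : ℝ × ℝ → ℂ) z ≠ 0 := fun z => by
    rw [ee_apply]; exact Complex.exp_ne_zero _
  have heq : dZb (ee σ) = dZ (mu * ee σ) := by
    have h1 : (1 / 2 : ℂ) • (dX σ + Complex.I • dY σ)
        = mu * ((1 / 2 : ℂ) • (dX σ - Complex.I • dY σ))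
          + (1 / 2 : ℂ) • (dX mu - Complex.I • dY mu) := hσ
    have h2 : dZb (ee σ) = (1 / 2 : ℂ) • (dX (ee σ) + Complex.I • dY (ee σ)) := rfl
    have h3 : dZ (mu * ee σ) = (1 / 2 : ℂ) • (dX (mu * ee σ) - Complex.I • dY (mu * ee σ)) := rfl
    rw [h2, h3, dX_mul, dY_mul, dX_ee, dY_ee]
    ext z
    have h4 := congrArg (fun G : CP => (G : ℝ × ℝ → ℂ) z) h1
    simp only [coe_smul, coe_add, coe_sub, coe_mul] at h4 ⊢
    linear_combination ((ee σ : ℝ × ℝ → ℂ) z) * h4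
  obtain ⟨l1, l2, W, hWX, hWY, hl⟩ := exists_w mu (ee σ) hF hnorm heq
  set R : ℝ × ℝ → ℝ := fun z => D z / (4 * ‖(ee σ : ℝ × ℝ → ℂ) z‖ ^ 2) with hR
  have hden : ∀ z, 0 < 4 * ‖(ee σ : ℝ × ℝ → ℂ) z‖ ^ 2 := by
    intro z
    have := norm_pos_iff.mpr (hF z)
    positivity
  refine ⟨l1, l2, W, R, hl, ?_, ?_, ?_, ?_⟩
  · refine hDsm.div (contDiff_const.mul ?_) (fun z => (hden z).ne')
    exact (ee σ).smooth.norm_sq ℝ
  · intro z; exact div_pos (hDpos z) (hden z)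
  · intro x y
    simp only [hR, (hDper x y).1, (hDper x y).2, CP.perX, CP.perY, and_self]
  · intro z v
    have e1 : (dX W : ℝ × ℝ → ℂ) z = (ee σ : ℝ × ℝ → ℂ) z * (1 + (mu : ℝ × ℝ → ℂ) z) - l1 := by
      rw [hWX]; simp only [coe_smul, coe_add, coe_sub, coe_mul, coe_one, mul_one]
    have e2 : (dY W : ℝ × ℝ → ℂ) z =
        Complex.I * ((ee σ : ℝ × ℝ → ℂ) z * (1 - (mu : ℝ × ℝ → ℂ) z)) - l2 := by
      rw [hWY]; simp only [coe_smul, coe_sub, coe_mul, coe_one, mul_one]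
    have e3 : l1 * v.1 + l2 * v.2 + fderiv ℝ (W : ℝ × ℝ → ℂ) z v
        = (ee σ : ℝ × ℝ → ℂ) z * ((((1 + mr z) * v.1 + mi z * v.2 : ℝ) : ℂ)
          + (((mi z * v.1 + (1 - mr z) * v.2 : ℝ) : ℝ) : ℂ) * Complex.I) := by
      rw [dV_lin, e1, e2, hmuz]
      push_cast
      linear_combination (-((ee σ : ℝ × ℝ → ℂ) z * mi z * v.2)) * Complex.I_sq
    rw [e3, Complex.normSq_mul, Complex.normSq_add_mul_I, Complex.normSq_eq_norm_sq]
    have e4 := hmm z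
    have e5 : ((1 + mr z) * v.1 + mi z * v.2) ^ 2 + (mi z * v.1 + (1 - mr z) * v.2) ^ 2
        = (4 / D z) * (g11 z * v.1 ^ 2 + 2 * g12 z * v.1 * v.2 + g22 z * v.2 ^ 2) := by
      have e6 : ((1 + mr z) * v.1 + mi z * v.2) ^ 2 + (mi z * v.1 + (1 - mr z) * v.2) ^ 2
        = (1 + (mr z ^ 2 + mi z ^ 2)) * (v.1 ^ 2 + v.2 ^ 2) + 2 * mr z * (v.1 ^ 2 - v.2 ^ 2)
          + 4 * mi z * (v.1 * v.2) := by ring
      rw [e6, e4]
      simp only [hmr, hmi]
      have := (hDpos z).ne'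
      field_simp
      ring
    rw [e5]
    simp only [hR]
    have h6 := (hDpos z).ne'
    have h7 : ‖(ee σ : ℝ × ℝ → ℂ) z‖ ≠ 0 := norm_ne_zero_iff.mpr (hF z)
    field_simp

/-- an injective linear endomorphism of the plane is bijective -/
theorem bij_of_ne (A : ℝ × ℝ →L[ℝ] ℝ × ℝ) (h : ∀ v, A v = 0 → v = 0) : Function.Bijective A := by
  have h1 : Function.Injective A.toLinearMap := by
    intro x y hxy
    have h2 : A (x - y) = 0 := by
      rw [map_sub, sub_eq_zero]; exact hxy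
    exact sub_eq_zero.mp (h _ h2)
  exact ⟨h1, LinearMap.injective_iff_surjective.mp h1⟩

/-- Step B: uniformization, the lattice is generated by `(0, 1)` and `(p, q)` -/
theorem stepB (g11 g12 g22 : ℝ × ℝ → ℝ)
    (hpos : ∀ z, 0 < g11 z ∧ g12 z ^ 2 < g11 z * g22 z) {l1 l2 : ℂ} {W : CP} {R : ℝ × ℝ → ℝ}
    (hl : 0 < (conj l1 * l2).im) (hRs : ContDiff ℝ ∞ R) (hRp : ∀ z, 0 < R z)
    (hRper : ∀ x y, R (x + 2 * π, y) = R (x, y) ∧ R (x, y + 2 * π) = R (x, y))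
    (hg : ∀ z v : ℝ × ℝ, g11 z * v.1 ^ 2 + 2 * g12 z * v.1 * v.2 + g22 z * v.2 ^ 2 =
        R z * Complex.normSq (l1 * v.1 + l2 * v.2 + fderiv ℝ (W : ℝ × ℝ → ℂ) z v)) :
    ∃ (om vv : ℝ × ℝ → ℝ × ℝ) (p q : ℝ) (m : ℤ) (S : ℝ × ℝ → ℝ), ContDiff ℝ ∞ om ∧
      ContDiff ℝ ∞ vv ∧ (∀ z, vv (om z) = z) ∧ (∀ z, om (vv z) = z) ∧ 0 < p ∧ 0 < q ∧ q ≤ 1 ∧
      (∀ z, om (z + (2 * π, 0)) = om z + (p, q + m)) ∧ (∀ z, om (z + (0, 2 * π)) = om z + (0, 1)) ∧
      ContDiff ℝ ∞ S ∧ (∀ z, 0 < S z) ∧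
      (∀ x y, S (x + 2 * π, y) = S (x, y) ∧ S (x, y + 2 * π) = S (x, y)) ∧
      ∀ z v : ℝ × ℝ, g11 z * v.1 ^ 2 + 2 * g12 z * v.1 * v.2 + g22 z * v.2 ^ 2 =
        S z * ((fderiv ℝ om z v).1 ^ 2 + (fderiv ℝ om z v).2 ^ 2) := by
  have hl2 : l2 ≠ 0 := by
    rintro rfl
    simp at hl
  have hpi : (π : ℂ) ≠ 0 := by exact_mod_cast Real.pi_ne_zero
  obtain ⟨a, ha⟩ : ∃ a : ℂ, a = Complex.I / (2 * π * l2) := ⟨_, rfl⟩
  have ha0 : a ≠ 0 := by
    rw [ha]
    exact div_ne_zero Complex.I_ne_zero (mul_ne_zero (mul_ne_zero two_ne_zero hpi) hl2)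
  -- the complex map
  set wc : ℝ × ℝ → ℂ := fun z => a * (l1 * z.1 + l2 * z.2 + (W : ℝ × ℝ → ℂ) z) with hwc
  have hwcs : ContDiff ℝ ∞ wc := by
    refine contDiff_const.mul (ContDiff.add (ContDiff.add (contDiff_const.mul ?_)
      (contDiff_const.mul ?_)) W.smooth)
    · exact Complex.ofRealCLM.contDiff.comp contDiff_fst
    · exact Complex.ofRealCLM.contDiff.comp contDiff_snd
  set lin : ℝ × ℝ →L[ℝ] ℂ := l1 • (Complex.ofRealCLM.comp (ContinuousLinearMap.fst ℝ ℝ ℝ)) +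
    l2 • (Complex.ofRealCLM.comp (ContinuousLinearMap.snd ℝ ℝ ℝ)) with hlin
  have hlinv : ∀ v, lin v = l1 * v.1 + l2 * v.2 := by
    intro v
    simp [hlin]
  have hwcd : ∀ z, HasFDerivAt wc (a • (lin + fderiv ℝ (W : ℝ × ℝ → ℂ) z)) z := by
    intro z
    have h1 : HasFDerivAt (fun z => lin z + (W : ℝ × ℝ → ℂ) z)
        (lin + fderiv ℝ (W : ℝ × ℝ → ℂ) z) z := lin.hasFDerivAt.add (W.diff z).hasFDerivAt
    have h2 : wc = fun z => a • (lin z + (W : ℝ × ℝ → ℂ) z) := by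
      funext z
      simp only [hwc, hlinv, smul_eq_mul]
    rw [h2]
    exact h1.const_smul a
  set ri : ℂ →L[ℝ] ℝ × ℝ := Complex.reCLM.prod Complex.imCLM with hri
  set om : ℝ × ℝ → ℝ × ℝ := fun z => ri (wc z) with hom
  have homs : ContDiff ℝ ∞ om := ri.contDiff.comp hwcs
  have homd : ∀ z v, fderiv ℝ om z v =
      ri (a * (l1 * v.1 + l2 * v.2 + fderiv ℝ (W : ℝ × ℝ → ℂ) z v)) := by
    intro z v
    have h1 : HasFDerivAt om (ri.comp (a • (lin + fderiv ℝ (W : ℝ × ℝ → ℂ) z))) z :=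
      ri.hasFDerivAt.comp z (hwcd z)
    rw [h1.fderiv]
    simp only [ContinuousLinearMap.comp_apply, smul_apply, add_apply, hlinv, smul_eq_mul]
  have hrisq : ∀ c : ℂ, (ri c).1 ^ 2 + (ri c).2 ^ 2 = Complex.normSq c := by
    intro c
    rw [Complex.normSq_apply]
    simp only [hri, ContinuousLinearMap.prod_apply, Complex.reCLM_apply, Complex.imCLM_apply]
    ring
  have hna : 0 < Complex.normSq a := Complex.normSq_pos.mpr ha0
  set S : ℝ × ℝ → ℝ := fun z => R z / Complex.normSq a with hS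
  have hgS : ∀ z v : ℝ × ℝ, g11 z * v.1 ^ 2 + 2 * g12 z * v.1 * v.2 + g22 z * v.2 ^ 2 =
        S z * ((fderiv ℝ om z v).1 ^ 2 + (fderiv ℝ om z v).2 ^ 2) := by
    intro z v
    rw [homd, hrisq, hg, Complex.normSq_mul]
    simp only [hS]
    field_simp
  have hbij : ∀ z, Function.Bijective (fderiv ℝ om z) := by
    intro z
    apply bij_of_ne
    intro v hv
    have h1 := hgS z v
    rw [hv] at h1
    simp only [Prod.fst_zero, Prod.snd_zero, ne_eq, OfNat.ofNat_ne_zero, not_false_eq_true,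
      zero_pow, add_zero, mul_zero] at h1
    obtain ⟨h2, h3⟩ := hpos z
    have h4 : (g11 z * v.1 + g12 z * v.2) ^ 2 + (g11 z * g22 z - g12 z ^ 2) * v.2 ^ 2 = 0 := by
      linear_combination (g11 z) * h1
    have h5 : 0 < g11 z * g22 z - g12 z ^ 2 := sub_pos.mpr h3
    have h6 : v.2 = 0 := by
      by_contra hne
      have : 0 < v.2 ^ 2 := by positivity
      nlinarith [sq_nonneg (g11 z * v.1 + g12 z * v.2), mul_pos h5 this]
    have h7 : v.1 = 0 := by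
      rw [h6] at h4
      have h8 : (g11 z * v.1) ^ 2 = 0 := by linear_combination h4
      have h9 : g11 z * v.1 = 0 := pow_eq_zero_iff (two_ne_zero) |>.mp h8
      exact (mul_eq_zero.mp h9).resolve_left h2.ne'
    exact Prod.ext h7 h6
  -- the linear part
  have hLbij : Function.Bijective (ri.comp (a • lin)) := by
    apply bij_of_ne
    intro v hv
    have h1 : Complex.normSq (a * (l1 * v.1 + l2 * v.2)) = 0 := by
      rw [← hrisq]
      have h2 : (ri.comp (a • lin)) v = ri (a * (l1 * v.1 + l2 * v.2)) := by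
        simp only [ContinuousLinearMap.comp_apply, smul_apply, hlinv, smul_eq_mul]
      rw [← h2, hv]
      simp
    rw [Complex.normSq_eq_zero] at h1
    have h2 : l1 * v.1 + l2 * v.2 = 0 := (mul_eq_zero.mp h1).resolve_left ha0
    have h3 : (conj l1 * l2).im * v.2 = 0 := by
      have h4 := congrArg (fun c => (conj l1 * c).im) h2
      have h5 : (conj l1 * (l1 * (v.1 : ℂ) + l2 * (v.2 : ℂ))).im = (conj l1 * l2).im * v.2 := by
        simp [Complex.mul_im, Complex.mul_re, Complex.add_im, Complex.add_re]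
        ring
      simp only [mul_zero, Complex.zero_im] at h4
      rw [← h5]; exact h4
    have h6 : v.2 = 0 := (mul_eq_zero.mp h3).resolve_left hl.ne'
    have hl1 : l1 ≠ 0 := by
      rintro rfl
      simp at hl
    have h7 : v.1 = 0 := by
      rw [h6] at h2
      simp only [Complex.ofReal_zero, mul_zero, add_zero] at h2
      exact_mod_cast (mul_eq_zero.mp h2).resolve_left hl1
    exact Prod.ext h7 h6
  set L : (ℝ × ℝ) ≃L[ℝ] (ℝ × ℝ) := ContinuousLinearEquiv.ofBijective (ri.comp (a • lin))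
    (LinearMap.ker_eq_bot.2 hLbij.1) (LinearMap.range_eq_top.2 hLbij.2) with hL
  have hLv : ∀ v, L v = ri (a * (l1 * v.1 + l2 * v.2)) := by
    intro v
    have h1 : L v = (ri.comp (a • lin)) v := rfl
    rw [h1]
    simp only [ContinuousLinearMap.comp_apply, smul_apply, hlinv, smul_eq_mul]
  obtain ⟨z0, hz0⟩ := exists_max W
  have hclose : ∀ z, ‖om z - L z‖ ≤ ‖ri‖ * (‖a‖ * ‖(W : ℝ × ℝ → ℂ) z0‖) := by
    intro z
    have h1 : om z - L z = ri (a * (W : ℝ × ℝ → ℂ) z) := by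
      rw [hLv]
      simp only [hom, hwc]
      rw [← map_sub]
      congr 1
      ring
    rw [h1]
    refine (ri.le_opNorm _).trans ?_
    refine mul_le_mul_of_nonneg_left ?_ (norm_nonneg _)
    rw [norm_mul]
    exact mul_le_mul_of_nonneg_left (hz0 z) (norm_nonneg _)
  obtain ⟨vv, hvs, hv1, hv2⟩ := hadamard om homs L _ hclose hbij
  -- the periods
  obtain ⟨τ, hτ⟩ : ∃ τ : ℂ, τ = Complex.I * l1 / l2 := ⟨_, rfl⟩
  have hτre : 0 < τ.re := by
    have h1 : τ = (Complex.I * (l1 * conj l2)) * ((Complex.normSq l2)⁻¹ : ℝ) := by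
      rw [hτ, div_eq_mul_inv, Complex.inv_def]
      push_cast
      ring
    rw [h1, Complex.re_mul_ofReal]
    refine mul_pos ?_ (inv_pos.mpr (Complex.normSq_pos.mpr hl2))
    have h2 : (Complex.I * (l1 * conj l2)).re = (conj l1 * l2).im := by
      simp [Complex.mul_re, Complex.mul_im]
      ring
    rw [h2]
    exact hl
  refine ⟨om, vv, τ.re, τ.im - (⌈τ.im⌉ - 1 : ℤ), ⌈τ.im⌉ - 1, S, homs, hvs, hv1, hv2, hτre, ?_, ?_,
    ?_, ?_, ?_, ?_, ?_, hgS⟩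
  · have := Int.ceil_lt_add_one τ.im
    push_cast
    linarith
  · have := Int.le_ceil τ.im
    push_cast
    linarith
  · intro z
    have h1 : wc (z + (2 * π, 0)) = wc z + τ := by
      obtain ⟨x, y⟩ := z
      simp only [hwc, Prod.mk_add_mk, add_zero, CP.perX]
      rw [hτ, ha]
      push_cast
      field_simp
      ring
    have h2 : ri τ = (τ.re, τ.im) := rfl
    simp only [hom]
    rw [h1, map_add, h2]
    push_cast
    congr 2
    ring
  · intro z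
    have h1 : wc (z + (0, 2 * π)) = wc z + Complex.I := by
      obtain ⟨x, y⟩ := z
      simp only [hwc, Prod.mk_add_mk, add_zero, CP.perY]
      rw [ha]
      push_cast
      field_simp
      ring
    have h2 : ri Complex.I = (0, 1) := by
      simp [hri]
    simp only [hom]
    rw [h1, map_add, h2]
  · exact hRs.div_const _
  · intro z; exact div_pos (hRp z) hna
  · intro x y
    simp only [hS, (hRper x y).1, (hRper x y).2, and_self]

theorem shift_int {E : Type*} [AddCommGroup E] {f : E → E} {a b : E} (h : ∀ z, f (z + a) = f z + b)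
    (m : ℤ) (z : E) : f (z + m • a) = f z + m • b := by
  induction m using Int.induction_on generalizing z with
  | zero => simp
  | succ n ih =>
    rw [add_smul, one_smul, ← add_assoc, h, ih, add_smul, one_smul, add_assoc]
  | pred n ih =>
    have h1 := h (z + (-(n : ℤ) - 1) • a)
    have h2 : z + (-(n : ℤ) - 1) • a + a = z + (-(n : ℤ)) • a := by
      rw [sub_smul, one_smul]; abel
    rw [h2, ih] at h1
    rw [sub_smul _ _ b, one_smul]
    rw [← add_sub_assoc, h1]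
    abel

end CoordsAux

open CoordsAux UniAux

/-- the coordinates, from the solution of the Beltrami equation -/
theorem diag_coords_of (hsig : ∀ (m : CP) (k0 : ℝ), 0 ≤ k0 → k0 < 1 → (∀ z, ‖(m : ℝ × ℝ → ℂ) z‖ ≤ k0) →
      ∃ σ : CP, dZb σ = m * dZ σ + dZ m)
    (g11 g12 g22 : ℝ × ℝ → ℝ) (h11 : ContDiff ℝ ∞ g11) (h12 : ContDiff ℝ ∞ g12)
    (h22 : ContDiff ℝ ∞ g22)
    (p11 : ∀ x y, g11 (x + 2 * π, y) = g11 (x, y) ∧ g11 (x, y + 2 * π) = g11 (x, y))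
    (p12 : ∀ x y, g12 (x + 2 * π, y) = g12 (x, y) ∧ g12 (x, y + 2 * π) = g12 (x, y))
    (p22 : ∀ x y, g22 (x + 2 * π, y) = g22 (x, y) ∧ g22 (x, y + 2 * π) = g22 (x, y))
    (hpos : ∀ z, 0 < g11 z ∧ g12 z ^ 2 < g11 z * g22 z) :
    ∃ (Φ : ℝ × ℝ → ℝ × ℝ) (lE lG : CP) (m : ℤ), ContDiff ℝ ∞ Φ ∧
    (∀ z, Φ (z + (2 * π, 0)) = Φ z + (2 * π, 2 * π * m)) ∧
    (∀ z, Φ (z + (0, 2 * π)) = Φ z + (0, 2 * π)) ∧
    IsRl lE ∧ IsRl lG ∧ dX (dY (lE - lG)) ≠ 0 ∧
    ∀ z v : ℝ × ℝ, g11 z * v.1 ^ 2 + 2 * g12 z * v.1 * v.2 + g22 z * v.2 ^ 2 =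
      Real.exp (((lE : ℝ × ℝ → ℂ) (Φ z)).re) * (fderiv ℝ Φ z v).1 ^ 2 +
      Real.exp (((lG : ℝ × ℝ → ℂ) (Φ z)).re) * (fderiv ℝ Φ z v).2 ^ 2 := by
  obtain ⟨l1, l2, W, R, hl, hRs, hRp, hRper, hg⟩ :=
    stepA hsig g11 g12 g22 h11 h12 h22 p11 p12 p22 hpos
  obtain ⟨om, vv, p, q, m, S, homs, hvs, hv1, hv2, hp, hq0, hq1, homX, homY, hSs, hSp, hSper, hgS⟩ :=
    stepB g11 g12 g22 hpos hl hRs hRp hRper hg
  obtain ⟨φ, θ, le, lg, hφs, hθs, hθφ, hφθ, hφY, hφX, hle, hlg, hne, hnet⟩ :=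
    exists_net p q hp hq0 hq1
  have hΦX : ∀ z, φ (om (z + (2 * π, 0))) = φ (om z) + (2 * π, 2 * π * m) := by
    intro z
    have h1 : om z + (p, q + (m : ℝ)) = (om z + m • ((0 : ℝ), (1 : ℝ))) + (p, q) := by
      ext <;> simp <;> ring
    rw [homX, h1, hφX, shift_int hφY]
    ext <;> simp
    ring
  have hΦY : ∀ z, φ (om (z + (0, 2 * π))) = φ (om z) + (0, 2 * π) := by
    intro z
    rw [homY, hφY]
  have hΨY : ∀ u, vv (θ (u + (0, 2 * π))) = vv (θ u) + (0, 2 * π) := by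
    intro u
    have h1 := hΦY (vv (θ u))
    rw [hv2, hφθ] at h1
    rw [← h1, hθφ, hv1]
  have hΨX : ∀ u, vv (θ (u + (2 * π, 0))) = vv (θ u) + (2 * π, 0) + (-m) • ((0 : ℝ), 2 * π) := by
    intro u
    have h1 : φ (om (vv (θ u) + (2 * π, 0) + (-m) • ((0 : ℝ), 2 * π)))
        = φ (om (vv (θ u) + (2 * π, 0))) + (-m) • ((0 : ℝ), 2 * π) :=
      shift_int (f := fun z => φ (om z)) hΦY (-m) (vv (θ u) + (2 * π, 0))
    have h2 : φ (om (vv (θ u) + (2 * π, 0))) + (-m) • ((0 : ℝ), 2 * π) = u + (2 * π, 0) := by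
      rw [hΦX, hv2, hφθ]
      ext
      · simp
      · simp
        ring
    rw [h2] at h1
    rw [← h1, hθφ, hv1]
  have hSY : ∀ (k : ℤ) z, S (z + k • ((0 : ℝ), 2 * π)) = S z := by
    intro k z
    have h1 : ∀ z, S (z + ((0 : ℝ), 2 * π)) = S z := by
      rintro ⟨x, y⟩
      have := (hSper x y).2
      simpa using this
    induction k using Int.induction_on generalizing z with
    | zero => simp
    | succ n ih =>
      rw [add_smul, one_smul, ← add_assoc, h1, ih]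
    | pred n ih =>
      have h2 := h1 (z + (-(n : ℤ) - 1) • ((0 : ℝ), 2 * π))
      have h3 : z + (-(n : ℤ) - 1) • ((0 : ℝ), 2 * π) + ((0 : ℝ), 2 * π)
          = z + (-(n : ℤ)) • ((0 : ℝ), 2 * π) := by
        rw [sub_smul, one_smul]; abel
      rw [h3, ih] at h2
      exact h2.symm
  have hSX : ∀ z, S (z + (2 * π, 0)) = S z := by
    rintro ⟨x, y⟩
    have := (hSper x y).1
    simpa using this
  have hΨs : ContDiff ℝ ∞ (fun u => vv (θ u)) := hvs.comp hθs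
  have hlogs : ContDiff ℝ ∞ (fun u => Real.log (S (vv (θ u)))) :=
    (hSs.comp hΨs).log (fun u => (hSp _).ne')
  have hlogX : ∀ u, S (vv (θ (u + (2 * π, 0)))) = S (vv (θ u)) := by
    intro u
    rw [hΨX, hSY, hSX]
  have hlogY : ∀ u, S (vv (θ (u + (0, 2 * π)))) = S (vv (θ u)) := by
    intro u
    have := hSY 1 (vv (θ u))
    rw [one_smul] at this
    rw [hΨY, this]
  set ρ : CP := ⟨fun u => ((Real.log (S (vv (θ u))) : ℝ) : ℂ), by
    refine ⟨Complex.ofRealCLM.contDiff.comp hlogs, ?_, ?_⟩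
    · intro x y
      have := hlogX (x, y)
      simp only [Prod.mk_add_mk, add_zero] at this
      simp only [this]
    · intro x y
      have := hlogY (x, y)
      simp only [Prod.mk_add_mk, add_zero] at this
      simp only [this]⟩ with hρ
  have hρz : ∀ u, (ρ : ℝ × ℝ → ℂ) u = ((Real.log (S (vv (θ u))) : ℝ) : ℂ) := fun u => rfl
  have hρr : IsRl ρ := fun u => by rw [hρz, Complex.ofReal_im]
  refine ⟨fun z => φ (om z), le + ρ, lg + ρ, m, hφs.comp homs, hΦX, hΦY, hle.add hρr, hlg.add hρr,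
    ?_, ?_⟩
  · rw [add_sub_add_right_eq_sub]; exact hne
  · intro z v
    have hd : fderiv ℝ (fun z => φ (om z)) z v = fderiv ℝ φ (om z) (fderiv ℝ om z v) := by
      have h1 : HasFDerivAt (fun z => φ (om z)) ((fderiv ℝ φ (om z)).comp (fderiv ℝ om z)) z :=
        ((hφs.differentiable (by simp)) (om z)).hasFDerivAt.comp z
          ((homs.differentiable (by simp)) z).hasFDerivAt
      rw [h1.fderiv]
      rfl
    have hρΦ : ((ρ : ℝ × ℝ → ℂ) (φ (om z))).re = Real.log (S z) := by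
      rw [hρz, hθφ, hv1, Complex.ofReal_re]
    rw [hgS, hnet (om z) (fderiv ℝ om z v), hd]
    rw [coe_add, coe_add, Complex.add_re, Complex.add_re, hρΦ, Real.exp_add, Real.exp_add,
      Real.exp_log (hSp z)]
    ring

end Vale.Agent.P205
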