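import Mathlib

open scoped ContDiff
open Real Filter

namespace Vale.Agent.P205

/-- The algebra of smooth complex functions on the plane which are 2π-periodic in each variable. -/
noncomputable def CPs : Subalgebra ℂ (ℝ × ℝ → ℂ) where
  carrier := {F | ContDiff ℝ ∞ F ∧ (∀ x y, F (x + 2 * π, y) = F (x, y)) ∧
    (∀ x y, F (x, y + 2 * π) = F (x, y))}
  mul_mem' := by
    rintro F G ⟨h1, h2, h3⟩ ⟨h1', h2', h3'⟩
    exact ⟨h1.mul h1', fun x y => by simp [h2, h2'], fun x y => by simp [h3, h3']⟩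
  add_mem' := by
    rintro F G ⟨h1, h2, h3⟩ ⟨h1', h2', h3'⟩
    exact ⟨h1.add h1', fun x y => by simp [h2, h2'], fun x y => by simp [h3, h3']⟩
  algebraMap_mem' := by
    intro r
    refine ⟨contDiff_const, fun x y => rfl, fun x y => rfl⟩

/-- The smooth doubly 2π-periodic complex functions, as a type. -/
abbrev CP : Type := CPs

theorem CP.smooth (F : CP) : ContDiff ℝ ∞ (F : ℝ × ℝ → ℂ) := F.2.1

theorem CP.perX (F : CP) (x y : ℝ) : (F : ℝ × ℝ → ℂ) (x + 2 * π, y) = (F : ℝ × ℝ → ℂ) (x, y) :=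
  F.2.2.1 x y

theorem CP.perY (F : CP) (x y : ℝ) : (F : ℝ × ℝ → ℂ) (x, y + 2 * π) = (F : ℝ × ℝ → ℂ) (x, y) :=
  F.2.2.2 x y

@[ext] theorem CP.ext' {F G : CP} (h : ∀ z, (F : ℝ × ℝ → ℂ) z = (G : ℝ × ℝ → ℂ) z) : F = G :=
  Subtype.ext (funext h)

theorem CP.diff (F : CP) : Differentiable ℝ (F : ℝ × ℝ → ℂ) :=
  F.smooth.differentiable (by simp)

theorem fderiv_shift {F : ℝ × ℝ → ℂ} (c : ℝ × ℝ) (h : ∀ z, F (z + c) = F z) (z : ℝ × ℝ) :
    fderiv ℝ F (z + c) = fderiv ℝ F z := by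
  have h1 : (fun z => F (z + c)) = F := funext h
  have h2 := fderiv_comp_add_right (𝕜 := ℝ) (f := F) (x := z) c
  rw [h1] at h2
  exact h2.symm

/-- directional derivative in a constant direction, as a map of CP -/
noncomputable def dV (v : ℝ × ℝ) : CP →ₗ[ℂ] CP where
  toFun F := ⟨fun z => fderiv ℝ (F : ℝ × ℝ → ℂ) z v, by
    refine ⟨?_, ?_, ?_⟩
    · exact (F.smooth.fderiv_right (m := ∞) (by simp)).clm_apply contDiff_const
    · intro x y
      have h := fderiv_shift (F := (F : ℝ × ℝ → ℂ)) (2 * π, 0)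
        (fun z => by have := F.perX z.1 z.2; simpa [Prod.add_def] using this) (x, y)
      simp only [Prod.mk_add_mk, add_zero] at h
      simp only [h]
    · intro x y
      have h := fderiv_shift (F := (F : ℝ × ℝ → ℂ)) (0, 2 * π)
        (fun z => by have := F.perY z.1 z.2; simpa [Prod.add_def] using this) (x, y)
      simp only [Prod.mk_add_mk, add_zero] at h
      simp only [h]⟩
  map_add' F G := by
    ext z
    have := fderiv_add (F.diff z) (G.diff z)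
    simp only [Subalgebra.coe_add, this, add_apply, Pi.add_apply]
  map_smul' c F := by
    ext z
    have := fderiv_const_smul (F.diff z) c
    simp only [Subalgebra.coe_smul, this, Pi.smul_apply, RingHom.id_apply]
    rfl

/-- derivative in the first variable -/
noncomputable def dX : CP →ₗ[ℂ] CP := dV (1, 0)

/-- derivative in the second variable -/
noncomputable def dY : CP →ₗ[ℂ] CP := dV (0, 1)

theorem dV_apply (v : ℝ × ℝ) (F : CP) (z : ℝ × ℝ) :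
    (dV v F : ℝ × ℝ → ℂ) z = fderiv ℝ (F : ℝ × ℝ → ℂ) z v := rfl

theorem dX_apply (F : CP) (z : ℝ × ℝ) :
    (dX F : ℝ × ℝ → ℂ) z = fderiv ℝ (F : ℝ × ℝ → ℂ) z (1, 0) := rfl

theorem dY_apply (F : CP) (z : ℝ × ℝ) :
    (dY F : ℝ × ℝ → ℂ) z = fderiv ℝ (F : ℝ × ℝ → ℂ) z (0, 1) := rfl

theorem dV_mul (v : ℝ × ℝ) (F G : CP) : dV v (F * G) = dV v F * G + F * dV v G := by
  ext z
  have := fderiv_mul (F.diff z) (G.diff z)
  simp only [Subalgebra.coe_add, Subalgebra.coe_mul, Pi.add_apply, Pi.mul_apply, dV_apply, this]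
  simp only [add_apply, smul_apply, smul_eq_mul]
  ring

theorem dX_mul (F G : CP) : dX (F * G) = dX F * G + F * dX G := dV_mul _ F G

theorem dY_mul (F G : CP) : dY (F * G) = dY F * G + F * dY G := dV_mul _ F G

theorem dV_comm (v w : ℝ × ℝ) (F : CP) : dV v (dV w F) = dV w (dV v F) := by
  ext z
  have hs : IsSymmSndFDerivAt ℝ (F : ℝ × ℝ → ℂ) z :=
    F.smooth.contDiffAt.isSymmSndFDerivAt (by
      simp only [minSmoothness_of_isRCLikeNormedField]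
      have h2 : ((2 : ℕ∞) : WithTop ℕ∞) ≤ ((⊤ : ℕ∞) : WithTop ℕ∞) :=
        WithTop.coe_le_coe.mpr le_top
      exact h2)
  have hd : DifferentiableAt ℝ (fderiv ℝ (F : ℝ × ℝ → ℂ)) z :=
    ((F.smooth.fderiv_right (m := ∞) (by simp)).differentiable (by simp)) z
  have h1 : ∀ a b : ℝ × ℝ, (dV a (dV b F) : ℝ × ℝ → ℂ) z
      = fderiv ℝ (fderiv ℝ (F : ℝ × ℝ → ℂ)) z a b := by
    intro a b
    rw [dV_apply]
    have : ((dV b F : CP) : ℝ × ℝ → ℂ) = fun z => fderiv ℝ (F : ℝ × ℝ → ℂ) z b := rfl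
    rw [this, fderiv_clm_apply hd (differentiableAt_const b)]
    simp
  rw [h1, h1]
  exact hs.eq v w

theorem dX_dY (F : CP) : dX (dY F) = dY (dX F) := dV_comm _ _ F

theorem dV_one (v : ℝ × ℝ) : dV v 1 = 0 := by
  ext z
  have : ((1 : CP) : ℝ × ℝ → ℂ) = fun _ => (1 : ℂ) := rfl
  rw [dV_apply, this]
  simp

theorem dX_one : dX 1 = 0 := dV_one _

theorem dY_one : dY 1 = 0 := dV_one _

/-- real valued -/
def IsRl (F : CP) : Prop := ∀ z, ((F : ℝ × ℝ → ℂ) z).im = 0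

/-- pointwise exponential of an element of CP -/
noncomputable def ee (F : CP) : CP :=
  ⟨fun z => Complex.exp ((F : ℝ × ℝ → ℂ) z),
    ⟨Complex.contDiff_exp.comp F.smooth, fun x y => by simp only [F.perX],
      fun x y => by simp only [F.perY]⟩⟩

theorem ee_apply (F : CP) (z : ℝ × ℝ) :
    (ee F : ℝ × ℝ → ℂ) z = Complex.exp ((F : ℝ × ℝ → ℂ) z) := rfl

theorem ee_zero : ee 0 = 1 := by
  ext z
  have h0 : ((0 : CP) : ℝ × ℝ → ℂ) z = 0 := rfl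
  have h1 : ((1 : CP) : ℝ × ℝ → ℂ) z = 1 := rfl
  rw [ee_apply, h0, h1, Complex.exp_zero]

theorem ee_add (F G : CP) : ee (F + G) = ee F * ee G := by
  ext z
  have h0 : ((F + G : CP) : ℝ × ℝ → ℂ) z = (F : ℝ × ℝ → ℂ) z + (G : ℝ × ℝ → ℂ) z := rfl
  have h1 : ((ee F * ee G : CP) : ℝ × ℝ → ℂ) z
      = (ee F : ℝ × ℝ → ℂ) z * (ee G : ℝ × ℝ → ℂ) z := rfl
  rw [ee_apply, h0, h1, ee_apply, ee_apply, Complex.exp_add]

theorem ee_mul_neg (F : CP) : ee F * ee (-F) = 1 := by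
  rw [← ee_add, add_neg_cancel, ee_zero]

theorem dV_ee (v : ℝ × ℝ) (F : CP) : dV v (ee F) = dV v F * ee F := by
  ext z
  have h : ((ee F : CP) : ℝ × ℝ → ℂ) = fun z => Complex.exp ((F : ℝ × ℝ → ℂ) z) := rfl
  have h1 : ((dV v F * ee F : CP) : ℝ × ℝ → ℂ) z
      = (dV v F : ℝ × ℝ → ℂ) z * (ee F : ℝ × ℝ → ℂ) z := rfl
  have h2 : HasFDerivAt (fun z => Complex.exp ((F : ℝ × ℝ → ℂ) z))
      (Complex.exp ((F : ℝ × ℝ → ℂ) z) • fderiv ℝ (F : ℝ × ℝ → ℂ) z) z :=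
    (F.diff z).hasFDerivAt.cexp
  rw [dV_apply, h1, h, h2.fderiv]
  simp only [smul_apply, smul_eq_mul, dV_apply]
  ring

theorem dX_ee (F : CP) : dX (ee F) = dX F * ee F := dV_ee _ F

theorem dY_ee (F : CP) : dY (ee F) = dY F * ee F := dV_ee _ F

theorem IsRl.add {F G : CP} (hF : IsRl F) (hG : IsRl G) : IsRl (F + G) := by
  intro z
  have h0 : ((F + G : CP) : ℝ × ℝ → ℂ) z = (F : ℝ × ℝ → ℂ) z + (G : ℝ × ℝ → ℂ) z := rfl
  rw [h0, Complex.add_im, hF z, hG z, add_zero]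

theorem IsRl.mul {F G : CP} (hF : IsRl F) (hG : IsRl G) : IsRl (F * G) := by
  intro z
  have h0 : ((F * G : CP) : ℝ × ℝ → ℂ) z = (F : ℝ × ℝ → ℂ) z * (G : ℝ × ℝ → ℂ) z := rfl
  rw [h0, Complex.mul_im, hF z, hG z]; ring

theorem IsRl.neg {F : CP} (hF : IsRl F) : IsRl (-F) := by
  intro z
  have h0 : ((-F : CP) : ℝ × ℝ → ℂ) z = -(F : ℝ × ℝ → ℂ) z := rfl
  rw [h0, Complex.neg_im, hF z, neg_zero]

theorem IsRl.sub {F G : CP} (hF : IsRl F) (hG : IsRl G) : IsRl (F - G) := by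
  rw [sub_eq_add_neg]; exact hF.add hG.neg

theorem IsRl.smul {F : CP} (hF : IsRl F) (c : ℂ) (hc : c.im = 0) : IsRl (c • F) := by
  intro z
  have h0 : ((c • F : CP) : ℝ × ℝ → ℂ) z = c * (F : ℝ × ℝ → ℂ) z := rfl
  rw [h0, Complex.mul_im, hF z, hc]; ring

theorem IsRl.zero : IsRl 0 := fun z => by
  have h0 : ((0 : CP) : ℝ × ℝ → ℂ) z = 0 := rfl
  rw [h0]; rfl

theorem IsRl.one : IsRl 1 := fun z => by
  have h0 : ((1 : CP) : ℝ × ℝ → ℂ) z = 1 := rfl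
  rw [h0]; rfl

theorem IsRl.sum {ι : Type*} (s : Finset ι) (f : ι → CP) (h : ∀ i ∈ s, IsRl (f i)) :
    IsRl (∑ i ∈ s, f i) := by
  classical
  induction s using Finset.induction_on with
  | empty => simpa using IsRl.zero
  | insert a s ha ih =>
    rw [Finset.sum_insert ha]
    exact (h a (Finset.mem_insert_self a s)).add
      (ih fun i hi => h i (Finset.mem_insert_of_mem hi))

theorem IsRl.dV {F : CP} (hF : IsRl F) (v : ℝ × ℝ) : IsRl (P205.dV v F) := by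
  intro z
  rw [dV_apply]
  have h1 : HasFDerivAt (fun z => ((F : ℝ × ℝ → ℂ) z).im)
      (Complex.imCLM.comp (fderiv ℝ (F : ℝ × ℝ → ℂ) z)) z :=
    Complex.imCLM.hasFDerivAt.comp z (F.diff z).hasFDerivAt
  have h2 : (fun z => ((F : ℝ × ℝ → ℂ) z).im) = fun _ => (0 : ℝ) := funext hF
  rw [h2] at h1
  have h3 := h1.unique (hasFDerivAt_const (0 : ℝ) z)
  have h4 := congrArg (fun L : ℝ × ℝ →L[ℝ] ℝ => L v) h3
  simpa using h4

theorem IsRl.dX {F : CP} (hF : IsRl F) : IsRl (P205.dX F) := hF.dV _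

theorem IsRl.dY {F : CP} (hF : IsRl F) : IsRl (P205.dY F) := hF.dV _

theorem IsRl.ee {F : CP} (hF : IsRl F) : IsRl (P205.ee F) := by
  intro z
  rw [ee_apply, Complex.exp_im, hF z, Real.sin_zero, mul_zero]

/-- size of a frequency -/
noncomputable def sz (k : ℤ × ℤ) : ℝ := |(k.1 : ℝ)| + |(k.2 : ℝ)|

/-- Fourier coefficients -/
noncomputable def coef (F : CP) (k : ℤ × ℤ) : ℂ :=
  (1 / (2 * π) ^ 2 : ℂ) * ∫ x in (0 : ℝ)..(2 * π), ∫ y in (0 : ℝ)..(2 * π),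
    (F : ℝ × ℝ → ℂ) (x, y) * Complex.exp (-(Complex.I * ((k.1 : ℂ) * x + (k.2 : ℂ) * y)))

/-- weighted Wiener norm -/
noncomputable def nw (w : ℤ × ℤ → ℝ) (F : CP) : ℝ := ∑' k, w k * ‖coef F k‖

/-- the weights -/
noncomputable def wt (j n N s : ℕ) (k : ℤ × ℤ) : ℝ :=
  (1 + sz k) ^ j * ((1 + sz k / n) ^ 2 * (1 + sz k / N) ^ s)

/-- exponentials -/
noncomputable def ex (m : ℤ × ℤ) : CP :=
  ⟨fun z => Complex.exp (Complex.I * ((m.1 : ℂ) * z.1 + (m.2 : ℂ) * z.2)), by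
    refine ⟨?_, ?_, ?_⟩
    · refine Complex.contDiff_exp.comp ?_ |>.of_le le_rfl
      refine contDiff_const.mul ?_
      refine ContDiff.add (contDiff_const.mul ?_) (contDiff_const.mul ?_)
      · exact Complex.ofRealCLM.contDiff.comp contDiff_fst
      · exact Complex.ofRealCLM.contDiff.comp contDiff_snd
    · intro x y
      have : Complex.I * ((m.1 : ℂ) * ((x + 2 * π : ℝ) : ℂ) + (m.2 : ℂ) * (y : ℂ))
        = Complex.I * ((m.1 : ℂ) * (x : ℂ) + (m.2 : ℂ) * (y : ℂ)) + m.1 * (2 * π * Complex.I) := by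
        push_cast; ring
      simp only [this, Complex.exp_add, Complex.exp_int_mul_two_pi_mul_I, mul_one]
    · intro x y
      have : Complex.I * ((m.1 : ℂ) * (x : ℂ) + (m.2 : ℂ) * ((y + 2 * π : ℝ) : ℂ))
        = Complex.I * ((m.1 : ℂ) * (x : ℂ) + (m.2 : ℂ) * (y : ℂ)) + m.2 * (2 * π * Complex.I) := by
        push_cast; ring
      simp only [this, Complex.exp_add, Complex.exp_int_mul_two_pi_mul_I, mul_one]⟩

/-- the first Wirtinger derivative -/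
noncomputable def dZ : CP →ₗ[ℂ] CP := (1 / 2 : ℂ) • (dX - Complex.I • dY)

/-- the second Wirtinger derivative -/
noncomputable def dZb : CP →ₗ[ℂ] CP := (1 / 2 : ℂ) • (dX + Complex.I • dY)

/-- admissible weights -/
structure IsWt (w : ℤ × ℤ → ℝ) : Prop where
  one_le : ∀ k, 1 ≤ w k
  symm : ∀ k, w (-k) = w k
  mul : ∀ k l, w (k + l) ≤ w k * w l
  growth : ∃ (m : ℕ) (C : ℝ), ∀ k, w k ≤ C * (1 + sz k) ^ m

/-- a family of linear maps bounded from weight i to weight j, uniformly -/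
def UB (i j : ℕ) (L : ℕ → CP →ₗ[ℂ] CP) : Prop :=
  ∃ C : ℝ, 0 ≤ C ∧ ∀ n : ℕ, 1 ≤ n → ∀ s : ℕ, ∀ᶠ N : ℕ in atTop, ∀ H : CP,
    nw (wt j n N s) (L n H) ≤ C * nw (wt i n N s) H

/-- bounded family of functions -/
def Bdd (a : ℕ → CP) : Prop :=
  ∃ C : ℝ, 0 ≤ C ∧ ∀ n : ℕ, 1 ≤ n → ∀ s : ℕ, ∀ᶠ N : ℕ in atTop, nw (wt 0 n N s) (a n) ≤ C

/-- norm of a quadruple -/
noncomputable def nv (w : ℤ × ℤ → ℝ) (U : Fin 4 → CP) : ℝ := ∑ c, nw w (U c)

/-- the class of nonlinear maps used in the fixed point argument -/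
def Good (Φ : ℕ → (Fin 4 → CP) → CP) : Prop :=
  ∃ C : ℝ, 0 ≤ C ∧ ∀ n : ℕ, 1 ≤ n → ∀ s : ℕ, ∀ᶠ N : ℕ in atTop,
    nw (wt 0 n N s) (Φ n 0) ≤ C / n ^ 4 ∧
    ∀ U V : Fin 4 → CP, nw (wt 0 n N s) (Φ n U - Φ n V) ≤
      C * (1 / n + n ^ 2 * (nv (wt 0 n N s) U + nv (wt 0 n N s) V)) * nv (wt 0 n N s) (U - V)

/-- maps preserving real values -/
def RlMap (Φ : ℕ → (Fin 4 → CP) → CP) : Prop :=
  ∀ n U, (∀ c, IsRl (U c)) → IsRl (Φ n U)

/-- quadratic maps: value 0 at 0 and Lipschitz estimate with loss n^2 -/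
def Quad (Φ : ℕ → (Fin 4 → CP) → CP) : Prop :=
  ∃ C : ℝ, 0 ≤ C ∧ ∀ n : ℕ, 1 ≤ n → Φ n 0 = 0 ∧ ∀ s : ℕ, ∀ᶠ N : ℕ in atTop,
    ∀ U V : Fin 4 → CP, nw (wt 0 n N s) (Φ n U - Φ n V) ≤
      C * n ^ 2 * (nv (wt 0 n N s) U + nv (wt 0 n N s) V) * nv (wt 0 n N s) (U - V)

/-- cos (n x) -/
noncomputable def cX (n : ℕ) : CP := (1 / 2 : ℂ) • (ex ((n : ℤ), 0) + ex (-(n : ℤ), 0))

/-- sin (n x) -/
noncomputable def sX (n : ℕ) : CP := (-Complex.I / 2 : ℂ) • (ex ((n : ℤ), 0) - ex (-(n : ℤ), 0))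

/-- cos (n y) -/
noncomputable def cY (n : ℕ) : CP := (1 / 2 : ℂ) • (ex (0, (n : ℤ)) + ex (0, -(n : ℤ)))

/-- sin (n y) -/
noncomputable def sY (n : ℕ) : CP := (-Complex.I / 2 : ℂ) • (ex (0, (n : ℤ)) - ex (0, -(n : ℤ)))

/-- the rotating frame -/
noncomputable def fr (n : ℕ) (U : Fin 4 → CP) : Fin 4 → CP :=
  ![U 0 * cX n - U 1 * sX n, U 0 * sX n + U 1 * cX n,
    U 2 * cY n - U 3 * sY n, U 2 * sY n + U 3 * cY n]

/-- the two derivations, indexed -/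
noncomputable def DD : Fin 2 → CP →ₗ[ℂ] CP := ![dX, dY]

/-- families of linear forms with bounded real coefficients -/
def RlFam (a : ℕ → CP) : Prop := ∀ n, IsRl (a n)

end Vale.Agent.P205
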