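import Vale.Agent.P205.Contr
import Vale.Agent.P205.Coords

open scoped ContDiff ComplexConjugate
open Real Filter

namespace Vale.Agent.P205

namespace FinalAux

theorem per2_nat (F : CP) (m : ℕ) (x y : ℝ) :
    (F : ℝ × ℝ → ℂ) (x, y + 2 * π * m) = (F : ℝ × ℝ → ℂ) (x, y) := by
  induction m with
  | zero => simp
  | succ m ih =>
    have : y + 2 * π * ((m + 1 : ℕ) : ℝ) = (y + 2 * π * m) + 2 * π := by push_cast; ring
    rw [this, F.perY, ih]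

theorem per2_int (F : CP) (m : ℤ) (x y : ℝ) :
    (F : ℝ × ℝ → ℂ) (x, y + 2 * π * m) = (F : ℝ × ℝ → ℂ) (x, y) := by
  obtain ⟨k, rfl | rfl⟩ := m.eq_nat_or_neg
  · have := per2_nat F k x y
    simpa using this
  · have h := per2_nat F k x (y + 2 * π * ((-(k : ℤ) : ℤ) : ℝ))
    have e : y + 2 * π * ((-(k : ℤ) : ℤ) : ℝ) + 2 * π * (k : ℝ) = y := by push_cast; ring
    rw [e] at h
    exact h.symm

theorem per1 (F : CP) (m : ℤ) (z : ℝ × ℝ) :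
    (F : ℝ × ℝ → ℂ) (z + (2 * π, 2 * π * m)) = (F : ℝ × ℝ → ℂ) z := by
  obtain ⟨x, y⟩ := z
  rw [Prod.mk_add_mk, F.perX, per2_int]

theorem per2 (F : CP) (z : ℝ × ℝ) :
    (F : ℝ × ℝ → ℂ) (z + (0, 2 * π)) = (F : ℝ × ℝ → ℂ) z := by
  obtain ⟨x, y⟩ := z
  rw [Prod.mk_add_mk, add_zero, F.perY]

theorem fderiv_re_comp (F : CP) (Φ : ℝ × ℝ → ℝ × ℝ) (hΦ : ContDiff ℝ ∞ Φ)
    (z v : ℝ × ℝ) : fderiv ℝ (fun z => ((F : ℝ × ℝ → ℂ) (Φ z)).re) z v =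
      (fderiv ℝ Φ z v).1 * ((dX F : ℝ × ℝ → ℂ) (Φ z)).re +
      (fderiv ℝ Φ z v).2 * ((dY F : ℝ × ℝ → ℂ) (Φ z)).re := by
  have hd : DifferentiableAt ℝ Φ z := (hΦ.differentiable (by simp)) z
  have h1 : HasFDerivAt (fun z => ((F : ℝ × ℝ → ℂ) (Φ z)).re)
      (Complex.reCLM.comp ((fderiv ℝ (F : ℝ × ℝ → ℂ) (Φ z)).comp (fderiv ℝ Φ z))) z :=
    Complex.reCLM.hasFDerivAt.comp z ((F.diff (Φ z)).hasFDerivAt.comp z hd.hasFDerivAt)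
  rw [h1.fderiv]
  simp only [ContinuousLinearMap.comp_apply, Complex.reCLM_apply, dX_apply, dY_apply]
  have h2 : fderiv ℝ Φ z v = (fderiv ℝ Φ z v).1 • ((1, 0) : ℝ × ℝ)
      + (fderiv ℝ Φ z v).2 • ((0, 1) : ℝ × ℝ) := by
    ext <;> simp
  conv_lhs => rw [h2]
  rw [map_add, map_smul, map_smul]
  simp

theorem sum_re (F G : Fin 4 → CP) (z : ℝ × ℝ) :
    ((∑ c, F c * G c : CP) : ℝ × ℝ → ℂ) z = ∑ c, (F c : ℝ × ℝ → ℂ) z * (G c : ℝ × ℝ → ℂ) z := by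
  simp only [Fin.sum_univ_four]
  rfl

theorem sum_re' (F G : Fin 4 → CP) (hF : ∀ c, IsRl (F c)) (z : ℝ × ℝ) :
    (((∑ c, F c * G c : CP) : ℝ × ℝ → ℂ) z).re =
      ∑ c, ((F c : ℝ × ℝ → ℂ) z).re * ((G c : ℝ × ℝ → ℂ) z).re := by
  rw [sum_re F G, Complex.re_sum]
  refine Finset.sum_congr rfl fun c _ => ?_
  rw [Complex.mul_re, hF c z, zero_mul, sub_zero]

end FinalAux

open FinalAux in
theorem torus_R4 (g11 g12 g22 : ℝ × ℝ → ℝ) (h11 : ContDiff ℝ ∞ g11) (h12 : ContDiff ℝ ∞ g12)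
    (h22 : ContDiff ℝ ∞ g22)
    (p11 : ∀ x y, g11 (x + 2 * π, y) = g11 (x, y) ∧ g11 (x, y + 2 * π) = g11 (x, y))
    (p12 : ∀ x y, g12 (x + 2 * π, y) = g12 (x, y) ∧ g12 (x, y + 2 * π) = g12 (x, y))
    (p22 : ∀ x y, g22 (x + 2 * π, y) = g22 (x, y) ∧ g22 (x, y + 2 * π) = g22 (x, y))
    (hpos : ∀ z, 0 < g11 z ∧ g12 z ^ 2 < g11 z * g22 z) :
    ∃ f : Fin 4 → ℝ × ℝ → ℝ, (∀ c, ContDiff ℝ ∞ (f c)) ∧
    (∀ c x y, f c (x + 2 * π, y) = f c (x, y) ∧ f c (x, y + 2 * π) = f c (x, y)) ∧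
    ∀ z v : ℝ × ℝ, ∑ c, (fderiv ℝ (f c) z v) ^ 2 =
      g11 z * v.1 ^ 2 + 2 * g12 z * v.1 * v.2 + g22 z * v.2 ^ 2 := by
  obtain ⟨Φ, lE, lG, m, hΦ, hx, hy, rE, rG, hκ, hg⟩ :=
    diag_coords g11 g12 g22 h11 h12 h22 p11 p12 p22 hpos
  obtain ⟨F, hF, m11, m12, m22⟩ := diag_immersion lE lG rE rG hκ
  refine ⟨fun c z => ((F c : ℝ × ℝ → ℂ) (Φ z)).re, ?_, ?_, ?_⟩
  · intro c
    exact Complex.reCLM.contDiff.comp ((F c).smooth.comp hΦ)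
  · intro c x y
    have h1 := hx (x, y)
    have h2 := hy (x, y)
    simp only [Prod.mk_add_mk, add_zero] at h1 h2
    constructor
    · simp only [h1, per1]
    · simp only [h2, per2]
  · intro z v
    rw [hg z v]
    set a := (fderiv ℝ Φ z v).1 with ha
    set b := (fderiv ℝ Φ z v).2 with hb
    have e1 := congrArg (fun G : CP => ((G : ℝ × ℝ → ℂ) (Φ z)).re) m11
    have e2 := congrArg (fun G : CP => ((G : ℝ × ℝ → ℂ) (Φ z)).re) m12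
    have e3 := congrArg (fun G : CP => ((G : ℝ × ℝ → ℂ) (Φ z)).re) m22
    beta_reduce at e1 e2 e3
    rw [sum_re' _ _ (fun c => (hF c).dX)] at e1 e2
    rw [sum_re' _ _ (fun c => (hF c).dY)] at e3
    have x1 : ((ee lE : ℝ × ℝ → ℂ) (Φ z)).re = Real.exp (((lE : ℝ × ℝ → ℂ) (Φ z)).re) := by
      rw [ee_apply, Complex.exp_re, rE (Φ z), Real.cos_zero, mul_one]
    have x2 : ((ee lG : ℝ × ℝ → ℂ) (Φ z)).re = Real.exp (((lG : ℝ × ℝ → ℂ) (Φ z)).re) := by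
      rw [ee_apply, Complex.exp_re, rG (Φ z), Real.cos_zero, mul_one]
    have x0 : (((0 : CP) : ℝ × ℝ → ℂ) (Φ z)).re = 0 := rfl
    rw [x1] at e1
    rw [x2] at e3
    rw [x0] at e2
    rw [← e1, ← e3]
    have h4 : ∀ c, fderiv ℝ (fun z => ((F c : ℝ × ℝ → ℂ) (Φ z)).re) z v =
        a * ((dX (F c) : ℝ × ℝ → ℂ) (Φ z)).re + b * ((dY (F c) : ℝ × ℝ → ℂ) (Φ z)).re :=
      fun c => fderiv_re_comp (F c) Φ hΦ z v
    simp only [h4, Fin.sum_univ_four] at e2 ⊢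
    linear_combination 2 * a * b * e2

end Vale.Agent.P205
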