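import Vale.Agent.P205.Goods

open scoped ContDiff ComplexConjugate Topology
open Real Filter

namespace Vale.Agent.P205

namespace FixAux

open GAux NAux

theorem coef_zero (k : ℤ × ℤ) : coef (0 : CP) k = 0 := by
  have : (0 : CP) = (0 : ℂ) • (0 : CP) := by simp
  rw [this, coef_smul, zero_mul]

theorem coef_neg (F : CP) (k : ℤ × ℤ) : coef (-F) k = -coef F k := by
  have : -F = (-1 : ℂ) • F := by simp
  rw [this, coef_smul]; ring

theorem coef_sub (F G : CP) (k : ℤ × ℤ) : coef (F - G) k = coef F k - coef G k := by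
  rw [sub_eq_add_neg, coef_add, coef_neg]; ring

theorem complete (y : ℕ → CP) (h : ∀ m : ℕ, ∃ A : ℝ, ∀ p k,
    (1 + sz k) ^ m * ‖coef (y (p + 1) - y p) k‖ ≤ A * (1 / 2) ^ p) :
    ∃ Y : CP, ∀ m : ℕ, ∃ A : ℝ, ∀ p k, (1 + sz k) ^ m * ‖coef (y p - Y) k‖ ≤ A * (1 / 2) ^ p := by
  have hpos : ∀ (m : ℕ) (k : ℤ × ℤ), 1 ≤ (1 + sz k) ^ m := fun m k =>
    one_le_pow₀ (by have := sz_nonneg k; linarith)
  -- pointwise limits
  obtain ⟨A0, hA0⟩ := h 0
  have hlim : ∀ k, ∃ a : ℂ, Tendsto (fun p => coef (y p) k) atTop (𝓝 a) := by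
    intro k
    refine cauchySeq_tendsto_of_complete ?_
    refine cauchySeq_of_le_geometric (1 / 2) A0 (by norm_num) fun p => ?_
    rw [dist_comm, dist_eq_norm, ← coef_sub]
    simpa using hA0 p k
  choose a ha using hlim
  have hbound : ∀ m : ℕ, ∃ A : ℝ, 0 ≤ A ∧ ∀ p k,
      (1 + sz k) ^ m * ‖coef (y p) k - a k‖ ≤ A * (1 / 2) ^ p := by
    intro m
    obtain ⟨A, hA⟩ := h m
    have hA00 : 0 ≤ A := by
      have := hA 0 0
      have h2 : 0 ≤ (1 + sz 0) ^ m * ‖coef (y (0 + 1) - y 0) 0‖ := by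
        have := sz_nonneg 0; positivity
      simp only [pow_zero, mul_one] at this
      linarith
    refine ⟨2 * A, by positivity, fun p k => ?_⟩
    have hd := dist_le_of_le_geometric_of_tendsto (f := fun p => coef (y p) k) (1 / 2)
      (A / (1 + sz k) ^ m) (by norm_num) (fun q => ?_) (ha k) p
    · rw [dist_eq_norm] at hd
      have hp := hpos m k
      calc (1 + sz k) ^ m * ‖coef (y p) k - a k‖
          ≤ (1 + sz k) ^ m * (A / (1 + sz k) ^ m * (1 / 2) ^ p / (1 - 1 / 2)) :=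
            mul_le_mul_of_nonneg_left hd (by positivity)
        _ = _ := by
            have : (1 + sz k) ^ m ≠ 0 := by positivity
            field_simp
            norm_num
    · rw [dist_comm, dist_eq_norm, ← coef_sub]
      have hp := hpos m k
      rw [div_mul_eq_mul_div, le_div_iff₀ (by positivity), mul_comm]
      exact hA q k
  have hser : ∀ m : ℕ, Summable fun k => (1 + sz k) ^ m * ‖a k‖ := by
    intro m
    obtain ⟨A, hA00, hA⟩ := hbound m
    obtain ⟨B, hB00, hB⟩ := hbound (m + 4)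
    have h1 : Summable fun k => (1 + sz k) ^ m * ‖coef (y 0) k‖ := coef_rapid (y 0) m
    have h2 : Summable fun k => (1 + sz k) ^ m * ‖coef (y 0) k - a k‖ := by
      refine Summable.of_nonneg_of_le (fun k => by have := sz_nonneg k; positivity) (fun k => ?_)
        (F1.summable_two_dim.mul_left B)
      have hp : 0 < (1 + sz k) ^ 4 := by have := sz_nonneg k; positivity
      rw [← div_eq_mul_inv, le_div_iff₀ hp]
      calc _ = (1 + sz k) ^ (m + 4) * ‖coef (y 0) k - a k‖ := by ring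
        _ ≤ B * (1 / 2) ^ 0 := hB 0 k
        _ = B := by simp
    refine Summable.of_nonneg_of_le (fun k => by have := sz_nonneg k; positivity) (fun k => ?_)
      (h1.add h2)
    rw [← mul_add]
    refine mul_le_mul_of_nonneg_left ?_ (by have := sz_nonneg k; positivity)
    have e : a k = coef (y 0) k - (coef (y 0) k - a k) := by ring
    calc ‖a k‖ = ‖coef (y 0) k - (coef (y 0) k - a k)‖ := by rw [← e]
      _ ≤ _ := norm_sub_le _ _
  obtain ⟨Y, hY⟩ := exists_ser a hser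
  refine ⟨Y, fun m => ?_⟩
  obtain ⟨A, -, hA⟩ := hbound m
  refine ⟨A, fun p k => ?_⟩
  rw [coef_sub, hY]
  exact hA p k

/-- polynomially weighted pointwise convergence gives norm convergence -/
theorem nw_of_pointwise {w : ℤ × ℤ → ℝ} (hw : IsWt w) (y : ℕ → CP)
    (h : ∀ m : ℕ, ∃ A : ℝ, ∀ p k, (1 + sz k) ^ m * ‖coef (y p) k‖ ≤ A * (1 / 2) ^ p) :
    ∃ A : ℝ, ∀ p, nw w (y p) ≤ A * (1 / 2) ^ p := by
  obtain ⟨m, C, hC⟩ := hw.growth
  have hC0 : 0 ≤ C := by
    have h1 := hC 0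
    have h2 := hw.one_le 0
    have h3 : (1 + sz 0) ^ m = 1 := by simp [sz]
    rw [h3, mul_one] at h1
    linarith
  obtain ⟨A, hA⟩ := h (m + 4)
  have hs := F1.summable_two_dim
  refine ⟨∑' k, (C * A) * ((1 + sz k) ^ 4)⁻¹, fun p => ?_⟩
  rw [← tsum_mul_right]
  refine (nw_summable hw _).tsum_le_tsum (fun k => ?_) ((hs.mul_left _).mul_right _)
  have hp : 0 < (1 + sz k) ^ 4 := by have := sz_nonneg k; positivity
  have h1 : ‖coef (y p) k‖ * (1 + sz k) ^ m ≤ A * (1 / 2) ^ p * ((1 + sz k) ^ 4)⁻¹ := by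
    rw [← div_eq_mul_inv, le_div_iff₀ hp]
    calc _ = (1 + sz k) ^ (m + 4) * ‖coef (y p) k‖ := by ring
      _ ≤ _ := hA p k
  calc w k * ‖coef (y p) k‖ ≤ C * (1 + sz k) ^ m * ‖coef (y p) k‖ :=
        mul_le_mul_of_nonneg_right (hC k) (norm_nonneg _)
    _ = C * (‖coef (y p) k‖ * (1 + sz k) ^ m) := by ring
    _ ≤ C * (A * (1 / 2) ^ p * ((1 + sz k) ^ 4)⁻¹) := mul_le_mul_of_nonneg_left h1 hC0
    _ = _ := by ring

theorem nv_add_le {w : ℤ × ℤ → ℝ} (hw : IsWt w) (U V : Fin 4 → CP) :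
    nv w (U + V) ≤ nv w U + nv w V := by
  unfold nv
  rw [← Finset.sum_add_distrib]
  exact Finset.sum_le_sum fun c _ => nw_add_le hw (U c) (V c)

theorem nv_zero (w : ℤ × ℤ → ℝ) : nv w 0 = 0 := by
  unfold nv
  refine Finset.sum_eq_zero fun c _ => ?_
  exact nw_zero w

theorem nv_comm (w : ℤ × ℤ → ℝ) (U V : Fin 4 → CP) : nv w (U - V) = nv w (V - U) := by
  unfold nv
  refine Finset.sum_congr rfl fun c _ => ?_
  rw [Pi.sub_apply, Pi.sub_apply, ← nw_neg, neg_sub]

/-- joint estimate for the four components -/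
theorem joint (Φ : ℕ → (Fin 4 → CP) → Fin 4 → CP) (h : ∀ c, Good (fun n U => Φ n U c)) :
    ∃ C : ℝ, 0 ≤ C ∧ ∀ n : ℕ, 1 ≤ n → ∀ s : ℕ, ∀ᶠ N : ℕ in atTop,
    nv (wt 0 n N s) (Φ n 0) ≤ C / n ^ 4 ∧
    ∀ U V : Fin 4 → CP, nv (wt 0 n N s) (Φ n U - Φ n V) ≤
      C * (1 / n + n ^ 2 * (nv (wt 0 n N s) U + nv (wt 0 n N s) V)) *
        nv (wt 0 n N s) (U - V) := by
  choose C hC0 hC using h
  refine ⟨∑ c, C c, Finset.sum_nonneg fun c _ => hC0 c, fun n hn s => ?_⟩
  have hall : ∀ᶠ N : ℕ in atTop, ∀ c, nw (wt 0 n N s) (Φ n 0 c) ≤ C c / n ^ 4 ∧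
    ∀ U V : Fin 4 → CP, nw (wt 0 n N s) (Φ n U c - Φ n V c) ≤
      C c * (1 / n + n ^ 2 * (nv (wt 0 n N s) U + nv (wt 0 n N s) V)) *
        nv (wt 0 n N s) (U - V) := eventually_all.mpr fun c => hC c n hn s
  filter_upwards [hall] with N hN
  constructor
  · rw [Finset.sum_div]
    exact Finset.sum_le_sum fun c _ => (hN c).1
  · intro U V
    rw [Finset.sum_mul, Finset.sum_mul]
    exact Finset.sum_le_sum fun c _ => (hN c).2 U V

end FixAux

open FixAux GAux NAux

theorem exists_fix (Φ : ℕ → (Fin 4 → CP) → Fin 4 → CP) (h : ∀ c, Good (fun n U => Φ n U c))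
    (hr : ∀ c, RlMap (fun n U => Φ n U c)) :
    ∃ n : ℕ, 1 ≤ n ∧ ∃ U : Fin 4 → CP, Φ n U = U ∧ ∀ c, IsRl (U c) := by
  obtain ⟨C, hC0, hC⟩ := joint Φ h
  obtain ⟨n, hn⟩ := exists_nat_ge (4 * C + 1)
  have hn1 : (1 : ℝ) ≤ n := by linarith
  have hn1' : 1 ≤ n := by exact_mod_cast hn1
  have hnp : (0 : ℝ) < n := by linarith
  have hh := hC n hn1'
  set r : ℝ := 2 * (C / n ^ 4) with hrdef
  have hr0 : 0 ≤ r := by positivity
  -- the contraction constant
  have hcon : C * (1 / n + n ^ 2 * (r + r)) ≤ 1 / 2 := by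
    have e : C * (1 / (n : ℝ) + n ^ 2 * (r + r)) = C / n + (2 * C / n) ^ 2 := by
      rw [hrdef]; field_simp; ring
    rw [e]
    have h1 : C / n ≤ 1 / 4 := by
      rw [div_le_div_iff₀ hnp (by norm_num)]; linarith
    have h2 : 2 * C / n ≤ 1 / 2 := by
      rw [div_le_div_iff₀ hnp (by norm_num)]; linarith
    have h3 : 0 ≤ 2 * C / n := by positivity
    have h4 : (2 * C / n) ^ 2 ≤ (1 / 2) ^ 2 := pow_le_pow_left₀ h3 h2 2
    norm_num at h4 ⊢
    linarith
  have hsel : ∀ s : ℕ, ∃ N : ℕ, 1 ≤ N ∧ nv (wt 0 n N s) (Φ n 0) ≤ C / n ^ 4 ∧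
    ∀ U V : Fin 4 → CP, nv (wt 0 n N s) (Φ n U - Φ n V) ≤
      C * (1 / n + n ^ 2 * (nv (wt 0 n N s) U + nv (wt 0 n N s) V)) *
        nv (wt 0 n N s) (U - V) := by
    intro s
    obtain ⟨N, hN1, hN2⟩ := ((eventually_ge_atTop 1).and (hh s)).exists
    exact ⟨N, hN1, hN2⟩
  choose N hN1 hN2 hN3 using hsel
  -- iteration
  let x : ℕ → Fin 4 → CP := fun p => (Φ n)^[p] 0
  have hx0 : x 0 = 0 := rfl
  have hxs : ∀ p, x (p + 1) = Φ n (x p) := fun p => Function.iterate_succ_apply' _ _ _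
  have hball : ∀ s p, nv (wt 0 n (N s) s) (x p) ≤ r := by
    intro s p
    have hw := wt_isWt 0 n (N s) s
    induction p with
    | zero => rw [hx0, nv_zero]; exact hr0
    | succ p ih =>
      rw [hxs]
      have e : Φ n (x p) = Φ n 0 + (Φ n (x p) - Φ n 0) := by abel
      rw [e]
      refine (nv_add_le hw _ _).trans ?_
      have h1 := hN3 s (x p) 0
      rw [nv_zero, add_zero, sub_zero] at h1
      have h0 := nv_nonneg hw (x p)
      have h2 : C * (1 / n + n ^ 2 * (nv (wt 0 n (N s) s) (x p))) ≤ 1 / 2 := by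
        refine le_trans ?_ hcon
        refine mul_le_mul_of_nonneg_left ?_ hC0
        have : (n : ℝ) ^ 2 * nv (wt 0 n (N s) s) (x p) ≤ n ^ 2 * (r + r) :=
          mul_le_mul_of_nonneg_left (by linarith) (by positivity)
        linarith
      have h3 : nv (wt 0 n (N s) s) (Φ n (x p) - Φ n 0) ≤ 1 / 2 * r := by
        refine h1.trans ?_
        exact mul_le_mul h2 ih h0 (by norm_num)
      have h4 := hN2 s
      linarith
  have hstep : ∀ s p, nv (wt 0 n (N s) s) (x (p + 1) - x p) ≤ r * (1 / 2) ^ p := by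
    intro s p
    have hw := wt_isWt 0 n (N s) s
    induction p with
    | zero =>
      rw [hxs, hx0, sub_zero, pow_zero, mul_one]
      have h4 := hN2 s
      have : 0 ≤ C / (n : ℝ) ^ 4 := by positivity
      linarith
    | succ p ih =>
      rw [hxs (p + 1), hxs p]
      rw [hxs p] at ih
      have h1 := hN3 s (Φ n (x p)) (x p)
      have b1 : nv (wt 0 n (N s) s) (Φ n (x p)) ≤ r := by rw [← hxs]; exact hball s (p + 1)
      have b2 := hball s p
      have h0 := nv_nonneg hw (Φ n (x p) - x p)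
      have h2 : C * (1 / n + n ^ 2 * (nv (wt 0 n (N s) s) (Φ n (x p)) +
          nv (wt 0 n (N s) s) (x p))) ≤ 1 / 2 := by
        refine le_trans ?_ hcon
        refine mul_le_mul_of_nonneg_left ?_ hC0
        have : (n : ℝ) ^ 2 * (nv (wt 0 n (N s) s) (Φ n (x p)) +
          nv (wt 0 n (N s) s) (x p)) ≤ n ^ 2 * (r + r) :=
          mul_le_mul_of_nonneg_left (by linarith) (by positivity)
        linarith
      calc _ ≤ _ := h1
        _ ≤ 1 / 2 * (r * (1 / 2) ^ p) := mul_le_mul h2 ih h0 (by norm_num)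
        _ = _ := by ring
  -- polynomial pointwise estimates
  have hpt : ∀ (m : ℕ) (c : Fin 4), ∃ A : ℝ, ∀ p k,
      (1 + sz k) ^ m * ‖coef (x (p + 1) c - x p c) k‖ ≤ A * (1 / 2) ^ p := by
    intro m c
    refine ⟨(N m : ℝ) ^ m * r, fun p k => ?_⟩
    have hw := wt_isWt 0 n (N m) m
    have hN : (1 : ℝ) ≤ N m := by exact_mod_cast hN1 m
    have hNp : (0 : ℝ) < N m := by linarith
    have hk := sz_nonneg k
    have h1 : (1 + sz k) ^ m ≤ (N m : ℝ) ^ m * wt 0 n (N m) m k := by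
      unfold wt
      have e1 : (1 + sz k) ≤ N m * (1 + sz k / N m) := by
        rw [mul_add, mul_one, mul_div_cancel₀ _ hNp.ne']
        linarith
      have e2 : (1 + sz k) ^ m ≤ (N m * (1 + sz k / N m)) ^ m :=
        pow_le_pow_left₀ (by positivity) e1 m
      rw [mul_pow] at e2
      refine e2.trans ?_
      refine mul_le_mul_of_nonneg_left ?_ (by positivity)
      rw [pow_zero, one_mul]
      refine le_mul_of_one_le_left (by positivity) (one_le_pow₀ ?_)
      have : 0 ≤ sz k / (n : ℝ) := by positivity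
      linarith
    have h2 : wt 0 n (N m) m k * ‖coef (x (p + 1) c - x p c) k‖ ≤ r * (1 / 2) ^ p := by
      refine le_trans ?_ (hstep m p)
      refine le_trans ?_ (le_nv hw (x (p + 1) - x p) c)
      exact (nw_summable hw (x (p + 1) c - x p c)).le_tsum k
        (fun j _ => mul_nonneg (wpos hw j) (norm_nonneg _))
    calc (1 + sz k) ^ m * ‖coef (x (p + 1) c - x p c) k‖
        ≤ ((N m : ℝ) ^ m * wt 0 n (N m) m k) * ‖coef (x (p + 1) c - x p c) k‖ :=
          mul_le_mul_of_nonneg_right h1 (norm_nonneg _)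
      _ = (N m : ℝ) ^ m * (wt 0 n (N m) m k * ‖coef (x (p + 1) c - x p c) k‖) := by ring
      _ ≤ (N m : ℝ) ^ m * (r * (1 / 2) ^ p) := mul_le_mul_of_nonneg_left h2 (by positivity)
      _ = _ := by ring
  have hY : ∀ c : Fin 4, ∃ Y : CP, ∀ m : ℕ, ∃ A : ℝ, ∀ p k,
      (1 + sz k) ^ m * ‖coef (x p c - Y) k‖ ≤ A * (1 / 2) ^ p :=
    fun c => complete (fun p => x p c) fun m => hpt m c
  choose U hU using hY
  have hw := wt_isWt 0 n (N 0) 0
  have hconv : ∃ A : ℝ, 0 ≤ A ∧ ∀ p, nv (wt 0 n (N 0) 0) (x p - U) ≤ A * (1 / 2) ^ p := by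
    have h1 : ∀ c, ∃ A : ℝ, ∀ p, nw (wt 0 n (N 0) 0) (x p c - U c) ≤ A * (1 / 2) ^ p :=
      fun c => nw_of_pointwise hw (fun p => x p c - U c) (hU c)
    choose A hA using h1
    have h2 : ∀ p, nv (wt 0 n (N 0) 0) (x p - U) ≤ (∑ c, A c) * (1 / 2) ^ p := by
      intro p
      unfold nv
      rw [Finset.sum_mul]
      exact Finset.sum_le_sum fun c _ => hA c p
    refine ⟨∑ c, A c, ?_, h2⟩
    have h3 := h2 0
    rw [pow_zero, mul_one] at h3
    exact (nv_nonneg hw _).trans h3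
  obtain ⟨A, hA0, hA⟩ := hconv
  refine ⟨n, hn1', U, ?_, ?_⟩
  · -- fixed point
    have hz : nv (wt 0 n (N 0) 0) (Φ n U - U) ≤ 0 := by
      set K : ℝ := C * (1 / n + n ^ 2 * (nv (wt 0 n (N 0) 0) U + r)) * A + A with hK
      have hb : ∀ p : ℕ, nv (wt 0 n (N 0) 0) (Φ n U - U) ≤ K * (1 / 2) ^ p := by
        intro p
        have e : Φ n U - U = (Φ n U - Φ n (x p)) + (x (p + 1) - U) := by rw [hxs]; abel
        rw [e]
        refine (nv_add_le hw _ _).trans ?_
        have h1 := hN3 0 U (x p)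
        have h2 := hA (p + 1)
        have h3 := hA p
        rw [nv_comm] at h3
        have h4 := hball 0 p
        have h5 := nv_nonneg hw U
        have h6 := nv_nonneg hw (U - x p)
        have h7 : C * (1 / n + n ^ 2 * (nv (wt 0 n (N 0) 0) U + nv (wt 0 n (N 0) 0) (x p))) ≤
            C * (1 / n + n ^ 2 * (nv (wt 0 n (N 0) 0) U + r)) := by
          refine mul_le_mul_of_nonneg_left ?_ hC0
          have : (n : ℝ) ^ 2 * (nv (wt 0 n (N 0) 0) U + nv (wt 0 n (N 0) 0) (x p)) ≤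
            n ^ 2 * (nv (wt 0 n (N 0) 0) U + r) :=
            mul_le_mul_of_nonneg_left (by linarith) (by positivity)
          linarith
        have h8 : nv (wt 0 n (N 0) 0) (Φ n U - Φ n (x p)) ≤
            C * (1 / n + n ^ 2 * (nv (wt 0 n (N 0) 0) U + r)) * (A * (1 / 2) ^ p) := by
          refine h1.trans (mul_le_mul h7 h3 h6 ?_)
          positivity
        have h9 : A * (1 / 2 : ℝ) ^ (p + 1) ≤ A * (1 / 2) ^ p := by
          refine mul_le_mul_of_nonneg_left ?_ hA0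
          rw [pow_succ]
          have : (0 : ℝ) ≤ (1 / 2) ^ p := by positivity
          linarith
        rw [hK]
        linarith
      have ht : Tendsto (fun p : ℕ => K * (1 / 2 : ℝ) ^ p) atTop (𝓝 (K * 0)) :=
        (tendsto_pow_atTop_nhds_zero_of_lt_one (by norm_num) (by norm_num)).const_mul K
      rw [mul_zero] at ht
      exact ge_of_tendsto' ht hb
    have hz2 : ∀ c, nw (wt 0 n (N 0) 0) (Φ n U c - U c) = 0 := by
      intro c
      have h1 := le_nv hw (Φ n U - U) c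
      have h2 := nw_nonneg hw (Φ n U c - U c)
      have h3 : nw (wt 0 n (N 0) 0) ((Φ n U - U) c) = nw (wt 0 n (N 0) 0) (Φ n U c - U c) := rfl
      rw [h3] at h1
      linarith
    funext c
    exact sub_eq_zero.mp (nw_eq_zero hw _ (hz2 c))
  · -- real valued
    have hxr : ∀ p c, IsRl (x p c) := by
      intro p
      induction p with
      | zero => intro c; rw [hx0]; exact IsRl.zero
      | succ p ih => intro c; rw [hxs]; exact hr c n (x p) ih
    intro c
    rw [isRl_iff]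
    intro k
    obtain ⟨B, hB⟩ := hU c 0
    have hlim : ∀ k, Tendsto (fun p => coef (x p c) k) atTop (𝓝 (coef (U c) k)) := by
      intro k
      rw [tendsto_iff_norm_sub_tendsto_zero]
      have ht : Tendsto (fun p : ℕ => B * (1 / 2 : ℝ) ^ p) atTop (𝓝 (B * 0)) :=
        (tendsto_pow_atTop_nhds_zero_of_lt_one (by norm_num) (by norm_num)).const_mul B
      rw [mul_zero] at ht
      refine squeeze_zero (fun _ => norm_nonneg _) (fun p => ?_) ht
      rw [← coef_sub]
      simpa using hB p k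
    have h1 := hlim (-k)
    have h2 : Tendsto (fun p => conj (coef (x p c) k)) atTop (𝓝 (conj (coef (U c) k))) :=
      (Complex.continuous_conj.tendsto _).comp (hlim k)
    have h3 : (fun p => coef (x p c) (-k)) = fun p => conj (coef (x p c) k) := by
      funext p
      exact (isRl_iff _).mp (hxr p c) k
    rw [h3] at h1
    exact tendsto_nhds_unique h1 h2

end Vale.Agent.P205
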