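import Vale.Agent.P205.Defs

open scoped ContDiff ComplexConjugate
open Real Filter MeasureTheory intervalIntegral

namespace Vale.Agent.P205

namespace F1

/-- mean value of a function of two variables over a period square -/
noncomputable def mn (f : ℝ × ℝ → ℂ) : ℂ :=
  (1 / (2 * π) ^ 2 : ℂ) * ∫ x in (0 : ℝ)..(2 * π), ∫ y in (0 : ℝ)..(2 * π), f (x, y)

theorem cont_inner {f : ℝ × ℝ → ℂ} (hf : Continuous f) :
    Continuous fun x : ℝ => ∫ y in (0 : ℝ)..(2 * π), f (x, y) :=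
  intervalIntegral.continuous_parametric_intervalIntegral_of_continuous' (f := fun x y => f (x, y))
    (by simpa [Function.uncurry_def] using hf) 0 (2 * π)

theorem cont_sec {f : ℝ × ℝ → ℂ} (hf : Continuous f) (x : ℝ) : Continuous fun y : ℝ => f (x, y) :=
  hf.comp (by fun_prop)

theorem mn_add {f g : ℝ × ℝ → ℂ} (hf : Continuous f) (hg : Continuous g) :
    mn (fun z => f z + g z) = mn f + mn g := by
  unfold mn
  rw [← mul_add, ← intervalIntegral.integral_add ((cont_inner hf).intervalIntegrable _ _)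
    ((cont_inner hg).intervalIntegrable _ _)]
  congr 1
  refine intervalIntegral.integral_congr fun x _ => ?_
  exact intervalIntegral.integral_add ((cont_sec hf x).intervalIntegrable _ _)
    ((cont_sec hg x).intervalIntegrable _ _)

theorem mn_smul (c : ℂ) (f : ℝ × ℝ → ℂ) : mn (fun z => c * f z) = c * mn f := by
  unfold mn
  have : ∀ x : ℝ, ∫ y in (0 : ℝ)..(2 * π), c * f (x, y) =
      c * ∫ y in (0 : ℝ)..(2 * π), f (x, y) :=
    fun x => intervalIntegral.integral_const_mul _ _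
  simp only [this, intervalIntegral.integral_const_mul]
  ring

theorem swap {f : ℝ × ℝ → ℂ} (hf : Continuous f) :
    ∫ x in (0 : ℝ)..(2 * π), ∫ y in (0 : ℝ)..(2 * π), f (x, y) =
    ∫ y in (0 : ℝ)..(2 * π), ∫ x in (0 : ℝ)..(2 * π), f (x, y) := by
  refine intervalIntegral_intervalIntegral_swap (F := fun x y => f (x, y)) ?_
  have hc : Continuous (Function.uncurry fun x y : ℝ => f (x, y)) := by
    simpa [Function.uncurry_def] using hf
  refine (hc.continuousOn.integrableOn_compact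
    ((isCompact_uIcc (a := (0 : ℝ)) (b := 2 * π)).prod
      (isCompact_uIcc (a := (0 : ℝ)) (b := 2 * π)))).mono_set ?_
  exact Set.prod_mono Set.uIoc_subset_uIcc Set.uIoc_subset_uIcc

theorem mn_dY (F : CP) : mn (dY F : ℝ × ℝ → ℂ) = 0 := by
  unfold mn
  have h : ∀ x : ℝ, ∫ y in (0 : ℝ)..(2 * π), (dY F : ℝ × ℝ → ℂ) (x, y) = 0 := by
    intro x
    have hd : ∀ y ∈ Set.uIcc (0 : ℝ) (2 * π),
        HasDerivAt (fun y : ℝ => (F : ℝ × ℝ → ℂ) (x, y)) ((dY F : ℝ × ℝ → ℂ) (x, y)) y := by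
      intro y _
      have h1 : HasFDerivAt (F : ℝ × ℝ → ℂ) (fderiv ℝ (F : ℝ × ℝ → ℂ) (x, y)) (x, y) :=
        (F.diff (x, y)).hasFDerivAt
      have h2 : HasDerivAt (fun y : ℝ => ((x, y) : ℝ × ℝ)) ((0 : ℝ), (1 : ℝ)) y :=
        (hasDerivAt_const y x).prodMk (hasDerivAt_id y)
      exact h1.comp_hasDerivAt y h2
    rw [intervalIntegral.integral_eq_sub_of_hasDerivAt hd
      ((cont_sec (dY F).smooth.continuous x).intervalIntegrable _ _)]
    have := F.perY x 0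
    rw [zero_add] at this
    rw [this, sub_self]
  simp [h]

theorem mn_dX (F : CP) : mn (dX F : ℝ × ℝ → ℂ) = 0 := by
  unfold mn
  rw [swap (dX F).smooth.continuous]
  have h : ∀ y : ℝ, ∫ x in (0 : ℝ)..(2 * π), (dX F : ℝ × ℝ → ℂ) (x, y) = 0 := by
    intro y
    have hd : ∀ x ∈ Set.uIcc (0 : ℝ) (2 * π),
        HasDerivAt (fun x : ℝ => (F : ℝ × ℝ → ℂ) (x, y)) ((dX F : ℝ × ℝ → ℂ) (x, y)) x := by
      intro x _
      have h1 : HasFDerivAt (F : ℝ × ℝ → ℂ) (fderiv ℝ (F : ℝ × ℝ → ℂ) (x, y)) (x, y) :=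
        (F.diff (x, y)).hasFDerivAt
      have h2 : HasDerivAt (fun x : ℝ => ((x, y) : ℝ × ℝ)) ((1 : ℝ), (0 : ℝ)) x :=
        (hasDerivAt_id x).prodMk (hasDerivAt_const x y)
      exact h1.comp_hasDerivAt x h2
    have hc : Continuous fun x : ℝ => (dX F : ℝ × ℝ → ℂ) (x, y) :=
      (dX F).smooth.continuous.comp (by fun_prop)
    rw [intervalIntegral.integral_eq_sub_of_hasDerivAt hd (hc.intervalIntegrable _ _)]
    have := F.perX 0 y
    rw [zero_add] at this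
    rw [this, sub_self]
  simp [h]

theorem coef_eq (F : CP) (k : ℤ × ℤ) : coef F k = mn ((F * ex (-k) : CP) : ℝ × ℝ → ℂ) := by
  unfold coef mn
  congr 1
  refine intervalIntegral.integral_congr fun x _ => ?_
  refine intervalIntegral.integral_congr fun y _ => ?_
  have : ((F * ex (-k) : CP) : ℝ × ℝ → ℂ) (x, y) = (F : ℝ × ℝ → ℂ) (x, y) *
      Complex.exp (Complex.I * (((-k).1 : ℂ) * x + ((-k).2 : ℂ) * y)) := rfl
  simp only [this]
  congr 2
  push_cast [Prod.fst_neg, Prod.snd_neg]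
  ring

theorem dX_ex (m : ℤ × ℤ) : dX (ex m) = (Complex.I * m.1) • ex m := by
  ext z
  have h : HasFDerivAt (fun z : ℝ × ℝ => Complex.I * ((m.1 : ℂ) * z.1 + (m.2 : ℂ) * z.2))
      (Complex.I • ((m.1 : ℂ) • (Complex.ofRealCLM.comp (ContinuousLinearMap.fst ℝ ℝ ℝ)) +
        (m.2 : ℂ) • (Complex.ofRealCLM.comp (ContinuousLinearMap.snd ℝ ℝ ℝ)))) z := by
    refine HasFDerivAt.const_mul ?_ _
    refine HasFDerivAt.add (HasFDerivAt.const_mul ?_ _) (HasFDerivAt.const_mul ?_ _)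
    · exact Complex.ofRealCLM.hasFDerivAt.comp z hasFDerivAt_fst
    · exact Complex.ofRealCLM.hasFDerivAt.comp z hasFDerivAt_snd
  have h2 := h.cexp
  have h3 : ((dX (ex m) : CP) : ℝ × ℝ → ℂ) z = fderiv ℝ (fun z : ℝ × ℝ =>
      Complex.exp (Complex.I * ((m.1 : ℂ) * z.1 + (m.2 : ℂ) * z.2))) z (1, 0) := rfl
  rw [h3, h2.fderiv]
  have h4 : (((Complex.I * m.1) • ex m : CP) : ℝ × ℝ → ℂ) z = (Complex.I * m.1) *
    Complex.exp (Complex.I * ((m.1 : ℂ) * z.1 + (m.2 : ℂ) * z.2)) := rfl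
  rw [h4]
  simp
  ring

theorem dY_ex (m : ℤ × ℤ) : dY (ex m) = (Complex.I * m.2) • ex m := by
  ext z
  have h : HasFDerivAt (fun z : ℝ × ℝ => Complex.I * ((m.1 : ℂ) * z.1 + (m.2 : ℂ) * z.2))
      (Complex.I • ((m.1 : ℂ) • (Complex.ofRealCLM.comp (ContinuousLinearMap.fst ℝ ℝ ℝ)) +
        (m.2 : ℂ) • (Complex.ofRealCLM.comp (ContinuousLinearMap.snd ℝ ℝ ℝ)))) z := by
    refine HasFDerivAt.const_mul ?_ _
    refine HasFDerivAt.add (HasFDerivAt.const_mul ?_ _) (HasFDerivAt.const_mul ?_ _)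
    · exact Complex.ofRealCLM.hasFDerivAt.comp z hasFDerivAt_fst
    · exact Complex.ofRealCLM.hasFDerivAt.comp z hasFDerivAt_snd
  have h2 := h.cexp
  have h3 : ((dY (ex m) : CP) : ℝ × ℝ → ℂ) z = fderiv ℝ (fun z : ℝ × ℝ =>
      Complex.exp (Complex.I * ((m.1 : ℂ) * z.1 + (m.2 : ℂ) * z.2))) z (0, 1) := rfl
  rw [h3, h2.fderiv]
  have h4 : (((Complex.I * m.2) • ex m : CP) : ℝ × ℝ → ℂ) z = (Complex.I * m.2) *
    Complex.exp (Complex.I * ((m.1 : ℂ) * z.1 + (m.2 : ℂ) * z.2)) := rfl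
  rw [h4]
  simp
  ring

theorem ex_add (m m' : ℤ × ℤ) : ex (m + m') = ex m * ex m' := by
  ext z
  have h1 : ((ex m * ex m' : CP) : ℝ × ℝ → ℂ) z =
    Complex.exp (Complex.I * ((m.1 : ℂ) * z.1 + (m.2 : ℂ) * z.2)) *
    Complex.exp (Complex.I * ((m'.1 : ℂ) * z.1 + (m'.2 : ℂ) * z.2)) := rfl
  have h2 : ((ex (m + m') : CP) : ℝ × ℝ → ℂ) z =
    Complex.exp (Complex.I * (((m + m').1 : ℂ) * z.1 + ((m + m').2 : ℂ) * z.2)) := rfl
  rw [h1, h2, ← Complex.exp_add]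
  congr 1
  push_cast [Prod.fst_add, Prod.snd_add]
  ring

theorem ex_zero : ex 0 = 1 := by
  ext z
  have h2 : ((ex 0 : CP) : ℝ × ℝ → ℂ) z =
    Complex.exp (Complex.I * ((((0 : ℤ × ℤ).1 : ℤ) : ℂ) * z.1 + (((0 : ℤ × ℤ).2 : ℤ) : ℂ) * z.2)) :=
    rfl
  have h1 : ((1 : CP) : ℝ × ℝ → ℂ) z = 1 := rfl
  rw [h1, h2]; simp

theorem mn_one : mn ((1 : CP) : ℝ × ℝ → ℂ) = 1 := by
  unfold mn
  have h1 : ∀ z, ((1 : CP) : ℝ × ℝ → ℂ) z = 1 := fun _ => rfl
  simp only [h1, intervalIntegral.integral_const]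
  have : (π : ℂ) ≠ 0 := by exact_mod_cast Real.pi_ne_zero
  simp
  field_simp

theorem mn_ex (m : ℤ × ℤ) : mn (ex m : ℝ × ℝ → ℂ) = if m = 0 then 1 else 0 := by
  split_ifs with h
  · rw [h, ex_zero, mn_one]
  · have hs : ∀ c : ℂ, mn ((c • ex m : CP) : ℝ × ℝ → ℂ) = c * mn (ex m : ℝ × ℝ → ℂ) :=
      fun c => mn_smul c _
    by_cases h1 : m.1 = 0
    · have h2 : m.2 ≠ 0 := fun h2 => h (Prod.ext h1 h2)
      have h3 := mn_dY (ex m)
      rw [dY_ex, hs] at h3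
      rcases mul_eq_zero.mp h3 with h4 | h4
      · exact absurd h4 (mul_ne_zero Complex.I_ne_zero (by exact_mod_cast h2))
      · exact h4
    · have h3 := mn_dX (ex m)
      rw [dX_ex, hs] at h3
      rcases mul_eq_zero.mp h3 with h4 | h4
      · exact absurd h4 (mul_ne_zero Complex.I_ne_zero (by exact_mod_cast h1))
      · exact h4

theorem exists_bound (F : CP) : ∃ B : ℝ, 0 ≤ B ∧ ∀ k, ‖coef F k‖ ≤ B := by
  have hK : IsCompact (Set.uIcc (0 : ℝ) (2 * π) ×ˢ Set.uIcc (0 : ℝ) (2 * π)) :=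
    isCompact_uIcc.prod isCompact_uIcc
  obtain ⟨B, hB⟩ := hK.exists_bound_of_continuousOn (f := (F : ℝ × ℝ → ℂ))
    F.smooth.continuous.continuousOn
  have hB0 : 0 ≤ B := (norm_nonneg _).trans (hB (0, 0) (by simp))
  refine ⟨‖(1 / (2 * π) ^ 2 : ℂ)‖ * ((B * |2 * π - 0|) * |2 * π - 0|), by positivity, ?_⟩
  intro k
  unfold coef
  rw [norm_mul]
  refine mul_le_mul_of_nonneg_left ?_ (norm_nonneg _)
  refine intervalIntegral.norm_integral_le_of_norm_le_const fun x hx => ?_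
  refine intervalIntegral.norm_integral_le_of_norm_le_const fun y hy => ?_
  rw [norm_mul]
  have h1 : ‖Complex.exp (-(Complex.I * ((k.1 : ℂ) * x + (k.2 : ℂ) * y)))‖ = 1 := by
    rw [Complex.norm_exp]
    simp
  rw [h1, mul_one]
  exact hB (x, y) ⟨Set.uIoc_subset_uIcc hx, Set.uIoc_subset_uIcc hy⟩

theorem sz_nonneg (k : ℤ × ℤ) : 0 ≤ sz k := by unfold sz; positivity

theorem summable_one_dim : Summable fun k : ℤ => ((1 + |(k : ℝ)|) ^ 2)⁻¹ := by
  have h : Summable fun k : ℤ => 1 / (k : ℝ) ^ 2 :=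
    Real.summable_one_div_int_pow.mpr (by norm_num)
  refine Summable.of_norm_bounded_eventually (g := fun k : ℤ => 1 / (k : ℝ) ^ 2) h ?_
  refine Filter.eventually_cofinite.mpr ?_
  refine (Set.finite_singleton (0 : ℤ)).subset ?_
  intro k hk
  by_contra hne
  apply hk
  have hk0 : k ≠ 0 := hne
  have hpos : 0 < |(k : ℝ)| := abs_pos.mpr (by exact_mod_cast hk0)
  rw [Real.norm_of_nonneg (by positivity), ← one_div]
  have : (k : ℝ) ^ 2 = |(k : ℝ)| ^ 2 := (sq_abs _).symm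
  rw [this]
  exact one_div_le_one_div_of_le (by positivity)
    (pow_le_pow_left₀ (abs_nonneg _) (by linarith) 2)

theorem summable_two_dim : Summable fun k : ℤ × ℤ => ((1 + sz k) ^ 4)⁻¹ := by
  have h := summable_one_dim.mul_of_nonneg summable_one_dim
    (fun _ => by positivity) (fun _ => by positivity)
  refine Summable.of_nonneg_of_le (fun k => by have := sz_nonneg k; positivity) (fun k => ?_) h
  have h1 : (1 + |(k.1 : ℝ)|) ^ 2 * (1 + |(k.2 : ℝ)|) ^ 2 ≤ (1 + sz k) ^ 4 := by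
    have ha := abs_nonneg (k.1 : ℝ)
    have hb := abs_nonneg (k.2 : ℝ)
    have e1 : (1 + |(k.1 : ℝ)|) ^ 2 ≤ (1 + sz k) ^ 2 :=
      pow_le_pow_left₀ (by positivity) (by unfold sz; linarith) 2
    have e2 : (1 + |(k.2 : ℝ)|) ^ 2 ≤ (1 + sz k) ^ 2 :=
      pow_le_pow_left₀ (by positivity) (by unfold sz; linarith) 2
    calc _ ≤ (1 + sz k) ^ 2 * (1 + sz k) ^ 2 :=
          mul_le_mul e1 e2 (by positivity) (by positivity)
      _ = _ := by ring
  rw [← mul_inv]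
  exact inv_anti₀ (by positivity) h1

end F1

open F1

theorem coef_add (F G : CP) (k : ℤ × ℤ) : coef (F + G) k = coef F k + coef G k := by
  rw [coef_eq, coef_eq, coef_eq, ← mn_add (CP.smooth _).continuous (CP.smooth _).continuous]
  congr 1
  funext z
  have h1 : (((F + G) * ex (-k) : CP) : ℝ × ℝ → ℂ) z =
    ((F : ℝ × ℝ → ℂ) z + (G : ℝ × ℝ → ℂ) z) * (ex (-k) : ℝ × ℝ → ℂ) z := rfl
  have h2 : ((F * ex (-k) : CP) : ℝ × ℝ → ℂ) z =
    (F : ℝ × ℝ → ℂ) z * (ex (-k) : ℝ × ℝ → ℂ) z := rfl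
  have h3 : ((G * ex (-k) : CP) : ℝ × ℝ → ℂ) z =
    (G : ℝ × ℝ → ℂ) z * (ex (-k) : ℝ × ℝ → ℂ) z := rfl
  rw [h1, h2, h3, add_mul]

theorem coef_smul (c : ℂ) (F : CP) (k : ℤ × ℤ) : coef (c • F) k = c * coef F k := by
  rw [coef_eq, coef_eq, ← mn_smul]
  congr 1
  funext z
  have h1 : (((c • F) * ex (-k) : CP) : ℝ × ℝ → ℂ) z =
    (c * (F : ℝ × ℝ → ℂ) z) * (ex (-k) : ℝ × ℝ → ℂ) z := rfl
  have h2 : ((F * ex (-k) : CP) : ℝ × ℝ → ℂ) z =
    (F : ℝ × ℝ → ℂ) z * (ex (-k) : ℝ × ℝ → ℂ) z := rfl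
  rw [h1, h2, mul_assoc]

theorem coef_dX (F : CP) (k : ℤ × ℤ) : coef (dX F) k = Complex.I * k.1 * coef F k := by
  have h := mn_dX (F * ex (-k))
  have e : dX (F * ex (-k)) = dX F * ex (-k) + (-(Complex.I * k.1)) • (F * ex (-k)) := by
    rw [dX_mul, dX_ex, mul_smul_comm]
    congr 2
    simp
  have h1 : mn ((dX F * ex (-k) + (-(Complex.I * k.1)) • (F * ex (-k)) : CP) : ℝ × ℝ → ℂ) =
      mn ((dX F * ex (-k) : CP) : ℝ × ℝ → ℂ) +
      mn (((-(Complex.I * k.1)) • (F * ex (-k)) : CP) : ℝ × ℝ → ℂ) :=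
    mn_add (CP.smooth _).continuous (CP.smooth _).continuous
  have h2 : mn (((-(Complex.I * k.1)) • (F * ex (-k)) : CP) : ℝ × ℝ → ℂ) =
      -(Complex.I * k.1) * mn ((F * ex (-k) : CP) : ℝ × ℝ → ℂ) := mn_smul _ _
  rw [e, h1, h2, ← coef_eq, ← coef_eq] at h
  linear_combination h

theorem coef_dY (F : CP) (k : ℤ × ℤ) : coef (dY F) k = Complex.I * k.2 * coef F k := by
  have h := mn_dY (F * ex (-k))
  have e : dY (F * ex (-k)) = dY F * ex (-k) + (-(Complex.I * k.2)) • (F * ex (-k)) := by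
    rw [dY_mul, dY_ex, mul_smul_comm]
    congr 2
    simp
  have h1 : mn ((dY F * ex (-k) + (-(Complex.I * k.2)) • (F * ex (-k)) : CP) : ℝ × ℝ → ℂ) =
      mn ((dY F * ex (-k) : CP) : ℝ × ℝ → ℂ) +
      mn (((-(Complex.I * k.2)) • (F * ex (-k)) : CP) : ℝ × ℝ → ℂ) :=
    mn_add (CP.smooth _).continuous (CP.smooth _).continuous
  have h2 : mn (((-(Complex.I * k.2)) • (F * ex (-k)) : CP) : ℝ × ℝ → ℂ) =
      -(Complex.I * k.2) * mn ((F * ex (-k) : CP) : ℝ × ℝ → ℂ) := mn_smul _ _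
  rw [e, h1, h2, ← coef_eq, ← coef_eq] at h
  linear_combination h

theorem coef_ex (m k : ℤ × ℤ) : coef (ex m) k = if k = m then 1 else 0 := by
  rw [coef_eq, ← ex_add, mn_ex]
  have : m + -k = 0 ↔ k = m := by
    rw [← sub_eq_add_neg, sub_eq_zero]; exact eq_comm
  simp only [this]

theorem coef_star (F G : CP) (h : ∀ z, (G : ℝ × ℝ → ℂ) z = conj ((F : ℝ × ℝ → ℂ) z))
    (k : ℤ × ℤ) : coef G k = conj (coef F (-k)) := by
  unfold coef
  rw [map_mul, ← intervalIntegral.intervalIntegral_conj]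
  congr 1
  · simp [map_ofNat]
  refine intervalIntegral.integral_congr fun x _ => ?_
  rw [← intervalIntegral.intervalIntegral_conj]
  refine intervalIntegral.integral_congr fun y _ => ?_
  simp only [h, map_mul, ← Complex.exp_conj]
  congr 2
  simp
  ring

theorem coef_rapid (F : CP) (m : ℕ) : Summable fun k => (1 + sz k) ^ m * ‖coef F k‖ := by
  have hb : ∀ (m : ℕ) (F : CP), ∃ B : ℝ, ∀ k, (1 + sz k) ^ m * ‖coef F k‖ ≤ B := by
    intro m
    induction m with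
    | zero =>
      intro F
      obtain ⟨B, _, hB⟩ := exists_bound F
      exact ⟨B, fun k => by simpa using hB k⟩
    | succ m ih =>
      intro F
      obtain ⟨B1, h1⟩ := ih F
      obtain ⟨B2, h2⟩ := ih (dX F)
      obtain ⟨B3, h3⟩ := ih (dY F)
      refine ⟨B1 + B2 + B3, fun k => ?_⟩
      have e2 : ‖coef (dX F) k‖ = |(k.1 : ℝ)| * ‖coef F k‖ := by
        rw [coef_dX, norm_mul, norm_mul, Complex.norm_I, one_mul]
        congr 1
        rw [← Complex.ofReal_intCast, Complex.norm_real, Real.norm_eq_abs]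
      have e3 : ‖coef (dY F) k‖ = |(k.2 : ℝ)| * ‖coef F k‖ := by
        rw [coef_dY, norm_mul, norm_mul, Complex.norm_I, one_mul]
        congr 1
        rw [← Complex.ofReal_intCast, Complex.norm_real, Real.norm_eq_abs]
      have h1' := h1 k
      have h2' := h2 k
      have h3' := h3 k
      rw [e2] at h2'
      rw [e3] at h3'
      have : (1 + sz k) ^ (m + 1) * ‖coef F k‖ = (1 + sz k) ^ m * ‖coef F k‖ +
          (1 + sz k) ^ m * (|(k.1 : ℝ)| * ‖coef F k‖) +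
          (1 + sz k) ^ m * (|(k.2 : ℝ)| * ‖coef F k‖) := by
        rw [pow_succ]
        conv_lhs => rw [show (1 + sz k) ^ m * (1 + sz k) = (1 + sz k) ^ m *
          (1 + (|(k.1 : ℝ)| + |(k.2 : ℝ)|)) from rfl]
        ring
      rw [this]
      linarith
  obtain ⟨B, hB⟩ := hb (m + 4) F
  refine Summable.of_nonneg_of_le (fun k => by have := sz_nonneg k; positivity) (fun k => ?_)
    (summable_two_dim.mul_left B)
  have hp : 0 < (1 + sz k) ^ 4 := by have := sz_nonneg k; positivity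
  rw [← div_eq_mul_inv, le_div_iff₀ hp]
  calc _ = (1 + sz k) ^ (m + 4) * ‖coef F k‖ := by ring
    _ ≤ B := hB k

end Vale.Agent.P205
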