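import Vale.Agent.P205.Fourier1

open scoped ContDiff ComplexConjugate
open Real Filter MeasureTheory intervalIntegral

namespace Vale.Agent.P205

namespace F2

theorem one_dim (f : ℝ → ℂ) (hf : Continuous f) (hp : Function.Periodic f (2 * π)) (a : ℤ → ℂ)
    (ha : ∀ n, a n = (1 / (2 * π) : ℂ) *
      ∫ t in (0 : ℝ)..(2 * π), f t * Complex.exp (-(Complex.I * ((n : ℂ) * t))))
    (hs : Summable a) (t : ℝ) :
    HasSum (fun n => a n * Complex.exp (Complex.I * ((n : ℂ) * t))) (f t) := by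
  have : Fact (0 < 2 * π) := ⟨by positivity⟩
  let g : C(AddCircle (2 * π), ℂ) := ⟨hp.lift, by
    refine continuous_coinduced_dom.mpr ?_
    exact hf⟩
  have hg : ∀ t : ℝ, g (t : AddCircle (2 * π)) = f t := fun t => hp.lift_coe t
  have hc : ∀ n, fourierCoeff g n = a n := by
    intro n
    rw [fourierCoeff_eq_intervalIntegral g n 0, ha n, zero_add]
    have h1 : ((1 / (2 * π) : ℝ)) • (∫ x in (0 : ℝ)..(2 * π), fourier (-n) (x : AddCircle (2 * π)) •
        g x) = (1 / (2 * π) : ℂ) * ∫ x in (0 : ℝ)..(2 * π), fourier (-n) (x : AddCircle (2 * π)) •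
        g x := by
      rw [Complex.real_smul]; push_cast; rfl
    rw [h1]
    congr 1
    refine intervalIntegral.integral_congr fun x _ => ?_
    simp only [hg, smul_eq_mul, fourier_coe_apply]
    rw [mul_comm]
    congr 2
    push_cast
    have : (π : ℂ) ≠ 0 := by exact_mod_cast Real.pi_ne_zero
    field_simp
  have hsum : Summable (fourierCoeff g) := by
    have : fourierCoeff g = a := funext hc
    rw [this]; exact hs
  have h := has_pointwise_sum_fourier_series_of_summable hsum (t : AddCircle (2 * π))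
  rw [hg] at h
  refine h.congr_fun ?_
  intro n
  rw [hc, smul_eq_mul, fourier_coe_apply]
  congr 2
  push_cast
  have : (π : ℂ) ≠ 0 := by exact_mod_cast Real.pi_ne_zero
  field_simp

/-- partial Fourier coefficient in x -/
noncomputable def cc (F : CP) (n : ℤ) (y : ℝ) : ℂ := (1 / (2 * π) : ℂ) *
  ∫ x in (0 : ℝ)..(2 * π), (F : ℝ × ℝ → ℂ) (x, y) * Complex.exp (-(Complex.I * ((n : ℂ) * x)))

theorem cont_cc (F : CP) (n : ℤ) : Continuous (cc F n) := by
  unfold cc
  refine continuous_const.mul ?_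
  refine intervalIntegral.continuous_parametric_intervalIntegral_of_continuous'
    (f := fun (y x : ℝ) => (F : ℝ × ℝ → ℂ) (x, y) * Complex.exp (-(Complex.I * ((n : ℂ) * x))))
    ?_ 0 (2 * π)
  have h1 : Continuous fun p : ℝ × ℝ => (F : ℝ × ℝ → ℂ) (p.2, p.1) :=
    F.smooth.continuous.comp (by fun_prop)
  have h2 : Continuous fun p : ℝ × ℝ => Complex.exp (-(Complex.I * ((n : ℂ) * (p.2 : ℂ)))) := by
    fun_prop
  exact h1.mul h2

theorem cc_per (F : CP) (n : ℤ) : Function.Periodic (cc F n) (2 * π) := by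
  intro y
  unfold cc
  simp only [F.perY]

theorem coef_cc (F : CP) (n m : ℤ) : coef F (n, m) = (1 / (2 * π) : ℂ) *
    ∫ y in (0 : ℝ)..(2 * π), cc F n y * Complex.exp (-(Complex.I * ((m : ℂ) * y))) := by
  have hc : Continuous fun z : ℝ × ℝ => (F : ℝ × ℝ → ℂ) z *
      Complex.exp (-(Complex.I * ((n : ℂ) * z.1 + (m : ℂ) * z.2))) := by
    refine F.smooth.continuous.mul ?_
    fun_prop
  have h := F1.swap hc
  unfold coef
  rw [show (∫ x in (0 : ℝ)..(2 * π), ∫ y in (0 : ℝ)..(2 * π), (F : ℝ × ℝ → ℂ) (x, y) *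
      Complex.exp (-(Complex.I * (((n, m) : ℤ × ℤ).1 * (x : ℂ) + ((n, m) : ℤ × ℤ).2 * (y : ℂ))))) =
      _ from h]
  have h2 : ∀ y : ℝ, ∫ x in (0 : ℝ)..(2 * π), (F : ℝ × ℝ → ℂ) (x, y) *
      Complex.exp (-(Complex.I * ((n : ℂ) * x + (m : ℂ) * y))) =
      ((2 * π : ℂ) * cc F n y) * Complex.exp (-(Complex.I * ((m : ℂ) * y))) := by
    intro y
    unfold cc
    have hpi : (2 * π : ℂ) ≠ 0 := by
      have : (π : ℂ) ≠ 0 := by exact_mod_cast Real.pi_ne_zero
      exact mul_ne_zero two_ne_zero this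
    rw [← mul_assoc (2 * π : ℂ), mul_one_div_cancel hpi, one_mul,
      ← intervalIntegral.integral_mul_const]
    refine intervalIntegral.integral_congr fun x _ => ?_
    rw [mul_assoc, ← Complex.exp_add]
    congr 2
    ring
  simp only [h2]
  have h3 : ∀ y : ℝ, (2 * π : ℂ) * cc F n y * Complex.exp (-(Complex.I * ((m : ℂ) * y))) =
      (2 * π : ℂ) * (cc F n y * Complex.exp (-(Complex.I * ((m : ℂ) * y)))) := fun y => by ring
  simp only [h3, intervalIntegral.integral_const_mul]
  have : (π : ℂ) ≠ 0 := by exact_mod_cast Real.pi_ne_zero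
  field_simp

theorem summable_norm (F : CP) : Summable fun k => ‖coef F k‖ := by
  simpa using coef_rapid F 0

theorem norm_ex (k : ℤ × ℤ) (z : ℝ × ℝ) : ‖(ex k : ℝ × ℝ → ℂ) z‖ = 1 := by
  have : (ex k : ℝ × ℝ → ℂ) z =
    Complex.exp (Complex.I * ((k.1 : ℂ) * z.1 + (k.2 : ℂ) * z.2)) := rfl
  rw [this, Complex.norm_exp]
  simp

theorem cc_hasSum (F : CP) (n : ℤ) (y : ℝ) :
    HasSum (fun m : ℤ => coef F (n, m) * Complex.exp (Complex.I * ((m : ℂ) * y))) (cc F n y) := by
  refine one_dim (cc F n) (cont_cc F n) (cc_per F n) (fun m => coef F (n, m))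
    (fun m => coef_cc F n m) ?_ y
  exact ((summable_norm F).prod_factor n).of_norm

theorem cc_summable (F : CP) (y : ℝ) : Summable fun n => cc F n y := by
  have h1 := (summable_norm F).prod
  refine Summable.of_norm_bounded h1 fun n => ?_
  rw [← (cc_hasSum F n y).tsum_eq]
  have h2 : ∀ m : ℤ, ‖coef F (n, m) * Complex.exp (Complex.I * ((m : ℂ) * y))‖
      = ‖coef F (n, m)‖ := by
    intro m
    rw [norm_mul, Complex.norm_exp]
    simp
  have h3 := norm_tsum_le_tsum_norm (f := fun m : ℤ =>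
    coef F (n, m) * Complex.exp (Complex.I * ((m : ℂ) * y)))
    (by simp only [h2]; exact (summable_norm F).prod_factor n)
  simpa only [h2] using h3

theorem sec_hasSum (F : CP) (x y : ℝ) :
    HasSum (fun n : ℤ => cc F n y * Complex.exp (Complex.I * ((n : ℂ) * x)))
      ((F : ℝ × ℝ → ℂ) (x, y)) := by
  refine one_dim (fun x => (F : ℝ × ℝ → ℂ) (x, y)) (F.smooth.continuous.comp (by fun_prop))
    (fun x => F.perX x y) (fun n => cc F n y) (fun n => rfl) (cc_summable F y) x

theorem g_iter (n : ℕ) (t : ℝ) : iteratedDeriv n (fun t : ℝ => Complex.exp (Complex.I * t)) t =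
    Complex.I ^ n * Complex.exp (Complex.I * t) := by
  induction n generalizing t with
  | zero => simp
  | succ n ih =>
    rw [iteratedDeriv_succ]
    have : iteratedDeriv n (fun t : ℝ => Complex.exp (Complex.I * t)) =
      fun t : ℝ => Complex.I ^ n * Complex.exp (Complex.I * t) := funext ih
    rw [this]
    have h : HasDerivAt (fun t : ℝ => Complex.I ^ n * Complex.exp (Complex.I * t))
        (Complex.I ^ n * (Complex.exp (Complex.I * t) * (Complex.I * 1))) t := by
      refine HasDerivAt.const_mul _ ?_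
      exact (((hasDerivAt_id t).ofReal_comp.const_mul Complex.I).cexp)
    rw [h.deriv]
    ring

/-- the frequency as a linear form -/
noncomputable def lf (k : ℤ × ℤ) : ℝ × ℝ →L[ℝ] ℝ :=
  (k.1 : ℝ) • ContinuousLinearMap.fst ℝ ℝ ℝ + (k.2 : ℝ) • ContinuousLinearMap.snd ℝ ℝ ℝ

theorem norm_lf (k : ℤ × ℤ) : ‖lf k‖ ≤ sz k := by
  refine ContinuousLinearMap.opNorm_le_bound _ (F1.sz_nonneg k) fun z => ?_
  have h1 : lf k z = (k.1 : ℝ) * z.1 + (k.2 : ℝ) * z.2 := by simp [lf]
  rw [h1, Real.norm_eq_abs]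
  have h2 : |z.1| ≤ ‖z‖ := norm_fst_le z
  have h3 : |z.2| ≤ ‖z‖ := norm_snd_le z
  calc |(k.1 : ℝ) * z.1 + (k.2 : ℝ) * z.2| ≤ |(k.1 : ℝ) * z.1| + |(k.2 : ℝ) * z.2| := abs_add_le _ _
    _ = |(k.1 : ℝ)| * |z.1| + |(k.2 : ℝ)| * |z.2| := by rw [abs_mul, abs_mul]
    _ ≤ |(k.1 : ℝ)| * ‖z‖ + |(k.2 : ℝ)| * ‖z‖ := by gcongr
    _ = sz k * ‖z‖ := by unfold sz; ring

theorem iter_bound (k : ℤ × ℤ) (n : ℕ) (z : ℝ × ℝ) :
    ‖iteratedFDeriv ℝ n (ex k : ℝ × ℝ → ℂ) z‖ ≤ (1 + sz k) ^ n := by
  have hg : ContDiff ℝ ∞ (fun t : ℝ => Complex.exp (Complex.I * t)) :=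
    Complex.contDiff_exp.comp (contDiff_const.mul Complex.ofRealCLM.contDiff)
  have he : (ex k : ℝ × ℝ → ℂ) = (fun t : ℝ => Complex.exp (Complex.I * t)) ∘ (lf k) := by
    funext z
    have : (ex k : ℝ × ℝ → ℂ) z =
      Complex.exp (Complex.I * ((k.1 : ℂ) * z.1 + (k.2 : ℂ) * z.2)) := rfl
    rw [this]
    simp [lf]
  rw [he, ContinuousLinearMap.iteratedFDeriv_comp_right (lf k) hg z (i := n)
    (by exact_mod_cast le_top)]
  refine (ContinuousMultilinearMap.norm_compContinuousLinearMap_le _ _).trans ?_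
  rw [norm_iteratedFDeriv_eq_norm_iteratedDeriv, g_iter, norm_mul, norm_pow, Complex.norm_I,
    one_pow, one_mul, Complex.norm_exp]
  simp only [Complex.mul_re, Complex.I_re, zero_mul, Complex.I_im, Complex.ofReal_im, mul_zero,
    sub_self, Real.exp_zero, one_mul, Finset.prod_const, Finset.card_univ, Fintype.card_fin]
  exact pow_le_pow_left₀ (norm_nonneg _) ((norm_lf k).trans (by linarith)) n

theorem mn_hasSum {ι : Type} [Countable ι] (g : ι → ℝ × ℝ → ℂ) (f : ℝ × ℝ → ℂ) (b : ι → ℝ)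
    (hc : ∀ i, Continuous (g i)) (hb : ∀ i z, ‖g i z‖ ≤ b i) (hs : Summable b)
    (h : ∀ z, HasSum (fun i => g i z) (f z)) : HasSum (fun i => F1.mn (g i)) (F1.mn f) := by
  unfold F1.mn
  refine HasSum.mul_left _ ?_
  have hin : ∀ x : ℝ, HasSum (fun i => ∫ y in (0 : ℝ)..(2 * π), g i (x, y))
      (∫ y in (0 : ℝ)..(2 * π), f (x, y)) := by
    intro x
    refine intervalIntegral.hasSum_integral_of_dominated_convergence (fun i _ => b i) ?_ ?_ ?_ ?_ ?_
    · intro i
      exact (F1.cont_sec (hc i) x).aestronglyMeasurable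
    · intro i
      exact Filter.Eventually.of_forall fun y _ => hb i (x, y)
    · exact Filter.Eventually.of_forall fun y _ => hs
    · exact intervalIntegrable_const
    · exact Filter.Eventually.of_forall fun y _ => h (x, y)
  refine intervalIntegral.hasSum_integral_of_dominated_convergence
    (fun i _ => b i * |2 * π - 0|) ?_ ?_ ?_ ?_ ?_
  · intro i
    exact (F1.cont_inner (hc i)).aestronglyMeasurable
  · intro i
    exact Filter.Eventually.of_forall fun x _ =>
      intervalIntegral.norm_integral_le_of_norm_le_const fun y _ => hb i (x, y)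
  · exact Filter.Eventually.of_forall fun y _ => hs.mul_right _
  · exact intervalIntegrable_const
  · exact Filter.Eventually.of_forall fun x _ => hin x

/-- complex conjugation on CP -/
noncomputable def cj (F : CP) : CP :=
  ⟨fun z => conj ((F : ℝ × ℝ → ℂ) z), Complex.conjCLE.contDiff.comp F.smooth,
    fun x y => by simp only [F.perX], fun x y => by simp only [F.perY]⟩

theorem cj_apply (F : CP) (z : ℝ × ℝ) : (cj F : ℝ × ℝ → ℂ) z = conj ((F : ℝ × ℝ → ℂ) z) := rfl

end F2

open F2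

theorem hasSum_coef (F : CP) (z : ℝ × ℝ) :
    HasSum (fun k => coef F k * (ex k : ℝ × ℝ → ℂ) z) ((F : ℝ × ℝ → ℂ) z) := by
  obtain ⟨x, y⟩ := z
  have hs : Summable fun k => coef F k * (ex k : ℝ × ℝ → ℂ) (x, y) := by
    refine Summable.of_norm ?_
    simp only [norm_mul, norm_ex, mul_one]
    exact summable_norm F
  have h1 := hs.hasSum
  have h2 := h1.prod_fiberwise (g := fun n : ℤ =>
    cc F n y * Complex.exp (Complex.I * ((n : ℂ) * x))) (by
      intro n
      have h := (cc_hasSum F n y).mul_right (Complex.exp (Complex.I * ((n : ℂ) * x)))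
      refine h.congr_fun fun m => ?_
      have e : (ex (n, m) : ℝ × ℝ → ℂ) (x, y) =
        Complex.exp (Complex.I * ((n : ℂ) * x + (m : ℂ) * y)) := rfl
      rw [e, mul_assoc, ← Complex.exp_add]
      congr 2
      ring)
  have h3 := h2.unique (sec_hasSum F x y)
  rw [← h3]
  exact h1

theorem coef_inj {F G : CP} (h : ∀ k, coef F k = coef G k) : F = G := by
  ext z
  have h1 := hasSum_coef F z
  simp only [h] at h1
  exact h1.unique (hasSum_coef G z)

theorem norm_le_tsum (F : CP) (z : ℝ × ℝ) : ‖(F : ℝ × ℝ → ℂ) z‖ ≤ ∑' k, ‖coef F k‖ := by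
  rw [← (hasSum_coef F z).tsum_eq]
  have h := norm_tsum_le_tsum_norm (f := fun k => coef F k * (ex k : ℝ × ℝ → ℂ) z)
    (by simp only [norm_mul, norm_ex, mul_one]; exact summable_norm F)
  simpa only [norm_mul, norm_ex, mul_one] using h

theorem exists_ser (a : ℤ × ℤ → ℂ) (ha : ∀ m : ℕ, Summable fun k => (1 + sz k) ^ m * ‖a k‖) :
    ∃ F : CP, ∀ k, coef F k = a k := by
  have hs : ∀ z : ℝ × ℝ, Summable fun k => a k * (ex k : ℝ × ℝ → ℂ) z := by
    intro z
    refine Summable.of_norm ?_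
    simp only [norm_mul, norm_ex, mul_one]
    simpa using ha 0
  have hsm : ContDiff ℝ ∞ fun z : ℝ × ℝ => ∑' k, a k * (ex k : ℝ × ℝ → ℂ) z := by
    refine contDiff_tsum (N := ⊤) (v := fun n k => (1 + sz k) ^ n * ‖a k‖) ?_ (fun n _ => ha n) ?_
    · intro k
      exact contDiff_const.mul (ex k).smooth
    · intro n k z _
      have h1 : (fun z => a k * (ex k : ℝ × ℝ → ℂ) z) = a k • (ex k : ℝ × ℝ → ℂ) := rfl
      have h2 : ContDiffAt ℝ n (ex k : ℝ × ℝ → ℂ) z :=
        ((ex k).smooth.of_le (by exact_mod_cast le_top)).contDiffAt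
      rw [h1, iteratedFDeriv_const_smul_apply h2, norm_smul, mul_comm]
      exact mul_le_mul_of_nonneg_right (iter_bound k n z) (norm_nonneg _)
  let F : CP := ⟨fun z => ∑' k, a k * (ex k : ℝ × ℝ → ℂ) z, hsm,
    fun x y => by simp only [(ex _).perX], fun x y => by simp only [(ex _).perY]⟩
  refine ⟨F, fun k => ?_⟩
  -- compute the coefficient by the one-dimensional dominated argument
  have hsum : HasSum (fun m => coef (a m • ex m) k) (coef F k) := by
    simp only [F1.coef_eq]
    refine mn_hasSum (fun m => ((a m • ex m * ex (-k) : CP) : ℝ × ℝ → ℂ)) _ (fun m => ‖a m‖)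
      (fun m => (CP.smooth _).continuous) ?_ (by simpa using ha 0) ?_
    · intro m z
      have e : ((a m • ex m * ex (-k) : CP) : ℝ × ℝ → ℂ) z =
        a m * (ex m : ℝ × ℝ → ℂ) z * (ex (-k) : ℝ × ℝ → ℂ) z := rfl
      rw [e, norm_mul, norm_mul, norm_ex, norm_ex, mul_one, mul_one]
    · intro z
      exact (hs z).hasSum.mul_right ((ex (-k) : ℝ × ℝ → ℂ) z)
  have h2 : ∀ m, coef (a m • ex m) k = if m = k then a k else 0 := by
    intro m
    rw [coef_smul, coef_ex]
    by_cases h : m = k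
    · subst h; simp
    · have : ¬ k = m := fun h' => h h'.symm
      simp [h, this]
  simp only [h2] at hsum
  exact hsum.unique (hasSum_ite_eq k (a k))

theorem isRl_iff (F : CP) : IsRl F ↔ ∀ k, coef F (-k) = conj (coef F k) := by
  constructor
  · intro h k
    have := coef_star F F (fun z => (Complex.conj_eq_iff_im.mpr (h z)).symm) (-k)
    rw [this, neg_neg]
  · intro h
    have h1 : cj F = F := by
      refine coef_inj fun k => ?_
      rw [coef_star F (cj F) (fun z => rfl) k, h k, Complex.conj_conj]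
    intro z
    have h2 : (cj F : ℝ × ℝ → ℂ) z = (F : ℝ × ℝ → ℂ) z := by rw [h1]
    rw [cj_apply] at h2
    exact Complex.conj_eq_iff_im.mp h2

end Vale.Agent.P205
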