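import Vale.Agent.P205.Fourier2

open scoped ContDiff ComplexConjugate
open Real Filter MeasureTheory intervalIntegral

namespace Vale.Agent.P205

namespace F3

open F2

theorem coef_mul_hasSum (F G : CP) (k : ℤ × ℤ) :
    HasSum (fun l => coef F l * coef G (k - l)) (coef (F * G) k) := by
  have h := mn_hasSum (fun l => ((coef F l • ex l * (G * ex (-k)) : CP) : ℝ × ℝ → ℂ))
    ((F * (G * ex (-k)) : CP) : ℝ × ℝ → ℂ)
    (fun l => ‖coef F l‖ * ∑' k, ‖coef G k‖) (fun l => (CP.smooth _).continuous) ?_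
    ((summable_norm F).mul_right _) ?_
  · have e : F * (G * ex (-k)) = F * G * ex (-k) := by ring
    rw [e, ← F1.coef_eq] at h
    refine h.congr_fun fun l => ?_
    have e1 : coef F l • ex l * (G * ex (-k)) = coef F l • (G * ex (-(k - l))) := by
      rw [show -(k - l) = l + -k by abel, F1.ex_add, smul_mul_assoc]
      congr 1
      ring
    have e2 : F1.mn (((coef F l • (G * ex (-(k - l))) : CP)) : ℝ × ℝ → ℂ) =
      coef F l * F1.mn ((G * ex (-(k - l)) : CP) : ℝ × ℝ → ℂ) := F1.mn_smul _ _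
    rw [e1, e2, ← F1.coef_eq]
  · intro l z
    have e : ((coef F l • ex l * (G * ex (-k)) : CP) : ℝ × ℝ → ℂ) z = coef F l *
      (ex l : ℝ × ℝ → ℂ) z * ((G : ℝ × ℝ → ℂ) z * (ex (-k) : ℝ × ℝ → ℂ) z) := rfl
    rw [e, norm_mul, norm_mul, norm_mul, norm_ex, norm_ex, mul_one, mul_one]
    exact mul_le_mul_of_nonneg_left (norm_le_tsum G z) (norm_nonneg _)
  · intro z
    exact (hasSum_coef F z).mul_right (((G * ex (-k) : CP) : ℝ × ℝ → ℂ) z)

/-- real mean value -/
noncomputable def mr (f : ℝ × ℝ → ℝ) : ℝ :=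
  (1 / (2 * π) ^ 2) * ∫ x in (0 : ℝ)..(2 * π), ∫ y in (0 : ℝ)..(2 * π), f (x, y)

theorem mn_ofReal (f : ℝ × ℝ → ℝ) : F1.mn (fun z => (f z : ℂ)) = (mr f : ℂ) := by
  unfold F1.mn mr
  simp only [intervalIntegral.integral_ofReal]
  push_cast
  rfl

theorem cont_inner {f : ℝ × ℝ → ℝ} (hf : Continuous f) :
    Continuous fun x : ℝ => ∫ y in (0 : ℝ)..(2 * π), f (x, y) :=
  intervalIntegral.continuous_parametric_intervalIntegral_of_continuous' (f := fun x y => f (x, y))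
    (by simpa [Function.uncurry_def] using hf) 0 (2 * π)

theorem mr_mono {f g : ℝ × ℝ → ℝ} (hf : Continuous f) (hg : Continuous g) (h : ∀ z, f z ≤ g z) :
    mr f ≤ mr g := by
  unfold mr
  refine mul_le_mul_of_nonneg_left ?_ (by positivity)
  have h0 : (0 : ℝ) ≤ 2 * π := by positivity
  refine intervalIntegral.integral_mono_on h0 ((cont_inner hf).intervalIntegrable _ _)
    ((cont_inner hg).intervalIntegrable _ _) fun x _ => ?_
  have hfx : Continuous fun y : ℝ => f (x, y) := hf.comp (by fun_prop)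
  have hgx : Continuous fun y : ℝ => g (x, y) := hg.comp (by fun_prop)
  exact intervalIntegral.integral_mono_on h0 (hfx.intervalIntegrable _ _)
    (hgx.intervalIntegrable _ _) fun y _ => h (x, y)

theorem mr_const_mul (c : ℝ) (f : ℝ × ℝ → ℝ) : mr (fun z => c * f z) = c * mr f := by
  unfold mr
  simp only [intervalIntegral.integral_const_mul]
  ring

theorem parseval (F : CP) : HasSum (fun k => ‖coef F k‖ ^ 2)
    (mr fun z => ‖(F : ℝ × ℝ → ℂ) z‖ ^ 2) := by
  have h := coef_mul_hasSum F (cj F) 0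
  have e1 : coef (F * cj F) 0 = ((mr fun z => ‖(F : ℝ × ℝ → ℂ) z‖ ^ 2 : ℝ) : ℂ) := by
    rw [F1.coef_eq, neg_zero, F1.ex_zero, mul_one, ← mn_ofReal]
    congr 1
    funext z
    have e2 : ((F * cj F : CP) : ℝ × ℝ → ℂ) z =
      (F : ℝ × ℝ → ℂ) z * conj ((F : ℝ × ℝ → ℂ) z) := rfl
    rw [e2, Complex.mul_conj, Complex.normSq_eq_norm_sq]
  rw [e1] at h
  have e3 : (fun l => coef F l * coef (cj F) (0 - l)) = fun l => ((‖coef F l‖ ^ 2 : ℝ) : ℂ) := by
    funext l
    rw [zero_sub, coef_star F (cj F) (fun z => rfl) (-l), neg_neg, Complex.mul_conj,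
      Complex.normSq_eq_norm_sq]
  rw [e3] at h
  exact_mod_cast h

end F3

open F3 F2

theorem coef_mul (F G : CP) (k : ℤ × ℤ) : coef (F * G) k = ∑' l, coef F l * coef G (k - l) :=
  (coef_mul_hasSum F G k).tsum_eq.symm

theorem parseval_mul (m F : CP) (k0 : ℝ) (h0 : 0 ≤ k0)
    (hm : ∀ z, ‖(m : ℝ × ℝ → ℂ) z‖ ≤ k0) :
    Summable (fun k => ‖coef (m * F) k‖ ^ 2) ∧ Summable (fun k => ‖coef F k‖ ^ 2) ∧
    ∑' k, ‖coef (m * F) k‖ ^ 2 ≤ k0 ^ 2 * ∑' k, ‖coef F k‖ ^ 2 := by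
  have h1 := parseval (m * F)
  have h2 := parseval F
  refine ⟨h1.summable, h2.summable, ?_⟩
  rw [h1.tsum_eq, h2.tsum_eq, ← mr_const_mul]
  refine mr_mono ?_ ?_ ?_
  · exact ((m * F : CP).smooth.continuous.norm).pow 2
  · exact continuous_const.mul ((F.smooth.continuous.norm).pow 2)
  · intro z
    have e : ((m * F : CP) : ℝ × ℝ → ℂ) z = (m : ℝ × ℝ → ℂ) z * (F : ℝ × ℝ → ℂ) z := rfl
    rw [e, norm_mul, mul_pow]
    exact mul_le_mul_of_nonneg_right (pow_le_pow_left₀ (norm_nonneg _) (hm z) 2) (by positivity)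

end Vale.Agent.P205
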