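import Vale.Agent.P205.Norms

open scoped ContDiff ComplexConjugate
open Real Filter

namespace Vale.Agent.P205

namespace GAux

theorem nv_nonneg {w : ℤ × ℤ → ℝ} (hw : IsWt w) (U : Fin 4 → CP) : 0 ≤ nv w U :=
  Finset.sum_nonneg fun c _ => nw_nonneg hw (U c)

theorem le_nv {w : ℤ × ℤ → ℝ} (hw : IsWt w) (U : Fin 4 → CP) (c : Fin 4) :
    nw w (U c) ≤ nv w U :=
  Finset.single_le_sum (f := fun c => nw w (U c)) (fun c _ => nw_nonneg hw (U c))
    (Finset.mem_univ c)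

/-- the Lipschitz factor -/
theorem lip_nonneg (n : ℕ) {w : ℤ × ℤ → ℝ} (hw : IsWt w) (U V : Fin 4 → CP) :
    0 ≤ (1 / (n : ℝ) + n ^ 2 * (nv w U + nv w V)) * nv w (U - V) := by
  have h1 := nv_nonneg hw U
  have h2 := nv_nonneg hw V
  have h3 := nv_nonneg hw (U - V)
  positivity

end GAux

open GAux

theorem Good_add {Φ Ψ : ℕ → (Fin 4 → CP) → CP} (h : Good Φ) (h' : Good Ψ) :
    Good (fun n U => Φ n U + Ψ n U) := by
  obtain ⟨C1, c1, h1⟩ := h
  obtain ⟨C2, c2, h2⟩ := h'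
  refine ⟨C1 + C2, by positivity, fun n hn s => ?_⟩
  filter_upwards [h1 n hn s, h2 n hn s] with N ⟨a1, b1⟩ ⟨a2, b2⟩
  have hw := wt_isWt 0 n N s
  refine ⟨?_, fun U V => ?_⟩
  · calc nw (wt 0 n N s) (Φ n 0 + Ψ n 0) ≤ _ := nw_add_le hw _ _
      _ ≤ C1 / n ^ 4 + C2 / n ^ 4 := add_le_add a1 a2
      _ = _ := by ring
  · have e : Φ n U + Ψ n U - (Φ n V + Ψ n V) = (Φ n U - Φ n V) + (Ψ n U - Ψ n V) := by abel
    rw [e]
    refine (nw_add_le hw _ _).trans ((add_le_add (b1 U V) (b2 U V)).trans_eq ?_)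
    ring

theorem Good_smul {Φ : ℕ → (Fin 4 → CP) → CP} (h : Good Φ) (c : ℕ → ℂ) (K : ℝ)
    (hc : ∀ n, 1 ≤ n → ‖c n‖ ≤ K) : Good (fun n U => c n • Φ n U) := by
  obtain ⟨C, c0, h1⟩ := h
  have hK : 0 ≤ K := (norm_nonneg _).trans (hc 1 le_rfl)
  refine ⟨K * C, by positivity, fun n hn s => ?_⟩
  filter_upwards [h1 n hn s] with N ⟨a1, b1⟩
  have hw := wt_isWt 0 n N s
  have hn' := hc n hn
  refine ⟨?_, fun U V => ?_⟩
  · rw [nw_smul]
    calc ‖c n‖ * nw (wt 0 n N s) (Φ n 0) ≤ K * (C / n ^ 4) :=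
          mul_le_mul hn' a1 (nw_nonneg hw _) hK
      _ = _ := by ring
  · rw [← smul_sub, nw_smul]
    calc ‖c n‖ * nw (wt 0 n N s) (Φ n U - Φ n V) ≤ K * _ :=
          mul_le_mul hn' (b1 U V) (nw_nonneg hw _) hK
      _ = _ := by ring

theorem Good_neg {Φ : ℕ → (Fin 4 → CP) → CP} (h : Good Φ) :
    Good (fun n U => -Φ n U) := by
  have h1 := Good_smul h (fun _ => (-1 : ℂ)) 1 (fun n _ => by simp)
  have e : (fun (n : ℕ) (U : Fin 4 → CP) => (-1 : ℂ) • Φ n U) = fun n U => -Φ n U := by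
    funext n U; simp
  rw [e] at h1
  exact h1

theorem Good_sub {Φ Ψ : ℕ → (Fin 4 → CP) → CP} (h : Good Φ) (h' : Good Ψ) :
    Good (fun n U => Φ n U - Ψ n U) := by
  have h1 := Good_add h (Good_neg h')
  have e : (fun (n : ℕ) (U : Fin 4 → CP) => Φ n U + -Ψ n U) = fun n U => Φ n U - Ψ n U := by
    funext n U; rw [sub_eq_add_neg]
  rw [e] at h1
  exact h1

theorem Good_ub {Φ : ℕ → (Fin 4 → CP) → CP} (h : Good Φ) {L : ℕ → CP →ₗ[ℂ] CP}
    (hL : UB 0 0 L) : Good (fun n U => L n (Φ n U)) := by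
  obtain ⟨C, c0, h1⟩ := h
  obtain ⟨K, k0, h2⟩ := hL
  refine ⟨K * C, by positivity, fun n hn s => ?_⟩
  filter_upwards [h1 n hn s, h2 n hn s] with N ⟨a1, b1⟩ a2
  refine ⟨?_, fun U V => ?_⟩
  · calc nw (wt 0 n N s) (L n (Φ n 0)) ≤ K * nw (wt 0 n N s) (Φ n 0) := a2 _
      _ ≤ K * (C / n ^ 4) := mul_le_mul_of_nonneg_left a1 k0
      _ = _ := by ring
  · rw [← map_sub]
    calc nw (wt 0 n N s) (L n (Φ n U - Φ n V)) ≤ K * nw (wt 0 n N s) (Φ n U - Φ n V) := a2 _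
      _ ≤ K * _ := mul_le_mul_of_nonneg_left (b1 U V) k0
      _ = _ := by ring

theorem Good_mul {Φ : ℕ → (Fin 4 → CP) → CP} (h : Good Φ) {a : ℕ → CP} (ha : Bdd a) :
    Good (fun n U => a n * Φ n U) := by
  obtain ⟨C, c0, h1⟩ := h
  obtain ⟨K, k0, h2⟩ := ha
  refine ⟨K * C, by positivity, fun n hn s => ?_⟩
  filter_upwards [h1 n hn s, h2 n hn s] with N ⟨a1, b1⟩ a2
  have hw := wt_isWt 0 n N s
  refine ⟨?_, fun U V => ?_⟩
  · calc nw (wt 0 n N s) (a n * Φ n 0) ≤ nw (wt 0 n N s) (a n) * nw (wt 0 n N s) (Φ n 0) :=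
          nw_mul_le hw _ _
      _ ≤ K * (C / n ^ 4) := mul_le_mul a2 a1 (nw_nonneg hw _) k0
      _ = _ := by ring
  · rw [← mul_sub]
    calc nw (wt 0 n N s) (a n * (Φ n U - Φ n V))
        ≤ nw (wt 0 n N s) (a n) * nw (wt 0 n N s) (Φ n U - Φ n V) := nw_mul_le hw _ _
      _ ≤ K * _ := mul_le_mul a2 (b1 U V) (nw_nonneg hw _) k0
      _ = _ := by ring

theorem Good_const {h : ℕ → CP} (hb : Bdd h) :
    Good (fun n _ => (1 / (n : ℂ) ^ 4) • h n) := by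
  obtain ⟨K, k0, h2⟩ := hb
  refine ⟨K, k0, fun n hn s => ?_⟩
  filter_upwards [h2 n hn s] with N a2
  have hw := wt_isWt 0 n N s
  refine ⟨?_, fun U V => ?_⟩
  · rw [nw_smul, norm_div, norm_one, norm_pow, Complex.norm_natCast]
    calc 1 / (n : ℝ) ^ 4 * nw (wt 0 n N s) (h n) ≤ 1 / (n : ℝ) ^ 4 * K :=
          mul_le_mul_of_nonneg_left a2 (by positivity)
      _ = _ := by ring
  · rw [sub_self, nw_zero, mul_assoc]
    exact mul_nonneg k0 (lip_nonneg n hw U V)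

theorem Good_lin {a : ℕ → CP} (ha : Bdd a) (c : Fin 4) :
    Good (fun n U => (1 / (n : ℂ)) • (a n * U c)) := by
  obtain ⟨K, k0, h2⟩ := ha
  refine ⟨K, k0, fun n hn s => ?_⟩
  filter_upwards [h2 n hn s] with N a2
  have hw := wt_isWt 0 n N s
  refine ⟨?_, fun U V => ?_⟩
  · rw [Pi.zero_apply, mul_zero, smul_zero, nw_zero]
    positivity
  · rw [← smul_sub, ← mul_sub, nw_smul, norm_div, norm_one, Complex.norm_natCast]
    have h1 : nw (wt 0 n N s) (U c - V c) ≤ nv (wt 0 n N s) (U - V) := le_nv hw (U - V) c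
    have h3 := nv_nonneg hw U
    have h4 := nv_nonneg hw V
    have h5 := nv_nonneg hw (U - V)
    calc 1 / (n : ℝ) * nw (wt 0 n N s) (a n * (U c - V c))
        ≤ 1 / (n : ℝ) * (K * nv (wt 0 n N s) (U - V)) := by
          refine mul_le_mul_of_nonneg_left ?_ (by positivity)
          exact (nw_mul_le hw _ _).trans (mul_le_mul a2 h1 (nw_nonneg hw _) k0)
      _ = K * (1 / (n : ℝ)) * nv (wt 0 n N s) (U - V) := by ring
      _ ≤ K * (1 / (n : ℝ) + n ^ 2 * (nv (wt 0 n N s) U + nv (wt 0 n N s) V)) *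
          nv (wt 0 n N s) (U - V) := by
          refine mul_le_mul_of_nonneg_right ?_ h5
          refine mul_le_mul_of_nonneg_left ?_ k0
          have : 0 ≤ (n : ℝ) ^ 2 * (nv (wt 0 n N s) U + nv (wt 0 n N s) V) := by positivity
          linarith

theorem Good_quad {Φ : ℕ → (Fin 4 → CP) → CP} (h : Quad Φ) : Good Φ := by
  obtain ⟨K, k0, h2⟩ := h
  refine ⟨K, k0, fun n hn s => ?_⟩
  obtain ⟨h0, h3⟩ := h2 n hn
  filter_upwards [h3 s] with N a2
  have hw := wt_isWt 0 n N s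
  refine ⟨?_, fun U V => ?_⟩
  · rw [h0, nw_zero]
    positivity
  · refine (a2 U V).trans ?_
    have h3 := nv_nonneg hw U
    have h4 := nv_nonneg hw V
    have h5 := nv_nonneg hw (U - V)
    refine mul_le_mul_of_nonneg_right ?_ h5
    rw [mul_assoc]
    refine mul_le_mul_of_nonneg_left ?_ k0
    have : 0 ≤ 1 / (n : ℝ) := by positivity
    linarith

end Vale.Agent.P205
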