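import Vale.Agent.P205.Fourier3

open scoped ContDiff ComplexConjugate
open Real Filter

namespace Vale.Agent.P205

namespace NAux

theorem sz_nonneg (k : ℤ × ℤ) : 0 ≤ sz k := F1.sz_nonneg k

theorem sz_neg (k : ℤ × ℤ) : sz (-k) = sz k := by
  unfold sz
  simp

theorem sz_add (k l : ℤ × ℤ) : sz (k + l) ≤ sz k + sz l := by
  unfold sz
  have h1 : |(((k + l).1 : ℤ) : ℝ)| ≤ |(k.1 : ℝ)| + |(l.1 : ℝ)| := by
    rw [Prod.fst_add]; push_cast; exact abs_add_le _ _
  have h2 : |(((k + l).2 : ℤ) : ℝ)| ≤ |(k.2 : ℝ)| + |(l.2 : ℝ)| := by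
    rw [Prod.snd_add]; push_cast; exact abs_add_le _ _
  linarith

theorem fac (c : ℝ) (hc : 0 ≤ c) (k l : ℤ × ℤ) :
    1 + sz (k + l) * c ≤ (1 + sz k * c) * (1 + sz l * c) := by
  have h := sz_add k l
  have h1 := sz_nonneg k
  have h2 := sz_nonneg l
  have h3 : sz (k + l) * c ≤ (sz k + sz l) * c := mul_le_mul_of_nonneg_right h hc
  have h4 : 0 ≤ (sz k * c) * (sz l * c) := by positivity
  nlinarith

theorem fac_pow (c : ℝ) (hc : 0 ≤ c) (m : ℕ) (k l : ℤ × ℤ) :
    (1 + sz (k + l) * c) ^ m ≤ (1 + sz k * c) ^ m * (1 + sz l * c) ^ m := by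
  rw [← mul_pow]
  have h1 := sz_nonneg (k + l)
  exact pow_le_pow_left₀ (by positivity) (fac c hc k l) m

end NAux

open NAux

theorem wt_isWt (j n N s : ℕ) : IsWt (wt j n N s) where
  one_le k := by
    have h := sz_nonneg k
    unfold wt
    have h1 : 1 ≤ (1 + sz k) ^ j := one_le_pow₀ (by linarith)
    have h2 : 1 ≤ (1 + sz k / n) ^ 2 :=
      one_le_pow₀ (by have : 0 ≤ sz k / n := by positivity
                      linarith)
    have h3 : 1 ≤ (1 + sz k / N) ^ s :=
      one_le_pow₀ (by have : 0 ≤ sz k / N := by positivity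
                      linarith)
    exact one_le_mul_of_one_le_of_one_le h1 (one_le_mul_of_one_le_of_one_le h2 h3)
  symm k := by unfold wt; rw [sz_neg]
  mul k l := by
    have a1 := fac_pow 1 zero_le_one j k l
    have a2 := fac_pow ((n : ℝ)⁻¹) (by positivity) 2 k l
    have a3 := fac_pow ((N : ℝ)⁻¹) (by positivity) s k l
    simp only [mul_one, ← div_eq_mul_inv] at a1 a2 a3
    have p1 := sz_nonneg k
    have p2 := sz_nonneg l
    have p3 := sz_nonneg (k + l)
    unfold wt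
    calc (1 + sz (k + l)) ^ j * ((1 + sz (k + l) / n) ^ 2 * (1 + sz (k + l) / N) ^ s)
        ≤ ((1 + sz k) ^ j * (1 + sz l) ^ j) * (((1 + sz k / n) ^ 2 * (1 + sz l / n) ^ 2) *
          ((1 + sz k / N) ^ s * (1 + sz l / N) ^ s)) := by
          refine mul_le_mul a1 (mul_le_mul a2 a3 (by positivity) (by positivity))
            (by positivity) (by positivity)
      _ = _ := by ring
  growth := by
    refine ⟨j + (2 + s), 1, fun k => ?_⟩
    have h := sz_nonneg k
    have aux : ∀ c : ℕ, 1 + sz k / c ≤ 1 + sz k := by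
      intro c
      have : sz k / c ≤ sz k := by
        rcases Nat.eq_zero_or_pos c with rfl | hc
        · simpa using h
        · exact div_le_self h (by exact_mod_cast hc)
      linarith
    unfold wt
    rw [one_mul, pow_add, pow_add]
    have h2 : (1 + sz k / n) ^ 2 ≤ (1 + sz k) ^ 2 := pow_le_pow_left₀ (by positivity) (aux n) 2
    have h3 : (1 + sz k / N) ^ s ≤ (1 + sz k) ^ s := pow_le_pow_left₀ (by positivity) (aux N) s
    exact mul_le_mul_of_nonneg_left (mul_le_mul h2 h3 (by positivity) (by positivity))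
      (by positivity)

namespace NAux

theorem wpos {w : ℤ × ℤ → ℝ} (hw : IsWt w) (k : ℤ × ℤ) : 0 ≤ w k :=
  zero_le_one.trans (hw.one_le k)

end NAux

theorem nw_summable {w : ℤ × ℤ → ℝ} (hw : IsWt w) (F : CP) :
    Summable fun k => w k * ‖coef F k‖ := by
  obtain ⟨m, C, hC⟩ := hw.growth
  refine Summable.of_nonneg_of_le (fun k => mul_nonneg (wpos hw k) (norm_nonneg _)) (fun k => ?_)
    ((coef_rapid F m).mul_left C)
  rw [← mul_assoc]
  exact mul_le_mul_of_nonneg_right (hC k) (norm_nonneg _)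

theorem nw_nonneg {w : ℤ × ℤ → ℝ} (hw : IsWt w) (F : CP) : 0 ≤ nw w F :=
  tsum_nonneg fun k => mul_nonneg (wpos hw k) (norm_nonneg _)

theorem nw_add_le {w : ℤ × ℤ → ℝ} (hw : IsWt w) (F G : CP) :
    nw w (F + G) ≤ nw w F + nw w G := by
  unfold nw
  rw [← (nw_summable hw F).tsum_add (nw_summable hw G)]
  refine (nw_summable hw (F + G)).tsum_le_tsum (fun k => ?_)
    ((nw_summable hw F).add (nw_summable hw G))
  rw [coef_add, ← mul_add]
  exact mul_le_mul_of_nonneg_left (norm_add_le _ _) (wpos hw k)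

theorem nw_smul (w : ℤ × ℤ → ℝ) (c : ℂ) (F : CP) : nw w (c • F) = ‖c‖ * nw w F := by
  unfold nw
  rw [← tsum_mul_left]
  refine tsum_congr fun k => ?_
  rw [coef_smul, norm_mul]; ring

theorem nw_neg (w : ℤ × ℤ → ℝ) (F : CP) : nw w (-F) = nw w F := by
  have : -F = (-1 : ℂ) • F := by simp
  rw [this, nw_smul]; simp

theorem nw_sub_le {w : ℤ × ℤ → ℝ} (hw : IsWt w) (F G : CP) :
    nw w (F - G) ≤ nw w F + nw w G := by
  rw [sub_eq_add_neg, ← nw_neg w G]
  exact nw_add_le hw F (-G)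

theorem nw_zero (w : ℤ × ℤ → ℝ) : nw w 0 = 0 := by
  have h : (0 : CP) = (0 : ℂ) • (0 : CP) := by simp
  rw [h, nw_smul]; simp

theorem nw_eq_zero {w : ℤ × ℤ → ℝ} (hw : IsWt w) (F : CP) (h : nw w F = 0) : F = 0 := by
  have h0 : ∀ k, coef (0 : CP) k = 0 := by
    intro k
    have : (0 : CP) = (0 : ℂ) • (0 : CP) := by simp
    rw [this, coef_smul, zero_mul]
  refine coef_inj fun k => ?_
  rw [h0 k]
  have h1 := (hasSum_zero_iff_of_nonneg (f := fun k => w k * ‖coef F k‖)
    (fun k => mul_nonneg (wpos hw k) (norm_nonneg _))).mp (by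
      have := (nw_summable hw F).hasSum
      unfold nw at h
      rwa [h] at this)
  have h2 : w k * ‖coef F k‖ = 0 := congrFun h1 k
  rcases mul_eq_zero.mp h2 with h3 | h3
  · have := hw.one_le k; linarith
  · exact norm_eq_zero.mp h3

theorem nw_mono {w w' : ℤ × ℤ → ℝ} (hw : IsWt w) (hw' : IsWt w') (F G : CP) (C : ℝ)
    (h : ∀ k, w k * ‖coef F k‖ ≤ C * (w' k * ‖coef G k‖)) : nw w F ≤ C * nw w' G := by
  unfold nw
  rw [← tsum_mul_left]
  exact (nw_summable hw F).tsum_le_tsum h ((nw_summable hw' G).mul_left C)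

theorem nw_mul_le {w : ℤ × ℤ → ℝ} (hw : IsWt w) (F G : CP) :
    nw w (F * G) ≤ nw w F * nw w G := by
  have hF := nw_summable hw F
  have hG := nw_summable hw G
  -- the double family
  have hprod : Summable fun p : (ℤ × ℤ) × (ℤ × ℤ) =>
      (w p.1 * ‖coef F p.1‖) * (w p.2 * ‖coef G p.2‖) :=
    hF.mul_of_nonneg hG (fun k => mul_nonneg (wpos hw k) (norm_nonneg _))
      (fun k => mul_nonneg (wpos hw k) (norm_nonneg _))
  let e : (ℤ × ℤ) × (ℤ × ℤ) ≃ (ℤ × ℤ) × (ℤ × ℤ) :=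
    { toFun := fun p => (p.2, p.1 - p.2)
      invFun := fun p => (p.1 + p.2, p.1)
      left_inv := fun p => by ext <;> simp
      right_inv := fun p => by ext <;> simp }
  have hprod2 : Summable fun p : (ℤ × ℤ) × (ℤ × ℤ) =>
      (w p.2 * ‖coef F p.2‖) * (w (p.1 - p.2) * ‖coef G (p.1 - p.2)‖) :=
    (e.summable_iff (f := fun p : (ℤ × ℤ) × (ℤ × ℤ) =>
      (w p.1 * ‖coef F p.1‖) * (w p.2 * ‖coef G p.2‖))).mpr hprod
  have heq : ∑' p : (ℤ × ℤ) × (ℤ × ℤ),
      (w p.2 * ‖coef F p.2‖) * (w (p.1 - p.2) * ‖coef G (p.1 - p.2)‖) = nw w F * nw w G := by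
    unfold nw
    rw [hF.tsum_mul_tsum hG hprod]
    exact e.tsum_eq (fun p : (ℤ × ℤ) × (ℤ × ℤ) =>
      (w p.1 * ‖coef F p.1‖) * (w p.2 * ‖coef G p.2‖))
  rw [← heq, hprod2.tsum_prod]
  unfold nw
  refine (nw_summable hw (F * G)).tsum_le_tsum (fun k => ?_) hprod2.prod
  have hk : Summable fun l => (w l * ‖coef F l‖) * (w (k - l) * ‖coef G (k - l)‖) :=
    hprod2.prod_factor k
  have hk2 : Summable fun l => ‖coef F l * coef G (k - l)‖ := by
    refine Summable.of_nonneg_of_le (fun _ => norm_nonneg _) (fun l => ?_) hk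
    rw [norm_mul]
    have h1 := hw.one_le l
    have h2 := hw.one_le (k - l)
    have n1 := norm_nonneg (coef F l)
    have n2 := norm_nonneg (coef G (k - l))
    have a1 : ‖coef F l‖ ≤ w l * ‖coef F l‖ := le_mul_of_one_le_left n1 h1
    have a2 : ‖coef G (k - l)‖ ≤ w (k - l) * ‖coef G (k - l)‖ := le_mul_of_one_le_left n2 h2
    exact mul_le_mul a1 a2 n2 (mul_nonneg (wpos hw l) n1)
  rw [coef_mul]
  calc w k * ‖∑' l, coef F l * coef G (k - l)‖
      ≤ w k * ∑' l, ‖coef F l * coef G (k - l)‖ :=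
        mul_le_mul_of_nonneg_left (norm_tsum_le_tsum_norm hk2) (wpos hw k)
    _ = ∑' l, w k * ‖coef F l * coef G (k - l)‖ := by rw [tsum_mul_left]
    _ ≤ ∑' l, (w l * ‖coef F l‖) * (w (k - l) * ‖coef G (k - l)‖) := by
        refine (hk2.mul_left (w k)).tsum_le_tsum (fun l => ?_) hk
        rw [norm_mul]
        have h := hw.mul l (k - l)
        rw [show l + (k - l) = k by abel] at h
        calc w k * (‖coef F l‖ * ‖coef G (k - l)‖)
            ≤ (w l * w (k - l)) * (‖coef F l‖ * ‖coef G (k - l)‖) :=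
              mul_le_mul_of_nonneg_right h (by positivity)
          _ = _ := by ring

theorem exists_op (M : ℤ × ℤ → ℂ) (C : ℝ) (hM : ∀ k, ‖M k‖ ≤ C) :
    ∃ L : CP →ₗ[ℂ] CP, ∀ F k, coef (L F) k = M k * coef F k := by
  have hex : ∀ F : CP, ∃ G : CP, ∀ k, coef G k = M k * coef F k := by
    intro F
    refine exists_ser _ fun m => ?_
    refine Summable.of_nonneg_of_le (fun k => by have := sz_nonneg k; positivity) (fun k => ?_)
      ((coef_rapid F m).mul_left C)
    rw [norm_mul]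
    have := sz_nonneg k
    calc (1 + sz k) ^ m * (‖M k‖ * ‖coef F k‖) = ‖M k‖ * ((1 + sz k) ^ m * ‖coef F k‖) := by ring
      _ ≤ _ := mul_le_mul_of_nonneg_right (hM k) (by positivity)
  choose L hL using hex
  refine ⟨{ toFun := L, map_add' := ?_, map_smul' := ?_ }, hL⟩
  · intro F G
    refine coef_inj fun k => ?_
    rw [coef_add, hL, hL, hL, coef_add, mul_add]
  · intro c F
    refine coef_inj fun k => ?_
    rw [RingHom.id_apply, coef_smul, hL, hL, coef_smul]
    ring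

theorem op_real (L : CP →ₗ[ℂ] CP) (M : ℤ × ℤ → ℂ) (hL : ∀ F k, coef (L F) k = M k * coef F k)
    (hM : ∀ k, M (-k) = conj (M k)) (F : CP) (hF : IsRl F) : IsRl (L F) := by
  rw [isRl_iff] at hF ⊢
  intro k
  rw [hL, hL, hM, hF k, map_mul]

end Vale.Agent.P205
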