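import Vale.Agent.P205.Fourier3

open scoped ContDiff ComplexConjugate
open Real Filter MeasureTheory intervalIntegral

namespace Vale.Agent.P205

namespace UniAux

open F1 F2

theorem coe_add (F G : CP) (z : ℝ × ℝ) : ((F + G : CP) : ℝ × ℝ → ℂ) z
    = (F : ℝ × ℝ → ℂ) z + (G : ℝ × ℝ → ℂ) z := rfl

theorem coe_sub (F G : CP) (z : ℝ × ℝ) : ((F - G : CP) : ℝ × ℝ → ℂ) z
    = (F : ℝ × ℝ → ℂ) z - (G : ℝ × ℝ → ℂ) z := rfl

theorem coe_mul (F G : CP) (z : ℝ × ℝ) : ((F * G : CP) : ℝ × ℝ → ℂ) z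
    = (F : ℝ × ℝ → ℂ) z * (G : ℝ × ℝ → ℂ) z := rfl

theorem coe_smul (c : ℂ) (F : CP) (z : ℝ × ℝ) : ((c • F : CP) : ℝ × ℝ → ℂ) z
    = c * (F : ℝ × ℝ → ℂ) z := rfl

theorem coe_one (z : ℝ × ℝ) : ((1 : CP) : ℝ × ℝ → ℂ) z = 1 := rfl

theorem coef_sub (F G : CP) (k : ℤ × ℤ) : coef (F - G) k = coef F k - coef G k := by
  have h : F - G = F + (-1 : ℂ) • G := by
    ext z
    rw [coe_sub, coe_add, coe_smul]; ring
  rw [h, coef_add, coef_smul]; ring

theorem coef_one (k : ℤ × ℤ) : coef (1 : CP) k = if k = 0 then 1 else 0 := by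
  rw [← ex_zero, coef_ex]

theorem coef_cj (F : CP) (k : ℤ × ℤ) : coef (cj F) k = conj (coef F (-k)) :=
  coef_star F (cj F) (fun z => cj_apply F z) k

theorem cj_mul (F G : CP) : cj (F * G) = cj F * cj G := by
  ext z
  rw [cj_apply, coe_mul, coe_mul, cj_apply, cj_apply, map_mul]

theorem cj_cj (F : CP) : cj (cj F) = F := by
  ext z
  rw [cj_apply, cj_apply, Complex.conj_conj]

theorem cj_dX (F : CP) : cj (dX F) = dX (cj F) := by
  apply coef_inj
  intro k
  rw [coef_cj, coef_dX, coef_dX, coef_cj]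
  simp

theorem cj_dY (F : CP) : cj (dY F) = dY (cj F) := by
  apply coef_inj
  intro k
  rw [coef_cj, coef_dY, coef_dY, coef_cj]
  simp

theorem coef_zero_eq (F : CP) : coef F 0 = mn (F : ℝ × ℝ → ℂ) := by
  rw [coef_eq, neg_zero, ex_zero, mul_one]

/-- a positive function has positive mean -/
theorem mean_pos (G : CP) (hG : IsRl G) (hp : ∀ z, 0 < ((G : ℝ × ℝ → ℂ) z).re) :
    0 < (coef G 0).re := by
  set g : ℝ × ℝ → ℝ := fun z => ((G : ℝ × ℝ → ℂ) z).re with hg
  have hgc : Continuous g := Complex.continuous_re.comp G.smooth.continuous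
  have h1 : (G : ℝ × ℝ → ℂ) = fun z => ((g z : ℝ) : ℂ) := by
    funext z
    apply Complex.ext
    · simp [hg]
    · simp [hG z]
  have h2 : coef G 0 = ((F3.mr g : ℝ) : ℂ) := by
    rw [coef_zero_eq, h1, F3.mn_ofReal]
  rw [h2, Complex.ofReal_re]
  unfold F3.mr
  have h0 : (0 : ℝ) < 2 * π := by positivity
  refine mul_pos (by positivity) ?_
  refine intervalIntegral.intervalIntegral_pos_of_pos
    ((F3.cont_inner hgc).intervalIntegrable _ _) ?_ h0
  intro x
  have hfx : Continuous fun y : ℝ => g (x, y) := hgc.comp (by fun_prop)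
  exact intervalIntegral.intervalIntegral_pos_of_pos (hfx.intervalIntegrable _ _)
    (fun y => hp (x, y)) h0

/-- integration by parts -/
theorem im_zero (W : CP) : (coef (cj (dX W) * dY W) 0).im = 0 := by
  have hA : coef (dX (cj W * dY W)) 0 = 0 := by
    rw [coef_dX]; simp
  have hB : coef (dY (cj W * dX W)) 0 = 0 := by
    rw [coef_dY]; simp
  rw [dX_mul, coef_add] at hA
  rw [dY_mul, coef_add, ← dX_dY] at hB
  have h1 : coef (dX (cj W) * dY W) 0 = coef (dY (cj W) * dX W) 0 := by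
    linear_combination hA - hB
  have h2 : coef (dY (cj W) * dX W) 0 = conj (coef (dX (cj W) * dY W) 0) := by
    have : dY (cj W) * dX W = cj (dX (cj W) * dY W) := by
      rw [cj_mul, cj_dX, cj_dY, cj_cj, mul_comm]
    rw [this, coef_cj, neg_zero]
  rw [cj_dX]
  rw [h2] at h1
  exact Complex.conj_eq_iff_im.mp h1.symm

end UniAux

open UniAux F1 F2

theorem exists_w (m F : CP) (hF : ∀ z, (F : ℝ × ℝ → ℂ) z ≠ 0)
    (hm : ∀ z, ‖(m : ℝ × ℝ → ℂ) z‖ < 1) (h : dZb F = dZ (m * F)) :
    ∃ (l1 l2 : ℂ) (W : CP), dX W = F * (1 + m) - l1 • (1 : CP) ∧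
      dY W = Complex.I • (F * (1 - m)) - l2 • (1 : CP) ∧ 0 < (conj l1 * l2).im := by
  obtain ⟨A, hA⟩ : ∃ A : CP, A = F * (1 + m) := ⟨_, rfl⟩
  obtain ⟨B, hB⟩ : ∃ B : CP, B = Complex.I • (F * (1 - m)) := ⟨_, rfl⟩
  rw [← hA, ← hB]
  have hAB : dY A = dX B := by
    have h1 : (1 / 2 : ℂ) • (dX F + Complex.I • dY F)
        = (1 / 2 : ℂ) • (dX (m * F) - Complex.I • dY (m * F)) := h
    have hA' : A = F + m * F := by rw [hA]; ring
    have hB' : B = Complex.I • F - Complex.I • (m * F) := by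
      rw [hB, ← smul_sub]; congr 1; ring
    rw [hA', hB', map_add, map_sub, map_smul, map_smul]
    ext z
    have h2 := congrArg (fun G : CP => (G : ℝ × ℝ → ℂ) z) h1
    simp only [coe_smul, coe_add, coe_sub] at h2 ⊢
    linear_combination (-2 * Complex.I) * h2 +
      (((dY F : CP) : ℝ × ℝ → ℂ) z + ((dY (m * F) : CP) : ℝ × ℝ → ℂ) z) * Complex.I_sq
  have hABk : ∀ k : ℤ × ℤ, (k.2 : ℂ) * coef A k = k.1 * coef B k := by
    intro k
    have h1 := congrArg (fun G : CP => coef G k) hAB
    simp only [coef_dX, coef_dY] at h1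
    have h2 : Complex.I * ((k.2 : ℂ) * coef A k) = Complex.I * (k.1 * coef B k) := by
      linear_combination h1
    exact mul_left_cancel₀ Complex.I_ne_zero h2
  set a : ℤ × ℤ → ℂ := fun k => if k.1 ≠ 0 then coef A k / (Complex.I * k.1) else
    if k.2 ≠ 0 then coef B k / (Complex.I * k.2) else 0 with ha
  have habound : ∀ k, ‖a k‖ ≤ ‖coef A k‖ + ‖coef B k‖ := by
    have hint : ∀ n : ℤ, n ≠ 0 → (1 : ℝ) ≤ ‖(Complex.I * (n : ℂ))‖ := by
      intro n hn
      rw [norm_mul, Complex.norm_I, one_mul, Complex.norm_intCast]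
      exact_mod_cast Int.one_le_abs hn
    intro k
    simp only [ha]
    split_ifs with h1 h2
    · rw [norm_div]
      have := hint k.1 h1
      have h3 : ‖coef A k‖ / ‖Complex.I * (k.1 : ℂ)‖ ≤ ‖coef A k‖ :=
        div_le_self (norm_nonneg _) this
      have := norm_nonneg (coef B k)
      linarith
    · rw [norm_div]
      have := hint k.2 h2
      have h3 : ‖coef B k‖ / ‖Complex.I * (k.2 : ℂ)‖ ≤ ‖coef B k‖ :=
        div_le_self (norm_nonneg _) this
      have := norm_nonneg (coef A k)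
      linarith
    · rw [norm_zero]; positivity
  obtain ⟨W, hW⟩ := exists_ser a (by
    intro s
    refine Summable.of_nonneg_of_le (fun k => ?_) (fun k => ?_)
      ((coef_rapid A s).add (coef_rapid B s))
    · have := sz_nonneg k
      positivity
    · rw [← mul_add]
      have := sz_nonneg k
      exact mul_le_mul_of_nonneg_left (habound k) (by positivity))
  have hWX : dX W = A - (coef A 0) • (1 : CP) := by
    apply coef_inj
    intro k
    rw [coef_dX, coef_sub, coef_smul, coef_one, hW]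
    simp only [ha]
    by_cases h1 : k.1 = 0
    · by_cases h2 : k.2 = 0
      · have h3 : k = 0 := Prod.ext h1 h2
        subst h3
        simp
      · have h3 : k ≠ 0 := fun e => h2 (by rw [e]; rfl)
        have h4 := hABk k
        rw [h1] at h4
        have h5 : coef A k = 0 := by
          have h6 : (k.2 : ℂ) ≠ 0 := by exact_mod_cast h2
          rw [Int.cast_zero, zero_mul] at h4
          exact (mul_eq_zero.mp h4).resolve_left h6
        rw [if_neg h3, h5, h1]
        simp
    · have h3 : k ≠ 0 := fun e => h1 (by rw [e]; rfl)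
      have h6 : (k.1 : ℂ) ≠ 0 := by exact_mod_cast h1
      rw [if_pos h1, if_neg h3, mul_zero, sub_zero]
      have := Complex.I_ne_zero
      field_simp
  have hWY : dY W = B - (coef B 0) • (1 : CP) := by
    apply coef_inj
    intro k
    rw [coef_dY, coef_sub, coef_smul, coef_one, hW]
    simp only [ha]
    by_cases h1 : k.1 = 0
    · by_cases h2 : k.2 = 0
      · have h3 : k = 0 := Prod.ext h1 h2
        subst h3
        simp
      · have h3 : k ≠ 0 := fun e => h2 (by rw [e]; rfl)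
        have h6 : (k.2 : ℂ) ≠ 0 := by exact_mod_cast h2
        rw [if_neg (not_not.mpr h1), if_pos h2, if_neg h3, mul_zero, sub_zero]
        have := Complex.I_ne_zero
        field_simp
    · have h3 : k ≠ 0 := fun e => h1 (by rw [e]; rfl)
      have h6 : (k.1 : ℂ) ≠ 0 := by exact_mod_cast h1
      rw [if_pos h1, if_neg h3, mul_zero, sub_zero]
      have h7 := Complex.I_ne_zero
      have h4 := hABk k
      field_simp
      linear_combination h4
  refine ⟨coef A 0, coef B 0, W, hWX, hWY, ?_⟩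
  have hA2 : A = dX W + (coef A 0) • (1 : CP) := by rw [hWX]; abel
  have hB2 : B = dY W + (coef B 0) • (1 : CP) := by rw [hWY]; abel
  have hprod : coef (cj A * B) 0 = coef (cj (dX W) * dY W) 0 + conj (coef A 0) * coef B 0 := by
    have h1 : cj A * B = cj (dX W) * dY W + (coef B 0) • cj (dX W) + (conj (coef A 0)) • dY W
        + (conj (coef A 0) * coef B 0) • (1 : CP) := by
      ext z
      have e1 : (A : ℝ × ℝ → ℂ) z = (dX W : ℝ × ℝ → ℂ) z + coef A 0 := by
        have := congrArg (fun G : CP => (G : ℝ × ℝ → ℂ) z) hA2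
        simpa only [coe_add, coe_smul, coe_one, mul_one] using this
      have e2 : (B : ℝ × ℝ → ℂ) z = (dY W : ℝ × ℝ → ℂ) z + coef B 0 := by
        have := congrArg (fun G : CP => (G : ℝ × ℝ → ℂ) z) hB2
        simpa only [coe_add, coe_smul, coe_one, mul_one] using this
      simp only [coe_add, coe_mul, coe_smul, coe_one, cj_apply, e1, e2, map_add, mul_one]
      ring
    rw [h1, coef_add, coef_add, coef_add, coef_smul, coef_smul, coef_smul, coef_one, if_pos rfl,
      coef_dY, cj_dX, coef_dX]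
    simp
  set G : CP := cj F * F * (1 - cj m * m) with hG
  have hGz : ∀ z, (G : ℝ × ℝ → ℂ) z = ((‖(F : ℝ × ℝ → ℂ) z‖ ^ 2 *
      (1 - ‖(m : ℝ × ℝ → ℂ) z‖ ^ 2) : ℝ) : ℂ) := by
    intro z
    simp only [hG, coe_mul, coe_sub, coe_one, cj_apply]
    rw [Complex.conj_mul', Complex.conj_mul']
    push_cast
    ring
  have hGpos : 0 < (coef G 0).re := by
    apply mean_pos
    · intro z; rw [hGz, Complex.ofReal_im]
    · intro z
      rw [hGz, Complex.ofReal_re]
      have h1 : 0 < ‖(F : ℝ × ℝ → ℂ) z‖ := norm_pos_iff.mpr (hF z)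
      have h2 := hm z
      have h3 := norm_nonneg ((m : ℝ × ℝ → ℂ) z)
      have h4 : 0 < 1 - ‖(m : ℝ × ℝ → ℂ) z‖ ^ 2 := by nlinarith
      positivity
  have hPG : cj A * B - cj (cj A * B) = (2 * Complex.I) • G := by
    ext z
    simp only [hA, hB, hG, cj_mul, cj_cj, coe_sub, coe_mul, coe_smul, coe_one, cj_apply, coe_add,
      map_mul, map_add, map_sub, map_one, Complex.conj_I]
    ring
  have h3 := congrArg (fun G : CP => coef G 0) hPG
  simp only [coef_sub, coef_smul, coef_cj, neg_zero] at h3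
  have h4 := congrArg Complex.im h3
  simp only [Complex.sub_im, Complex.conj_im, Complex.mul_im, Complex.mul_re, Complex.I_re,
    Complex.I_im, Complex.re_ofNat, Complex.im_ofNat] at h4
  have h5 : (coef (cj A * B) 0).im = (coef G 0).re := by linarith
  rw [hprod, Complex.add_im, im_zero, zero_add] at h5
  rw [h5]
  exact hGpos

end Vale.Agent.P205
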